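import Vale.Agent.P235.R2.RED.Stmts

/-!
P235-M, reduction, row F0 (helper341): tight edges give a height function with one bottom and one
top.
-/

set_option autoImplicit false

namespace Vale.Agent.P235.Red.F0

open Vale.Agent.P235

variable {V : Type} {G : SimpleGraph V} {ℓ : Sym2 V → ℝ}

theorem w_nonneg (hℓ : ∀ e ∈ G.edgeSet, 0 < ℓ e) {x y : V} (w : G.Walk x y) :
    0 ≤ (w.edges.map ℓ).sum := by
  apply List.sum_nonneg
  intro a ha
  rw [List.mem_map] at ha
  obtain ⟨e, he, rfl⟩ := ha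
  exact (hℓ e (w.edges_subset_edgeSet he)).le

theorem d_le (hℓ : ∀ e ∈ G.edgeSet, 0 < ℓ e) {x y : V} (w : G.Walk x y) :
    pathDist G ℓ x y ≤ (w.edges.map ℓ).sum :=
  ciInf_le ⟨0, by rintro _ ⟨w, rfl⟩; exact w_nonneg hℓ w⟩ w

theorem d_nonneg (hℓ : ∀ e ∈ G.edgeSet, 0 < ℓ e) (x y : V) : 0 ≤ pathDist G ℓ x y :=
  Real.iInf_nonneg fun w => w_nonneg hℓ w

theorem d_self (hℓ : ∀ e ∈ G.edgeSet, 0 < ℓ e) (x : V) : pathDist G ℓ x x = 0 := by
  refine le_antisymm ?_ (d_nonneg hℓ x x)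
  have h := d_le hℓ (SimpleGraph.Walk.nil : G.Walk x x)
  simpa using h

theorem d_adj (hℓ : ∀ e ∈ G.edgeSet, 0 < ℓ e) {x y : V} (h : G.Adj x y) :
    pathDist G ℓ x y ≤ ℓ s(x, y) := by
  have h1 := d_le hℓ h.toWalk
  simpa using h1

theorem d_symm (hc : G.Connected) (hℓ : ∀ e ∈ G.edgeSet, 0 < ℓ e) (x y : V) :
    pathDist G ℓ x y = pathDist G ℓ y x := by
  have key : ∀ a b : V, pathDist G ℓ a b ≤ pathDist G ℓ b a := by
    intro a b
    have : Nonempty (G.Walk b a) := hc b a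
    refine le_ciInf fun w => ?_
    refine (d_le hℓ w.reverse).trans ?_
    rw [SimpleGraph.Walk.edges_reverse, List.map_reverse, List.sum_reverse]
  exact le_antisymm (key x y) (key y x)

theorem d_tri (hc : G.Connected) (hℓ : ∀ e ∈ G.edgeSet, 0 < ℓ e) (x y z : V) :
    pathDist G ℓ x z ≤ pathDist G ℓ x y + pathDist G ℓ y z := by
  have : Nonempty (G.Walk x y) := hc x y
  have : Nonempty (G.Walk y z) := hc y z
  have h1 : ∀ w : G.Walk y z, pathDist G ℓ x z - (w.edges.map ℓ).sum ≤ pathDist G ℓ x y := by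
    intro w
    refine le_ciInf fun w' => ?_
    have := d_le hℓ (w'.append w)
    rw [SimpleGraph.Walk.edges_append, List.map_append, List.sum_append] at this
    linarith
  have h2 : pathDist G ℓ x z - pathDist G ℓ x y ≤ pathDist G ℓ y z := by
    refine le_ciInf fun w => ?_
    linarith [h1 w]
  linarith

theorem min_edge [Finite V] (hℓ : ∀ e ∈ G.edgeSet, 0 < ℓ e) :
    ∃ ε > 0, ∀ e ∈ G.edgeSet, ε ≤ ℓ e := by
  rcases Set.eq_empty_or_nonempty G.edgeSet with h | h
  · exact ⟨1, one_pos, fun e he => by rw [h] at he; exact absurd he (Set.notMem_empty e)⟩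
  · obtain ⟨e0, he0, hmin⟩ := Set.exists_min_image G.edgeSet ℓ (Set.toFinite _) h
    exact ⟨ℓ e0, hℓ e0 he0, hmin⟩

/-- a vertex different from the root has a neighbour closer to the root -/
theorem exists_closer [Finite V] (hc : G.Connected) (hℓ : ∀ e ∈ G.edgeSet, 0 < ℓ e) {r v : V}
    (h : v ≠ r) : ∃ u, G.Adj v u ∧ pathDist G ℓ u r < pathDist G ℓ v r := by
  by_contra hcon
  push Not at hcon
  obtain ⟨ε, hε, hmin⟩ := min_edge hℓ
  have : Nonempty (G.Walk v r) := hc v r
  have h1 : ε + pathDist G ℓ v r ≤ pathDist G ℓ v r := by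
    conv_rhs => unfold pathDist
    refine le_ciInf fun w => ?_
    cases w with
    | nil => exact absurd rfl h
    | @cons _ u _ ha p =>
      rw [SimpleGraph.Walk.edges_cons, List.map_cons, List.sum_cons]
      have h2 := d_le hℓ p
      have h3 := hcon u ha
      have h4 := hmin _ (G.mem_edgeSet.2 ha)
      linarith
  linarith

/-- **row F0** -/
theorem rowF0 : RowF0 := by
  intro V _ G ℓ s t hc hst hℓ htight
  set d := pathDist G ℓ with hd
  have tri := d_tri hc hℓ
  have step : ∀ u v, G.Adj u v → d s u + ℓ s(u, v) + d v t = d s t → d s v = d s u + ℓ s(u, v) := by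
    intro u v ha h
    have h1 := tri s u v
    have h2 := d_adj hℓ ha
    have h3 := tri s v t
    refine le_antisymm ?_ ?_ <;> linarith
  have two : ∀ u v, G.Adj u v → (d s v = d s u + ℓ s(u, v) ∧ d s u + ℓ s(u, v) + d v t = d s t) ∨
      (d s u = d s v + ℓ s(u, v) ∧ d s v + ℓ s(u, v) + d u t = d s t) := by
    intro u v ha
    rcases htight u v ha with h | h
    · exact Or.inl ⟨step u v ha h, h⟩
    · right
      have h1 : s(v, u) = s(u, v) := Sym2.eq_swap
      have h2 := step v u ha.symm (by rw [h1]; exact h)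
      rw [h1] at h2
      exact ⟨h2, h⟩
  have pos : ∀ u v, G.Adj u v → 0 < ℓ s(u, v) := fun u v ha => hℓ _ (G.mem_edgeSet.2 ha)
  have low : ∀ v, v ≠ s → ∃ u, G.Adj v u ∧ d s u < d s v := by
    intro v hv
    obtain ⟨u, ha, hu⟩ := exists_closer hc hℓ hv
    refine ⟨u, ha, ?_⟩
    rw [hd, d_symm hc hℓ s u, d_symm hc hℓ s v]
    exact hu
  refine ⟨⟨?_, low, ?_, ?_⟩, ?_⟩
  · intro u v ha h
    have h1 := pos u v ha
    rcases two u v ha with ⟨h2, _⟩ | ⟨h2, _⟩
    · linarith
    · linarith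
  · intro v hv
    obtain ⟨u, ha, hu⟩ := exists_closer hc hℓ hv
    refine ⟨u, ha, ?_⟩
    have h1 := pos v u ha
    rcases two v u ha with ⟨h2, _⟩ | ⟨_, h3⟩
    · linarith
    · exfalso
      have h4 := tri s u t
      change d u t < d v t at hu
      linarith
  · obtain ⟨u, _, hu⟩ := low t (Ne.symm hst)
    have h1 : d s s = 0 := d_self hℓ s
    have h2 : 0 ≤ d s u := d_nonneg hℓ s u
    linarith
  · intro u v ha
    have h1 := pos u v ha
    rcases two u v ha with ⟨h2, _⟩ | ⟨h2, _⟩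
    · rw [h2, abs_sub_comm, add_sub_cancel_left, abs_of_pos h1]
    · rw [h2, add_sub_cancel_left, abs_of_pos h1]

end Vale.Agent.P235.Red.F0
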