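import Vale.Agent.P235.R2.H341.F0

/-!
P235-M, reduction, row F (helper341) from the rows B, C, F0.
-/

set_option autoImplicit false

namespace Vale.Agent.P235.Red.F0

open Vale.Agent.P235

/-- **row F** from rows B and C -/
theorem rowF_of (hB : RowB) (hC : RowC) {f : ℕ → ℝ} (hM : MStar f) (hf : ∀ N, 0 ≤ f N) :
    RowF f := by
  intro V _ G σ d₀ ℓ s t hc hp hs ht hℓ htight
  have pos : ∀ u v, G.Adj u v → 0 < ℓ s(u, v) := fun u v ha => hℓ _ (G.mem_edgeSet.2 ha)
  have hst : s ≠ t := by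
    rintro rfl
    have ha := d₀.adj
    have h1 := pos _ _ ha
    have h2 := d_nonneg hℓ s d₀.fst
    have h3 := d_nonneg hℓ s d₀.snd
    have h4 := d_nonneg hℓ d₀.fst s
    have h5 := d_nonneg hℓ d₀.snd s
    have h6 := d_self hℓ s
    rcases htight _ _ ha with h | h <;> linarith
  obtain ⟨hU, hl⟩ := rowF0 V G ℓ s t hc hst hℓ htight
  obtain ⟨P, hS⟩ := hC V G σ d₀ (pathDist G ℓ s) s t hc hp hs ht hU
  exact hB f hM V G ℓ (pathDist G ℓ s) _ P (hf _) hS hl pos

end Vale.Agent.P235.Red.F0
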