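import Vale.Agent.P235.R2.H341.W1
import Vale.Agent.P235.H206.Lanes
import Vale.Agent.P235.H206.SurfFinal

/-!
# Rounds with relative pieces

One round deletes a set; the components which are left only have to be served relatively to the
metric of the whole graph (helper341).
-/

namespace Vale.Agent.P235.H341W

open Finset Vale.Agent.P235 H206 H536

section step

variable {V : Type} {G : SimpleGraph V} {ℓ : Sym2 V → ℝ}

/-- what a round needs from one component -/
def StepIH {V : Type} (G : SimpleGraph V) (ℓ : Sym2 V → ℝ) (P : Set V) (u : V) (K : ℝ) : Prop :=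
  ∀ φ : V → ℝ, (∀ v, 0 ≤ φ v) → (∀ v, v ∉ P → 0 < φ v) →
    (∀ u v, G.Adj u v → |φ u - φ v| ≤ ℓ s(u, v)) →
    PointedD (G.induce (compSet G P u)) (fun e => ℓ (e.map Subtype.val)) (fun v => φ v.1)
      (fun a b => pathDist G ℓ a.1 b.1) K

/-- one round which removes a nonempty set `P` such that some `L₁` map of the whole graph
separates the pairs close to `P` -/
theorem pointed_step_genD [Finite V] (hc : G.Connected) (hℓ : ∀ e ∈ G.edgeSet, 0 < ℓ e) {H : V → ℝ}
    (hH : ∀ v, 0 < H v) (hHl : ∀ u v, G.Adj u v → |H u - H v| ≤ ℓ s(u, v)) {P : Set V}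
    (hP : P.Nonempty) {F : V → V → ℝ} (hF : IsL1 F) (hFl : ∀ u v, G.Adj u v → F u v ≤ ℓ s(u, v))
    {L : ℝ} (hL : 1 ≤ L)
    (hFX : ∀ ν : V → V, Near G ℓ P ν → ∀ x y δ, 0 < δ → pathDist G ℓ x (ν x) ≤ δ →
      pathDist G ℓ y (ν y) ≤ 5 / 4 * δ → 8 * δ ≤ pathDist G ℓ x y → 2 * δ ≤ L * F x y)
    {K : ℝ} (hK : 0 ≤ K)
    (ih : ∀ u ∉ P, StepIH G ℓ P u K) :
    Pointed G ℓ H (K + (L + 4)) := by
  classical
  have := Fintype.ofFinite V
  have hd := pathDist_isMet hc hℓ
  obtain ⟨φ, hφ0, hφH, hφP, hφpos, hφl, hφn⟩ := exists_barrier hℓ hH hHl P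
  obtain ⟨ν, hν⟩ := exists_near (X := P) hc hℓ hP
  have hH0 : ∀ v, 0 ≤ H v := fun v => (hH v).le
  have hL0 : 0 < L := by linarith
  obtain ⟨G0, hG0, hm1, hb1, hb1', hl1⟩ := fanL1 hF hH
  obtain ⟨G1, hG1e⟩ : ∃ G1 : Option V → Option V → ℝ, G1 = fun a b => L * G0 a b := ⟨_, rfl⟩
  have hG1 : IsL1 G1 := by rw [hG1e]; exact hG0.smul hL0.le
  obtain ⟨ι2, _, w2, g2, hw2, hs2, hb2, hm2, hl2, -, -⟩ := fan' fan (fun _ : V => ())
    (fun v => pathDist G ℓ v (ν v)) H hH0
  -- components
  let Q := Quotient (compSetoid G P)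
  have : Fintype Q := Fintype.ofFinite Q
  have hQ : ∀ c : Q, PointedD (G.induce (compSet G P c.out.1)) (fun e => ℓ (e.map Subtype.val))
      (fun v => φ v.1) (fun a b => pathDist G ℓ a.1 b.1) K := fun c => ih c.out.1 c.out.2 φ hφ0
      hφpos hφl
  choose r hrI hr1 hr2 hr3 hr4 using hQ
  have hmk : ∀ (v : V) (hv : v ∉ P), v ∈ compSet G P (⟦⟨v, hv⟩⟧ : Q).out.1 := by
    intro v hv
    exact Quotient.mk_out (s := compSetoid G P) ⟨v, hv⟩
  have huniq : ∀ (c : Q) (v : V) (hv : v ∉ P), v ∈ compSet G P c.out.1 → c = ⟦⟨v, hv⟩⟧ := by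
    intro c v hv h
    have h1 : (⟦c.out⟧ : Q) = ⟦⟨v, hv⟩⟧ := Quotient.sound h
    rwa [Quotient.out_eq] at h1
  have hrX : ∀ (c : Q) (v : V), v ∈ P → v ∉ compSet G P c.out.1 := fun c v hv h =>
    ReachOff.right h hv
  let e : ∀ c : Q, Option V → Option (compSet G P c.out.1) := fun c a =>
    a.elim none fun v => if h : v ∈ compSet G P c.out.1 then some ⟨v, h⟩ else none
  have he0 : ∀ c, e c none = none := fun c => rfl
  have he1 : ∀ c v (h : v ∈ compSet G P c.out.1), e c (some v) = some ⟨v, h⟩ := by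
    intro c v h
    exact dif_pos h
  have he2 : ∀ c v, v ∉ compSet G P c.out.1 → e c (some v) = none := by
    intro c v h
    exact dif_neg h
  let G2 : Option V → Option V → ℝ := fun a b => ∑ i, w2 i * |a.elim 0 (g2 i) - b.elim 0 (g2 i)|
  let G3 : Option V → Option V → ℝ := fun a b => ∑ c : Q, r c (e c a) (e c b)
  have hG2 : IsL1 G2 := IsL1.sum Finset.univ
    (fun i (a b : Option V) => w2 i * |a.elim 0 (g2 i) - b.elim 0 (g2 i)|)
    fun i _ => (isL1_line (fun a : Option V => a.elim 0 (g2 i))).smul (hw2 i)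
  have hG3 : IsL1 G3 := IsL1.sum Finset.univ (fun c a b => r c (e c a) (e c b))
    fun c _ => (hrI c).comap (e c)
  have hn1' : ∀ a b, 0 ≤ G1 a b := hG1.nonneg
  have hn2' : ∀ a b, 0 ≤ G2 a b := hG2.nonneg
  have hn3' : ∀ a b, 0 ≤ G3 a b := hG3.nonneg
  have hterm : ∀ (c : Q) a b, 0 ≤ r c (e c a) (e c b) := fun c a b => (hrI c).nonneg _ _
  have hsingle : ∀ (c : Q) a b, r c (e c a) (e c b) ≤ G3 a b := fun c a b =>
    Finset.single_le_sum (f := fun c => r c (e c a) (e c b)) (fun c _ => hterm c a b)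
      (Finset.mem_univ c)
  refine ⟨fun a b => (G1 a b + 4 * G2 a b) + G3 a b,
    (hG1.add (hG2.smul (by norm_num))).add hG3, ?_, ?_, ?_, ?_⟩
  · -- edges
    intro u v huv
    have hl0 : 0 < ℓ s(u, v) := hℓ _ huv
    have hadj := pathDist_adj hℓ huv
    have f1 : G1 (some u) (some v) ≤ L * ℓ s(u, v) := by
      have a1 := hm1 u v
      have a2 := hFl u v huv
      have a3 := hHl u v huv
      rw [hG1e]
      exact mul_le_mul_of_nonneg_left (by linarith) hL0.le
    have f2 : G2 (some u) (some v) ≤ ℓ s(u, v) := by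
      have : ∀ i ∈ Finset.univ, w2 i * |g2 i u - g2 i v| ≤ w2 i * ℓ s(u, v) := by
        intro i _
        apply mul_le_mul_of_nonneg_left _ (hw2 i)
        refine (hm2 i u v rfl).trans (max_le ?_ (hHl u v huv))
        have a1 := hν.lip hc hℓ u v
        have a2 := hν.lip hc hℓ v u
        rw [hd.symm v u] at a2
        rw [abs_le]; constructor <;> linarith
      refine (Finset.sum_le_sum this).trans ?_
      rw [← Finset.sum_mul, hs2, one_mul]
    have hone : ∀ u v, u ∉ P → G.Adj u v → G3 (some u) (some v) ≤ K * ℓ s(u, v) := by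
      intro u v hu huv
      have hsum : G3 (some u) (some v) = r ⟦⟨u, hu⟩⟧ (e _ (some u)) (e _ (some v)) := by
        refine Finset.sum_eq_single _ (fun c _ hc => ?_) (fun h => absurd (Finset.mem_univ _) h)
        have h1 : u ∉ compSet G P c.out.1 := fun h => hc (huniq c u hu h)
        have h2 : v ∉ compSet G P c.out.1 := fun h =>
          h1 (ReachOff.trans h (ReachOff.adj (ReachOff.right h) hu huv.symm))
        rw [he2 c u h1, he2 c v h2]
        exact (hrI c).self _
      rw [hsum, he1 _ u (hmk u hu)]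
      by_cases hv : v ∈ P
      · rw [he2 _ v (hrX _ v hv)]
        refine (hr2 _ _).trans (mul_le_mul_of_nonneg_left ?_ hK)
        have h1 := hφl u v huv
        rw [hφP v hv, sub_zero] at h1
        exact (le_abs_self _).trans h1
      · have hvK : v ∈ compSet G P (⟦⟨u, hu⟩⟧ : Q).out.1 :=
          ReachOff.trans (hmk u hu) (ReachOff.adj hu hv huv)
        rw [he1 _ v hvK]
        exact hr1 _ _ _ huv
    have f3 : G3 (some u) (some v) ≤ K * ℓ s(u, v) := by
      by_cases hu : u ∈ P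
      · by_cases hv : v ∈ P
        · have hz : G3 (some u) (some v) = 0 := Finset.sum_eq_zero fun c _ => by
            rw [he2 c u (hrX c u hu), he2 c v (hrX c v hv)]
            exact (hrI c).self _
          rw [hz]
          positivity
        · rw [hG3.symm, Sym2.eq_swap]
          exact hone v u hv huv.symm
      · exact hone u v hu huv
    show G1 (some u) (some v) + 4 * G2 (some u) (some v) + G3 (some u) (some v) ≤ _
    linarith
  · -- upper bound at the base point
    intro v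
    have f1 : G1 (some v) none ≤ L * H v := by
      rw [hG1e]
      exact mul_le_mul_of_nonneg_left (hb1 v) hL0.le
    have f2 : G2 (some v) none ≤ H v := by
      have : ∀ i ∈ Finset.univ, w2 i * |g2 i v - 0| ≤ w2 i * H v := by
        intro i _
        apply mul_le_mul_of_nonneg_left _ (hw2 i)
        rw [sub_zero]; exact hb2 i v
      refine (Finset.sum_le_sum this).trans ?_
      rw [← Finset.sum_mul, hs2, one_mul]
    have f3 : G3 (some v) none ≤ K * H v := by
      by_cases hv : v ∈ P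
      · have hz : G3 (some v) none = 0 := Finset.sum_eq_zero fun c _ => by
          rw [he2 c v (hrX c v hv), he0]
          exact (hrI c).self _
        rw [hz]
        exact mul_nonneg hK (hH0 v)
      · have hsum : G3 (some v) none = r ⟦⟨v, hv⟩⟧ (e _ (some v)) (e _ none) := by
          refine Finset.sum_eq_single _ (fun c _ hc => ?_) (fun h => absurd (Finset.mem_univ _) h)
          have h1 : v ∉ compSet G P c.out.1 := fun h => hc (huniq c v hv h)
          rw [he2 c v h1, he0]
          exact (hrI c).self _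
        rw [hsum, he1 _ v (hmk v hv), he0]
        exact (hr2 _ _).trans (mul_le_mul_of_nonneg_left (hφH v) hK)
    show G1 (some v) none + 4 * G2 (some v) none + G3 (some v) none ≤ _
    linarith
  · -- lower bound at the base point
    intro v
    have f1 : H v / 2000 ≤ G1 (some v) none := by
      rw [hG1e]
      have a1 := hb1' v
      have a2 := hG0.nonneg (some v) none
      refine a1.trans ?_
      show G0 (some v) none ≤ L * G0 (some v) none
      nlinarith
    have := hn2' (some v) none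
    have := hn3' (some v) none
    show H v ≤ 2000 * (G1 (some v) none + 4 * G2 (some v) none + G3 (some v) none)
    linarith
  · -- separation
    intro x y δ hx hy hxy
    show δ ≤ 2000 * (G1 (some x) (some y) + 4 * G2 (some x) (some y) + G3 (some x) (some y))
    have p1 := hn1' (some x) (some y)
    have p2 := hn2' (some x) (some y)
    have p3 := hn3' (some x) (some y)
    rcases le_or_gt δ 0 with hδ | hδ
    · linarith
    have key : ∀ a b, δ ≤ H a → δ ≤ H b → 8 * δ ≤ pathDist G ℓ a b → φ a < δ →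
        δ ≤ 2000 * (G1 (some a) (some b) + 4 * G2 (some a) (some b)) := by
      intro a b ha hb hab hφa
      obtain ⟨z, hz, hzf⟩ := hφn a (hφa.trans_le ha)
      have haz : pathDist G ℓ a z < δ := by
        have h1 := hzf (fun v => pathDist G ℓ v z) (fun u v huv => by
          have a1 := hd.tri u v z
          have a2 := hd.tri v u z
          rw [hd.symm v u] at a2
          have a3 := pathDist_adj hℓ huv
          rw [abs_le]; constructor <;> linarith)
        rw [hd.self, sub_zero] at h1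
        exact ((le_abs_self _).trans h1).trans_lt hφa
      exact set_separate4 hc hℓ (F := F) hL (hFX ν hν) hν hδ ha hb hab hz haz (by
        have := hl1 a b
        have e : G1 (some a) (some b) / L = G0 (some a) (some b) := by
          rw [hG1e]
          show L * G0 (some a) (some b) / L = _
          rw [mul_div_cancel_left₀ _ hL0.ne']
        rw [e]
        linarith) (hl2 a b rfl) (hn1' (some a) (some b)) (hn2' (some a) (some b))
    by_cases hφx : δ ≤ φ x
    · by_cases hφy : δ ≤ φ y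
      · have hxP : x ∉ P := fun h => by rw [hφP x h] at hφx; linarith
        have hyP : y ∉ P := fun h => by rw [hφP y h] at hφy; linarith
        have h3 := hsingle ⟦⟨x, hxP⟩⟧ (some x) (some y)
        rw [he1 _ x (hmk x hxP)] at h3
        by_cases hyK : y ∈ compSet G P (⟦⟨x, hxP⟩⟧ : Q).out.1
        · rw [he1 _ y hyK] at h3
          have h4 := hr4 ⟦⟨x, hxP⟩⟧ ⟨x, hmk x hxP⟩ ⟨y, hyK⟩ δ hφx hφy hxy
          linarith
        · rw [he2 _ y hyK] at h3
          have h4 := hr3 ⟦⟨x, hxP⟩⟧ ⟨x, hmk x hxP⟩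
          have h5 : φ x ≤ 2000 * r ⟦⟨x, hxP⟩⟧ (some ⟨x, hmk x hxP⟩) none := h4
          linarith
      · push Not at hφy
        have h1 := key y x hy hx (by rw [hd.symm]; exact hxy) hφy
        rw [hG1.symm, hG2.symm] at h1
        linarith
    · push Not at hφx
      have h1 := key x y hx hy hxy hφx
      linarith

/-- one round which removes a union of at most `s` lanes, i.e. sets on which a function `u`, which
is nonexpanding on the whole graph, is isometric -/
theorem pointed_step_lanesD (hlanes : LanesStmt) {V : Type} {G : SimpleGraph V} {ℓ : Sym2 V → ℝ}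
    [Finite V] (hc : G.Connected) (hℓ : ∀ e ∈ G.edgeSet, 0 < ℓ e) {H : V → ℝ}
    (hH : ∀ v, 0 < H v) (hHl : ∀ u v, G.Adj u v → |H u - H v| ≤ ℓ s(u, v))
    {n s : ℕ} (hn : 0 < n) (hns : n ≤ s) {L : Fin n → Set V} (hL : ∀ i, (L i).Nonempty)
    {u : V → ℝ} (hu : ∀ a b, |u a - u b| ≤ pathDist G ℓ a b)
    (hiso : ∀ i, ∀ a ∈ L i, ∀ b ∈ L i, pathDist G ℓ a b ≤ |u a - u b|) {K : ℝ} (hK : 0 ≤ K)
    (ih : ∀ v ∉ ⋃ i, L i, StepIH G ℓ (⋃ i, L i) v K) :
    Pointed G ℓ H (K + 100 * ((Nat.log 2 s + 1 : ℕ) : ℝ)) := by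
  classical
  have := Fintype.ofFinite V
  have : Nonempty (Fin n) := ⟨⟨0, hn⟩⟩
  have hd := pathDist_isMet hc hℓ
  choose N hN using fun i => exists_near (X := L i) hc hℓ (hL i)
  let D : Fin n → V → ℝ := fun i x => pathDist G ℓ x (N i x)
  have hD0 : ∀ i x, 0 ≤ D i x := fun i x => hd.nonneg _ _
  have hDl : ∀ i x y, |D i x - D i y| ≤ pathDist G ℓ x y := by
    intro i x y
    have e1 := (hN i).lip hc hℓ x y
    have e2 := (hN i).lip hc hℓ y x
    rw [hd.symm y x] at e2
    show |pathDist G ℓ x (N i x) - pathDist G ℓ y (N i y)| ≤ _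
    rw [abs_le]; constructor <;> linarith
  obtain ⟨κ, _, w, g, hw, hs, hg, hl⟩ := hlanes hd.symm hd.nonneg D hD0 hDl
  rw [Fintype.card_fin] at hl
  have hm : ((Nat.log 2 n + 1 : ℕ) : ℝ) ≤ ((Nat.log 2 s + 1 : ℕ) : ℝ) := by
    exact_mod_cast Nat.succ_le_succ (Nat.log_mono_right hns)
  have hm1 : (1 : ℝ) ≤ ((Nat.log 2 s + 1 : ℕ) : ℝ) := by
    exact_mod_cast Nat.le_add_left 1 _
  set m : ℝ := ((Nat.log 2 s + 1 : ℕ) : ℝ) with hmdef
  let S : V → V → ℝ := fun x y => ∑ i, w i * |g i x - g i y|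
  have hS : IsL1 S := IsL1.sum Finset.univ (fun i x y => w i * |g i x - g i y|)
    fun i _ => (isL1_line (g i)).smul (hw i)
  have hSl : ∀ a b, S a b ≤ pathDist G ℓ a b := by
    intro a b
    have h1 : ∀ i ∈ Finset.univ, w i * |g i a - g i b| ≤ w i * pathDist G ℓ a b := fun i _ =>
      mul_le_mul_of_nonneg_left (hg i a b) (hw i)
    refine (Finset.sum_le_sum h1).trans ?_
    rw [← Finset.sum_mul, hs, one_mul]
  let F : V → V → ℝ := fun x y => 1 / 2 * (|u x - u y| + S x y)
  have hF : IsL1 F := ((isL1_line u).add hS).smul (by norm_num)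
  have hFl : ∀ a b, G.Adj a b → F a b ≤ ℓ s(a, b) := by
    intro a b hab
    have h1 := hu a b
    have h2 := hSl a b
    have h3 := pathDist_adj hℓ hab
    show 1 / 2 * (|u a - u b| + S a b) ≤ _
    linarith
  obtain ⟨z0, hz0⟩ := hL ⟨0, hn⟩
  have h := pointed_step_genD (F := F) hc hℓ hH hHl (P := ⋃ i, L i)
    ⟨z0, Set.mem_iUnion.2 ⟨_, hz0⟩⟩ hF hFl (L := 80 * m) (by linarith) (by
      intro ν hν x y δ hδ hx hy hxy
      have hSn : 0 ≤ S x y := hS.nonneg x y
      show 2 * δ ≤ 80 * m * (1 / 2 * (|u x - u y| + S x y))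
      by_cases hcase : δ / 2 ≤ |u x - u y|
      · have h1 : 1 * (δ / 2 + 0) ≤ m * (|u x - u y| + S x y) :=
          mul_le_mul hm1 (add_le_add hcase hSn) (by linarith) (by linarith)
        linarith
      · push Not at hcase
        have hin : ∀ a, ∃ i, D i a ≤ pathDist G ℓ a (ν a) := by
          intro a
          obtain ⟨i, hi⟩ := Set.mem_iUnion.1 (hν.mem a)
          exact ⟨i, (hN i).le a _ hi⟩
        obtain ⟨i, hi⟩ := hin x
        obtain ⟨j, hj⟩ := hin y
        have h1 := hl x y (15 / 8 * δ) (5 / 4 * δ) ⟨i, by linarith⟩ ⟨j, by linarith⟩ (by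
          intro i
          by_contra hlt
          push Not at hlt
          rw [max_lt_iff] at hlt
          obtain ⟨h1, h2⟩ := hlt
          have h3 := hiso i (N i x) ((hN i).mem x) (N i y) ((hN i).mem y)
          have h4 := hu x (N i x)
          have h5 := hu y (N i y)
          have h6 : |u (N i x) - u (N i y)| ≤ |u x - u y| + |u x - u (N i x)| +
              |u y - u (N i y)| := by
            have e : u (N i x) - u (N i y) = (u x - u y) + -(u x - u (N i x)) +
              (u y - u (N i y)) := by ring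
            rw [e]
            refine (abs_add_three _ _ _).trans ?_
            rw [abs_neg]
          have h7 := hd.tri x (N i x) y
          have h8 := hd.tri (N i x) (N i y) y
          rw [hd.symm (N i y) y] at h8
          have h9 : D i x = pathDist G ℓ x (N i x) := rfl
          have h10 : D i y = pathDist G ℓ y (N i y) := rfl
          linarith)
        have h2 : 12 * ((Nat.log 2 n + 1 : ℕ) : ℝ) * S x y ≤ 12 * m * S x y :=
          mul_le_mul_of_nonneg_right (by linarith) hSn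
        have h3 : 15 / 8 * δ - 5 / 4 * δ ≤ 12 * m * S x y := le_trans h1 h2
        have h4 : 0 ≤ m * |u x - u y| := mul_nonneg (by linarith) (abs_nonneg _)
        have h5 : 0 ≤ m * S x y := mul_nonneg (by linarith) hSn
        nlinarith) hK ih
  exact pointed_mono hℓ hH (by linarith) h

/-- one round which removes all vertices on the boundary of one face -/
theorem pointed_step_surfD [Finite V] (hc : G.Connected) (hℓ : ∀ e ∈ G.edgeSet, 0 < ℓ e)
    {H : V → ℝ} (hH : ∀ v, 0 < H v) (hHl : ∀ u v, G.Adj u v → |H u - H v| ≤ ℓ s(u, v)) {g : ℕ}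
    {σ : Equiv.Perm G.Dart} (hσ : SurfMap g G σ) (d0 : G.Dart) {K : ℝ} (hK : 0 ≤ K)
    (ih : ∀ u ∉ onFace σ d0, StepIH G ℓ (onFace σ d0) u K) :
    Pointed G ℓ H (K + (((g + 1 : ℕ) : ℝ) + 4)) := by
  have hd := pathDist_isMet hc hℓ
  have hg : (1 : ℝ) ≤ ((g + 1 : ℕ) : ℝ) := by exact_mod_cast Nat.le_add_left 1 g
  obtain ⟨F, hF, hF1, hF2⟩ := surf_os hc hℓ hσ d0
  have hne : (onFace σ d0).Nonempty := ⟨d0.fst, d0, Equiv.Perm.SameCycle.refl _ _, rfl⟩
  refine pointed_step_genD (F := F) hc hℓ hH hHl hne hF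
    (fun u v huv => (hF1 u v).trans (pathDist_adj hℓ huv)) hg ?_ hK ih
  intro ν hν x y δ hδ hx hy hxy
  have h1 := hF2 x y (ν x) (hν.mem x) (ν y) (hν.mem y)
  have h2 := hd.tri x (ν y) y
  rw [hd.symm (ν y) y] at h2
  have h3 := hd.tri x (ν x) y
  rw [hd.symm (ν x) y] at h3
  linarith

end step

/-- `κ` maps the part `K` of the weighted graph `(G, ℓ)` to the finite connected weighted graph
`(G', ℓ')`: adjacent vertices of `K` have distance at most the length of their edge, and any two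
vertices of `K` have distance at least their distance in `G`. -/
structure Piece {V : Type} (G : SimpleGraph V) (ℓ : Sym2 V → ℝ) (K : Set V) {W : Type}
    (G' : SimpleGraph W) (ℓ' : Sym2 W → ℝ) (κ : K → W) : Prop where
  fin : Finite W
  conn : G'.Connected
  pos : ∀ e ∈ G'.edgeSet, 0 < ℓ' e
  short : ∀ a b : K, G.Adj a b → pathDist G' ℓ' (κ a) (κ b) ≤ ℓ s(a.1, b.1)
  far : ∀ a b : K, pathDist G ℓ a b ≤ pathDist G' ℓ' (κ a) (κ b)

/-- a connected part of `G`, with its lengths -/
theorem Piece.induce {V : Type} [Finite V] {G : SimpleGraph V} {ℓ : Sym2 V → ℝ}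
    (hc : G.Connected) (hℓ : ∀ e ∈ G.edgeSet, 0 < ℓ e) {K S : Set V} (hKS : K ⊆ S)
    (hS : (G.induce S).Connected) :
    Piece G ℓ K (G.induce S) (fun e => ℓ (e.map Subtype.val)) (fun a => ⟨a.1, hKS a.2⟩) where
  fin := inferInstance
  conn := hS
  pos := induce_pos hℓ S
  short a b hab := by
    have h : (G.induce S).Adj ⟨a.1, hKS a.2⟩ ⟨b.1, hKS b.2⟩ := hab
    exact pathDist_adj (induce_pos hℓ S) h
  far a b := pathDist_comp_ge hc hℓ hS ⟨a.1, hKS a.2⟩ ⟨b.1, hKS b.2⟩

/-- a piece which is served serves the component -/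
theorem Piece.stepIH {V : Type} [Finite V] {G : SimpleGraph V} {ℓ : Sym2 V → ℝ}
    (hc : G.Connected) (hℓ : ∀ e ∈ G.edgeSet, 0 < ℓ e) {P : Set V} {u : V} (hu : u ∉ P) {W : Type}
    {G' : SimpleGraph W} {ℓ' : Sym2 W → ℝ} {κ : compSet G P u → W}
    (hp : Piece G ℓ (compSet G P u) G' ℓ' κ) {K : ℝ} (hK : 0 ≤ K)
    (h : ∀ H : W → ℝ, (∀ v, 0 < H v) → (∀ u v, G'.Adj u v → |H u - H v| ≤ ℓ' s(u, v)) →
      Pointed G' ℓ' H K) : StepIH G ℓ P u K := by
  classical
  intro φ hφ0 hφP hφl
  have := hp.fin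
  have hd := pathDist_isMet hc hℓ
  have hd' := pathDist_isMet hp.conn hp.pos
  have hne : Nonempty (compSet G P u) := ⟨⟨u, ReachOff.refl hu⟩⟩
  have hfin : Fintype (compSet G P u) := Fintype.ofFinite _
  have hφd : ∀ x y, |φ x - φ y| ≤ pathDist G ℓ x y := pathDist_gen hc hφl
  have hpos : ∀ a : compSet G P u, 0 < φ a.1 := fun a => hφP a.1 (ReachOff.right a.2)
  -- a positive lower bound of `φ`
  obtain ⟨a0, -, ha0⟩ := Finset.exists_min_image (Finset.univ : Finset (compSet G P u))
    (fun a => φ a.1) Finset.univ_nonempty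
  -- the extension of `φ`
  let M : W → ℝ := fun w => Finset.univ.sup' Finset.univ_nonempty
    fun a : compSet G P u => φ a.1 - pathDist G' ℓ' (κ a) w
  have hM1 : ∀ a w, φ a.1 - pathDist G' ℓ' (κ a) w ≤ M w := fun a w =>
    Finset.le_sup' (fun a : compSet G P u => φ a.1 - pathDist G' ℓ' (κ a) w) (Finset.mem_univ a)
  have hM2 : ∀ w, ∃ a, M w = φ a.1 - pathDist G' ℓ' (κ a) w := by
    intro w
    obtain ⟨a, -, ha⟩ := Finset.exists_mem_eq_sup' Finset.univ_nonempty
      fun a : compSet G P u => φ a.1 - pathDist G' ℓ' (κ a) w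
    exact ⟨a, ha⟩
  have hMκ : ∀ b, M (κ b) = φ b.1 := by
    intro b
    apply le_antisymm
    · obtain ⟨a, ha⟩ := hM2 (κ b)
      rw [ha]
      have h1 := hp.far a b
      have h2 := (le_abs_self _).trans (hφd a.1 b.1)
      linarith
    · have h1 := hM1 b (κ b)
      rw [hd'.self, sub_zero] at h1
      exact h1
  have hMl : ∀ w w', M w - M w' ≤ pathDist G' ℓ' w w' := by
    intro w w'
    obtain ⟨a, ha⟩ := hM2 w
    have h1 := hM1 a w'
    have h2 := hd'.tri (κ a) w w'
    linarith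
  obtain ⟨σ, h1, h2, h3, h4, h5⟩ := h (fun w => max (φ a0.1) (M w))
    (fun w => lt_max_of_lt_left (hpos a0)) (fun w w' hw => by
      refine (abs_max_sub_max_le_max _ _ _ _).trans (max_le ?_ ?_)
      · rw [sub_self, abs_zero]
        exact (hp.pos _ hw).le
      · refine le_trans ?_ (pathDist_adj hp.pos hw)
        rw [abs_le]
        have h1 := hMl w w'
        have h2 := hMl w' w
        rw [hd'.symm w' w] at h2
        constructor <;> linarith)
  have hHκ : ∀ b : compSet G P u, max (φ a0.1) (M (κ b)) = φ b.1 := by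
    intro b
    rw [hMκ, max_eq_right (ha0 b (Finset.mem_univ b))]
  refine ⟨fun a b => σ (a.map κ) (b.map κ), h1.comap _, ?_, ?_, ?_, ?_⟩
  · intro a b hab
    -- the bound with `K` itself
    have e2 : σ (some (κ a)) (some (κ b)) ≤ K * pathDist G' ℓ' (κ a) (κ b) := by
      rcases hK.lt_or_eq with hK' | hK'
      · exact pathDist_semi (G := G') (ℓ := ℓ') (ρ := fun x y => σ (some x) (some y))
          hp.conn hK' (fun x => h1.self _) (fun x y z => h1.tri _ _ _) h2 _ _
      · rw [← hK'] at h2 ⊢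
        rw [zero_mul]
        have key : ∀ x y, G'.Walk x y → σ (some x) (some y) ≤ 0 := by
          intro x y p
          induction p with
          | nil => exact (h1.self _).le
          | @cons x z y hxz p ih =>
            have q1 := h2 x z hxz
            have q2 := h1.tri (some x) (some z) (some y)
            rw [zero_mul] at q1
            linarith
        obtain ⟨p⟩ := hp.conn.preconnected (κ a) (κ b)
        exact key _ _ p
    exact e2.trans (mul_le_mul_of_nonneg_left (hp.short a b hab) hK)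
  · intro a
    have h6 := h3 (κ a)
    beta_reduce at h6
    rw [hHκ] at h6
    exact h6
  · intro a
    have h6 := h4 (κ a)
    beta_reduce at h6
    rw [hHκ] at h6
    exact h6
  · intro a b δ ha hb hab
    exact h5 (κ a) (κ b) δ (by beta_reduce; rw [hHκ]; exact ha)
      (by beta_reduce; rw [hHκ]; exact hb) (hab.trans (hp.far a b))

/-- `Rounds Q s g k G ℓ`: at most `k` rounds, each of which deletes from every piece either a
nonempty union of at most `s` lanes or all vertices on the boundary of one face of a rotation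
system of Euler genus at most `g`, lead to weighted graphs of the class `Q`. After the deletion of
`X` every component of `G - X` is replaced by any `Piece` of `(G, ℓ)` for this component, for
example by the subgraph induced on any connected vertex set containing the component. -/
inductive Rounds (Q : ∀ (V : Type), SimpleGraph V → (Sym2 V → ℝ) → Prop) (s g : ℕ) :
    ℕ → ∀ {V : Type}, SimpleGraph V → (Sym2 V → ℝ) → Prop
  | leaf {k : ℕ} {V : Type} {G : SimpleGraph V} {ℓ : Sym2 V → ℝ} : Q V G ℓ → Rounds Q s g k G ℓ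
  | lanes {k : ℕ} {V : Type} {G : SimpleGraph V} {ℓ : Sym2 V → ℝ} {X : Set V} {W : V → Type}
      {G' : ∀ u, SimpleGraph (W u)} {ℓ' : ∀ u, Sym2 (W u) → ℝ} {κ : ∀ u, compSet G X u → W u} :
      X.Nonempty → Lanes G ℓ s X →
      (∀ u ∉ X, Piece G ℓ (compSet G X u) (G' u) (ℓ' u) (κ u)) →
      (∀ u ∉ X, Rounds Q s g k (G' u) (ℓ' u)) → Rounds Q s g (k + 1) G ℓ
  | face {k : ℕ} {V : Type} {G : SimpleGraph V} {ℓ : Sym2 V → ℝ} {σ : Equiv.Perm G.Dart}
      {d : G.Dart} {W : V → Type} {G' : ∀ u, SimpleGraph (W u)} {ℓ' : ∀ u, Sym2 (W u) → ℝ}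
      {κ : ∀ u, compSet G (onFace σ d) u → W u} : SurfMap g G σ →
      (∀ u ∉ onFace σ d, Piece G ℓ (compSet G (onFace σ d) u) (G' u) (ℓ' u) (κ u)) →
      (∀ u ∉ onFace σ d, Rounds Q s g k (G' u) (ℓ' u)) → Rounds Q s g (k + 1) G ℓ

/-- the rounds, pointed form -/
theorem rounds_pointed {Q : ∀ (V : Type), SimpleGraph V → (Sym2 V → ℝ) → Prop} {C : ℝ} (hC : 0 < C)
    (hQ : ∀ (V : Type) [Finite V] (G : SimpleGraph V) (ℓ : Sym2 V → ℝ), G.Connected →
      (∀ e ∈ G.edgeSet, 0 < ℓ e) → Q V G ℓ → EmbedsL1 (pathDist G ℓ) C)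
    {s g k : ℕ} {V : Type} {G : SimpleGraph V}
    {ℓ : Sym2 V → ℝ} (h : Rounds Q s g k G ℓ) : Finite V → G.Connected →
      (∀ e ∈ G.edgeSet, 0 < ℓ e) → ∀ H : V → ℝ, (∀ v, 0 < H v) →
      (∀ u v, G.Adj u v → |H u - H v| ≤ ℓ s(u, v)) →
      Pointed G ℓ H (96 * C + 112 + k * (100 * ((Nat.log 2 s + 1 : ℕ) : ℝ) + g)) := by
  have hm1 : (1 : ℝ) ≤ ((Nat.log 2 s + 1 : ℕ) : ℝ) := by
    exact_mod_cast Nat.le_add_left 1 _
  set m : ℝ := ((Nat.log 2 s + 1 : ℕ) : ℝ) with hmdef
  have hg0 : (0 : ℝ) ≤ g := Nat.cast_nonneg g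
  induction h with
  | @leaf k V G ℓ hD =>
    intro _ hc hℓ H hH hHl
    refine pointed_mono hℓ hH ?_ (pointed_leafW hC hc hℓ hH hHl (hQ V G ℓ hc hℓ hD))
    have : (0 : ℝ) ≤ k * (100 * m + g) := by positivity
    linarith
  | @lanes k V G ℓ X W G' ℓ' κ hX hR hp _ ih =>
    intro hfin hc hℓ H hH hHl
    have hK : (0 : ℝ) ≤ 96 * C + 112 + k * (100 * m + g) := by positivity
    have e : (96 * C + 112 + k * (100 * m + g)) + (100 * m + g) =
        96 * C + 112 + ((k + 1 : ℕ) : ℝ) * (100 * m + g) := by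
      push_cast; ring
    rw [← e]
    obtain ⟨u, n, L, hns, hu, hne, hiso, rfl⟩ := hR
    have hn : 0 < n := by
      obtain ⟨x, hx⟩ := hX
      obtain ⟨i, _⟩ := Set.mem_iUnion.1 hx
      exact i.pos
    refine pointed_mono hℓ hH (by linarith) (pointed_step_lanesD (fun {V} _ {d} hsym hnn {I} _ _ D
      h1 h2 => H105.lanes_fam hsym hnn D h1 h2) hc hℓ hH hHl hn hns hne hu hiso hK
      fun v hv => (hp v hv).stepIH hc hℓ hv hK fun H' hH' hHl' =>
        ih v hv (hp v hv).fin (hp v hv).conn (hp v hv).pos H' hH' hHl')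
  | @face k V G ℓ σ d W G' ℓ' κ hσ hp _ ih =>
    intro hfin hc hℓ H hH hHl
    have hK : (0 : ℝ) ≤ 96 * C + 112 + k * (100 * m + g) := by positivity
    have e : (96 * C + 112 + k * (100 * m + g)) + (100 * m + g) =
        96 * C + 112 + ((k + 1 : ℕ) : ℝ) * (100 * m + g) := by
      push_cast; ring
    rw [← e]
    refine pointed_mono hℓ hH ?_ (pointed_step_surfD hc hℓ hH hHl hσ d hK
      fun v hv => (hp v hv).stepIH hc hℓ hv hK fun H' hH' hHl' =>
        ih v hv (hp v hv).fin (hp v hv).conn (hp v hv).pos H' hH' hHl')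
    push_cast
    linarith

/-- **Rounds with relative pieces, weighted leaves.** -/
theorem rounds_distortion (Q : ∀ (V : Type), SimpleGraph V → (Sym2 V → ℝ) → Prop) {C : ℝ}
    (hC : 1 ≤ C)
    (hQ : ∀ (V : Type) [Finite V] (G : SimpleGraph V) (ℓ : Sym2 V → ℝ), G.Connected →
      (∀ e ∈ G.edgeSet, 0 < ℓ e) → Q V G ℓ → EmbedsL1 (pathDist G ℓ) C)
    (s g k : ℕ) (V : Type) [Finite V] (G : SimpleGraph V) (ℓ : Sym2 V → ℝ) (hc : G.Connected)
    (hℓ : ∀ e ∈ G.edgeSet, 0 < ℓ e) (h : Rounds Q s g k G ℓ) :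
    EmbedsL1 (pathDist G ℓ) (5000000 * (C + k * (g + Real.log (s + 2)))) := by
  have hd := pathDist_isMet hc hℓ
  have hC0 : 0 < C := by linarith
  obtain ⟨Ω, m, μ, f, hf⟩ := pointed_embeds
    (K := 96 * C + 112 + k * (100 * ((Nat.log 2 s + 1 : ℕ) : ℝ) + g)) (by positivity) hc hℓ
    (fun H hH hHl => rounds_pointed hC0 hQ h inferInstance hc hℓ H hH hHl)
  refine ⟨Ω, m, μ, f, fun x y => ⟨(hf x y).1, (hf x y).2.trans
    (mul_le_mul_of_nonneg_right ?_ (hd.nonneg x y))⟩⟩
  have hk0 : (0 : ℝ) ≤ k := Nat.cast_nonneg k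
  have h1 := mul_le_mul_of_nonneg_left (log_add_two s) hk0
  have h2 : 0 ≤ (k : ℝ) * Real.log (s + 2) :=
    mul_nonneg hk0 (Real.log_nonneg (by
      have : (0 : ℝ) ≤ s := Nat.cast_nonneg s
      linarith))
  have h3 : 0 ≤ (k : ℝ) * g := mul_nonneg hk0 (Nat.cast_nonneg g)
  nlinarith

end Vale.Agent.P235.H341W
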