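import Vale.Agent.P235.H536.PlaneDefs

/-!
Adding one vertex in a face of a plane map, induced plane maps (helper341): the rows.
-/

namespace Vale.Agent.P235.H341W

/-- `G` and one new vertex `none`, joined exactly to the vertices of `T` -/
def capG {V : Type} (G : SimpleGraph V) (T : Set V) : SimpleGraph (Option V) where
  Adj
    | some x, some y => G.Adj x y
    | none, some x => x ∈ T
    | some x, none => x ∈ T
    | none, none => False
  symm := ⟨by
    rintro (_ | x) (_ | y) h
    all_goals first | exact h | exact SimpleGraph.Adj.symm h⟩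
  loopless := ⟨by
    rintro (_ | x) h
    all_goals first | exact h | exact SimpleGraph.irrefl G h⟩

/-- a new vertex can be joined to any vertices of one face -/
def RowCap : Prop :=
  ∀ (V : Type) [Finite V] (G : SimpleGraph V) (σ : Equiv.Perm G.Dart) (d₀ : G.Dart) (T : Set V),
    G.Connected → PlaneMap G σ → T.Nonempty → T ⊆ onFace σ d₀ →
    ∃ σ' : Equiv.Perm (capG G T).Dart, PlaneMap (capG G T) σ'

/-- connected induced subgraphs of plane maps are plane maps, and keep the faces all whose vertices
they contain -/
def RowInd : Prop :=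
  ∀ (V : Type) [Finite V] (G : SimpleGraph V) (σ : Equiv.Perm G.Dart) (S : Set V),
    G.Connected → PlaneMap G σ → (G.induce S).Connected → Nonempty (G.induce S).Dart →
    ∃ σ' : Equiv.Perm (G.induce S).Dart, PlaneMap (G.induce S) σ' ∧
      ∀ d₀ : G.Dart, onFace σ d₀ ⊆ S → ∃ d₁ : (G.induce S).Dart,
        ∀ v : S, v.1 ∈ onFace σ d₀ → v ∈ onFace σ' d₁

end Vale.Agent.P235.H341W
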