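import Vale.Agent.P235.R2.H582.KprSpec
import Vale.Agent.P235.H134.Grid.Defs

/-!
P235-M (helper341, after helper582).  Klein, Plotkin, Rao for graphs without a `K_r` minor: the
literal rows (statements only).
-/

set_option autoImplicit false

namespace Vale.Agent.P235.Kr

open Vale.Agent.P235 Vale.Agent.P235.Kpr

/-- `G` has no `K_r` minor -/
def NoK (r : ℕ) {V : Type} (G : SimpleGraph V) : Prop :=
  ¬ H134.IsMinor (⊤ : SimpleGraph (Fin r)) G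

/-- a partial `K_{n,s+2}` minor of `G` -/
structure StageR {V : Type} (G : SimpleGraph V) (ℓ : Sym2 V → ℝ) (Δ : ℝ) {s : ℕ}
    (x : Fin (s + 2) → V) (H : SimpleGraph V) (n : ℕ) (A : ℕ → Set V) (X : Fin (s + 2) → Set V)
    (y : Fin (s + 2) → V) (ρ : ℝ) : Prop where
  aconn : ∀ j < n, (G.induce (A j)).Connected
  adisj : ∀ i < n, ∀ j < n, i ≠ j → Disjoint (A i) (A j)
  xconn : ∀ k, (G.induce (X k)).Connected
  ax : ∀ j < n, ∀ k, Disjoint (A j) (X k)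
  adj : ∀ j < n, ∀ k, ∃ a ∈ A j, ∃ b ∈ X k, G.Adj a b
  xmem : ∀ k, x k ∈ X k
  ymem : ∀ k, y k ∈ X k
  ball : ∀ k, ∀ v ∈ X k, pathDist G ℓ (x k) v ≤ ρ
  areach : ∀ j < n, ∀ a ∈ A j, H.Reachable (x 0) a
  xreach : ∀ k, ∀ v ∈ X k, H.Reachable (x 0) v
  far : ∀ j < n, ∀ k, ∀ a ∈ A j, ∀ w : H.Walk (y k) a, Δ < (w.edges.map ℓ).sum

/-- (K1) one more set `A n` -/
def RowK1 : Prop :=
  ∀ (V : Type) [Finite V] (G H : SimpleGraph V) (ℓ : Sym2 V → ℝ) (Δ θ ρ : ℝ) (s : ℕ)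
    (x : Fin (s + 2) → V) (n : ℕ) (A : ℕ → Set V) (X : Fin (s + 2) → Set V)
    (y : Fin (s + 2) → V) (f : V → ℝ) (r : V → V),
    G.Connected → (∀ e ∈ G.edgeSet, 0 < ℓ e) → H ≤ G → 0 < Δ → 0 ≤ ρ →
    (∀ u v, H.Adj u v → ℓ s(u, v) ≤ Δ) → Pot H ℓ f r →
    (∀ k l, k ≠ l → 2 * (ρ + 4 * Δ) < pathDist G ℓ (x k) (x l)) →
    StageR G ℓ Δ x (chop H f Δ θ) n A X y ρ →
    ∃ A' X' y', StageR G ℓ Δ x H (n + 1) A' X' y' (ρ + 4 * Δ)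

/-- `H'` comes from `H` by `n` chops -/
inductive Chopped {V : Type} (ℓ : Sym2 V → ℝ) (Δ : ℝ) : ℕ → SimpleGraph V → SimpleGraph V → Prop
  | zero (H : SimpleGraph V) : Chopped ℓ Δ 0 H H
  | succ {n : ℕ} {H H' : SimpleGraph V} (f : V → ℝ) (r : V → V) (θ : ℝ) : Pot H ℓ f r →
      Chopped ℓ Δ n (chop H f Δ θ) H' → Chopped ℓ Δ (n + 1) H H'

/-- (K2) `q = r + 2` chops leave components of weak diameter at most `8 q² Δ` -/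
def RowK2 : Prop :=
  ∀ (V : Type) [Finite V] (G H H' : SimpleGraph V) (ℓ : Sym2 V → ℝ) (Δ : ℝ) (r : ℕ),
    G.Connected → NoK r G → (∀ e ∈ G.edgeSet, 0 < ℓ e) → H ≤ G → 0 < Δ →
    (∀ u v, H.Adj u v → ℓ s(u, v) ≤ Δ) → Chopped ℓ Δ (r + 2) H H' →
    ∀ x y, H'.Reachable x y → pathDist G ℓ x y ≤ 8 * ((r : ℝ) + 2) ^ 2 * Δ

/-- (K3) random partitions: `c ω` is constant exactly on the clusters -/
def RowK3 : Prop :=
  ∀ (V : Type) [Finite V] (G : SimpleGraph V) (ℓ : Sym2 V → ℝ) (r : ℕ), G.Connected →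
    NoK r G → (∀ e ∈ G.edgeSet, 0 < ℓ e) →
    ∀ (Δ : ℝ) (N : ℕ), 0 < Δ → 0 < N → ∃ c : (Fin (r + 2) → Fin N) → V → V,
      (∀ ω u v, c ω u = c ω v → pathDist G ℓ u v ≤ 8 * ((r : ℝ) + 2) ^ 2 * Δ) ∧
      ∀ u v, G.Adj u v → ({ω | c ω u ≠ c ω v}.ncard : ℝ) ≤
        ((r : ℝ) + 2) * (N : ℝ) ^ (r + 2) * (ℓ s(u, v) / Δ + 1 / N)

/-- (K4) random retractions onto any set `X` -/
def RowK4 : Prop :=
  ∀ (V : Type) [Finite V] (G : SimpleGraph V) (ℓ : Sym2 V → ℝ) (r : ℕ), G.Connected →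
    NoK r G → (∀ e ∈ G.edgeSet, 0 < ℓ e) →
    ∀ (X : Set V) (ν : V → V), Near G ℓ X ν →
    ∃ (ι : Type) (_ : Fintype ι) (w : ι → ℝ) (π : ι → V → V), (∀ i, 0 ≤ w i) ∧ ∑ i, w i = 1 ∧
      (∀ i v, π i v ∈ X) ∧
      (∀ u v, G.Adj u v → ∑ i, w i * pathDist G ℓ (π i u) (π i v) ≤
        200 * ((r : ℝ) + 2) ^ 3 * ℓ s(u, v)) ∧
      ∀ i v, pathDist G ℓ v (π i v) ≤ 3 * pathDist G ℓ v (ν v)

/-- (K5) the step which deletes any set `X` whose metric embeds with distortion `B` -/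
def RowK5 : Prop :=
  ∀ (V : Type) [Finite V] (G : SimpleGraph V) (ℓ : Sym2 V → ℝ) (r : ℕ), G.Connected →
    NoK r G → (∀ e ∈ G.edgeSet, 0 < ℓ e) →
    ∀ (X : Set V) (B : ℝ), X.Nonempty → 1 ≤ B →
    EmbedsL1 (fun u v : X => pathDist G ℓ u v) B →
    ∃ F : V → V → ℝ, IsL1 F ∧ (∀ u v, G.Adj u v → F u v ≤ ℓ s(u, v)) ∧
      ∀ ν : V → V, Near G ℓ X ν → ∀ x y δ, 0 < δ → pathDist G ℓ x (ν x) ≤ δ →
        pathDist G ℓ y (ν y) ≤ 5 / 4 * δ → 8 * δ ≤ pathDist G ℓ x y →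
        2 * δ ≤ 400 * ((r : ℝ) + 2) ^ 3 * B * F x y

/-- (K6) plane graphs have no `K_6` minor -/
def RowK6 : Prop :=
  ∀ (V : Type) [Finite V] (G : SimpleGraph V), G.Connected →
    (∃ σ : Equiv.Perm G.Dart, PlaneMap G σ) → NoK 6 G

end Vale.Agent.P235.Kr
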