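/-
P235-M (helper341): random retractions onto arbitrary sets of plane graphs (row R7 of helper582).
-/
import Vale.Agent.P235.R2.H582.KprSpec
import Mathlib.Analysis.SpecialFunctions.Log.Base
import Mathlib.Analysis.Complex.ExponentialBounds

set_option linter.all false
set_option autoImplicit false

namespace Vale.Agent.P235.Kpr

open Finset Vale.Agent.P235

theorem ncard_filter {ι : Type} [Fintype ι] (p : ι → Prop) [DecidablePred p] :
    {i | p i}.ncard = (univ.filter p).card := by
  rw [Set.ncard_eq_toFinset_card']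
  congr 1
  ext i
  simp

/-- the scale -/
noncomputable def sc (N : ℕ) (k : ℕ) (j : ℤ) : ℝ := (2 : ℝ) ^ ((j : ℝ) - k / N)

theorem sc_pos (N k : ℕ) (j : ℤ) : 0 < sc N k j := by
  unfold sc; positivity

/-- the level of the number `R` -/
noncomputable def lev (N : ℕ) (k : ℕ) (R : ℝ) : ℤ := ⌊(Real.logb 2 R + k * 1 / N) / 1⌋

theorem lev_le {N k : ℕ} {R : ℝ} (hR : 0 < R) : sc N k (lev N k R) ≤ R := by
  have h1 : ((lev N k R : ℤ) : ℝ) ≤ (Real.logb 2 R + k * 1 / N) / 1 := Int.floor_le _
  have h2 : ((lev N k R : ℤ) : ℝ) - k / N ≤ Real.logb 2 R := by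
    rw [div_one, mul_one] at h1
    linarith
  calc sc N k (lev N k R) ≤ (2 : ℝ) ^ (Real.logb 2 R) :=
        Real.rpow_le_rpow_of_exponent_le (by norm_num) h2
    _ = R := Real.rpow_logb (by norm_num) (by norm_num) hR

theorem lt_lev {N k : ℕ} {R : ℝ} (hR : 0 < R) : R < 2 * sc N k (lev N k R) := by
  have h1 : (Real.logb 2 R + k * 1 / N) / 1 < ((lev N k R : ℤ) : ℝ) + 1 := Int.lt_floor_add_one _
  have h2 : Real.logb 2 R < (((lev N k R : ℤ) : ℝ) - k / N) + 1 := by
    rw [div_one, mul_one] at h1
    linarith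
  have h3 : R = (2 : ℝ) ^ (Real.logb 2 R) := (Real.rpow_logb (by norm_num) (by norm_num) hR).symm
  have h4 : (2 : ℝ) ^ (Real.logb 2 R) < (2 : ℝ) ^ ((((lev N k R : ℤ) : ℝ) - k / N) + 1) :=
    Real.rpow_lt_rpow_of_exponent_lt (by norm_num) h2
  rw [Real.rpow_add (by norm_num), Real.rpow_one] at h4
  calc R = (2 : ℝ) ^ (Real.logb 2 R) := h3
    _ < _ := h4
    _ = 2 * sc N k (lev N k R) := by unfold sc; ring

theorem logb_diff {a b l : ℝ} (ha : 0 < a) (hb : 0 < b) (hab : |a - b| ≤ l) (hl : 2 * l ≤ a)
    (hl' : 2 * l ≤ b) : |Real.logb 2 a - Real.logb 2 b| ≤ 4 * l / a := by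
  have hl0 : 0 ≤ l := (abs_nonneg _).trans hab
  obtain ⟨h1, h2⟩ := abs_le.1 hab
  have h3 : Real.log a - Real.log b ≤ 2 * l / a := by
    rw [← Real.log_div ha.ne' hb.ne']
    refine (Real.log_le_sub_one_of_pos (by positivity)).trans ?_
    have e : a / b - 1 = (a - b) / b := by field_simp
    rw [e, div_le_div_iff₀ hb ha]
    nlinarith
  have h4 : Real.log b - Real.log a ≤ 2 * l / a := by
    rw [← Real.log_div hb.ne' ha.ne']
    refine (Real.log_le_sub_one_of_pos (by positivity)).trans ?_
    have e : b / a - 1 = (b - a) / a := by field_simp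
    rw [e]
    exact div_le_div_of_nonneg_right (by linarith) ha.le
  have hlog : (1 : ℝ) / 2 ≤ Real.log 2 := by
    have := Real.log_two_gt_d9
    linarith
  have hlog0 : 0 < Real.log 2 := by linarith
  have e : Real.logb 2 a - Real.logb 2 b = (Real.log a - Real.log b) / Real.log 2 := by
    unfold Real.logb
    ring
  have h5 : |Real.log a - Real.log b| ≤ 2 * l / a := abs_le.2 ⟨by linarith, h3⟩
  rw [e, abs_div, abs_of_pos hlog0, div_le_iff₀ hlog0]
  have h6 : 0 ≤ 2 * l / a := by positivity
  have h7 : 4 * l / a = 2 * (2 * l / a) := by ring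
  rw [h7]
  nlinarith

/-- (R7) -/
theorem rowRetr (h3 : RowCount) (h6 : RowKPR) : RowRetr := by
  classical
  intro V _ G ℓ hc hP hℓ X ν hν
  have := Fintype.ofFinite V
  have hd := pathDist_isMet hc hℓ
  have hVne : Nonempty V := hc.nonempty
  set R : V → ℝ := fun v => pathDist G ℓ v (ν v) with hRdef
  have hR0 : ∀ v, 0 ≤ R v := fun v => hd.nonneg _ _
  have hRpos : ∀ v, v ∉ X → 0 < R v := fun v hv => near_pos hc hℓ hν hv
  have hRlip : ∀ u v, G.Adj u v → |R u - R v| ≤ ℓ s(u, v) := by
    intro u v huv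
    have h1 := hν.lip hc hℓ u v
    have h2 := hν.lip hc hℓ v u
    have h4 := pathDist_adj hℓ huv
    rw [hd.symm v u] at h2
    rw [abs_le]
    constructor
    · show -ℓ s(u, v) ≤ pathDist G ℓ u (ν u) - pathDist G ℓ v (ν v)
      linarith
    · show pathDist G ℓ u (ν u) - pathDist G ℓ v (ν v) ≤ ℓ s(u, v)
      linarith
  -- the number of shifts
  obtain ⟨m, hm0, hm⟩ : ∃ m : ℝ, 0 < m ∧ ∀ u v, G.Adj u v → m ≤ ℓ s(u, v) := by
    obtain ⟨p, hp⟩ := Finite.exists_min
      (fun p : V × V => if G.Adj p.1 p.2 then ℓ s(p.1, p.2) else 1)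
    refine ⟨if G.Adj p.1 p.2 then ℓ s(p.1, p.2) else 1, ?_, ?_⟩
    · split_ifs with h
      · exact hℓ _ h
      · norm_num
    · intro u v huv
      have h1 := hp (u, v)
      simp only [huv, if_true] at h1
      exact h1
  obtain ⟨Rm, hRm0, hRm⟩ : ∃ Rm : ℝ, 0 < Rm ∧ ∀ v, R v ≤ Rm := by
    refine ⟨∑ v, R v + 1, ?_, fun v => ?_⟩
    · have : 0 ≤ ∑ v, R v := Finset.sum_nonneg fun v _ => hR0 v
      linarith
    · have : R v ≤ ∑ v, R v := Finset.single_le_sum (fun v _ => hR0 v) (Finset.mem_univ v)
      linarith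
  obtain ⟨N, hN⟩ := exists_nat_ge (Rm / m)
  have hNpos : (0 : ℝ) < N := lt_of_lt_of_le (by positivity) hN
  have hN0 : 0 < N := by exact_mod_cast hNpos
  have hN1 : ∀ u v w, G.Adj u v → R w * (1 / N) ≤ ℓ s(u, v) := by
    intro u v w huv
    have h1 : Rm ≤ N * m := by rwa [div_le_iff₀ hm0] at hN
    have h2 := hm u v huv
    rw [mul_one_div, div_le_iff₀ hNpos]
    have h4 := hRm w
    nlinarith
  -- partitions for all scales
  have hpart : ∀ Δ : ℝ, ∃ c : Fin N × Fin N × Fin N → V → V, 0 < Δ →
      (∀ ω' u v, c ω' u = c ω' v → pathDist G ℓ u v ≤ 52 * Δ) ∧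
      ∀ u v, G.Adj u v → ({ω' | c ω' u ≠ c ω' v}.ncard : ℝ) ≤
        3 * (N : ℝ) ^ 3 * (ℓ s(u, v) / Δ + 1 / N) := by
    intro Δ
    by_cases hΔ : 0 < Δ
    · obtain ⟨c, h1, h2⟩ := h6 V G ℓ hc hP hℓ Δ N hΔ hN0
      exact ⟨c, fun _ => ⟨h1, h2⟩⟩
    · exact ⟨fun _ v => v, fun h => absurd h hΔ⟩
  choose c hcc using hpart
  set lab : Fin N × (Fin N × Fin N × Fin N) → V → ℤ × V := fun i v =>
    (lev N i.1 (R v), c (sc N i.1 (lev N i.1 (R v)) / 52) i.2 v) with hlab
  set sel : Set V → V := fun S => if h : S.Nonempty then h.some else hVne.some with hsel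
  have hselm : ∀ S : Set V, S.Nonempty → sel S ∈ S := by
    intro S hS
    show (if h : S.Nonempty then h.some else hVne.some) ∈ S
    rw [dif_pos hS]
    exact hS.some_mem
  set rep : Fin N × (Fin N × Fin N × Fin N) → V → V := fun i v =>
    sel {v' | v' ∉ X ∧ lab i v' = lab i v} with hrep
  have hrepm : ∀ i v, v ∉ X → rep i v ∉ X ∧ lab i (rep i v) = lab i v := by
    intro i v hv
    exact hselm {v' | v' ∉ X ∧ lab i v' = lab i v} ⟨v, hv, rfl⟩
  have hrepe : ∀ i u v, lab i u = lab i v → rep i u = rep i v := by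
    intro i u v h
    show sel {v' | v' ∉ X ∧ lab i v' = lab i u} = sel {v' | v' ∉ X ∧ lab i v' = lab i v}
    rw [h]
  set π : Fin N × (Fin N × Fin N × Fin N) → V → V := fun i v =>
    if v ∈ X then v else ν (rep i v) with hπ
  have hclose : ∀ i v, pathDist G ℓ v (π i v) ≤ 3 * R v := by
    intro i v
    by_cases hv : v ∈ X
    · have e : π i v = v := if_pos hv
      rw [e, hd.self]
      have := hR0 v
      linarith
    · have e : π i v = ν (rep i v) := if_neg hv
      rw [e]
      obtain ⟨h1, h2⟩ := hrepm i v hv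
      have h4 : lev N i.1 (R (rep i v)) = lev N i.1 (R v) := congrArg Prod.fst h2
      have h5 : c (sc N i.1 (lev N i.1 (R (rep i v))) / 52) i.2 (rep i v) =
          c (sc N i.1 (lev N i.1 (R v)) / 52) i.2 v := congrArg Prod.snd h2
      rw [h4] at h5
      have hs := sc_pos N i.1 (lev N i.1 (R v))
      have h7 := (hcc (sc N i.1 (lev N i.1 (R v)) / 52) (by positivity)).1 i.2 _ _ h5.symm
      have h8 := lev_le (N := N) (k := i.1) (hRpos v hv)
      have h9 := lt_lev (N := N) (k := i.1) (hRpos _ h1)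
      rw [h4] at h9
      have h10 := hd.tri v (rep i v) (ν (rep i v))
      have h11 : R (rep i v) = pathDist G ℓ (rep i v) (ν (rep i v)) := rfl
      linarith
  refine ⟨Fin N × (Fin N × Fin N × Fin N), inferInstance, fun _ => ((N : ℝ) ^ 4)⁻¹, π,
    fun _ => by positivity, ?_, ?_, ?_, hclose⟩
  · rw [Finset.sum_const, Finset.card_univ, Fintype.card_prod, Fintype.card_prod,
      Fintype.card_prod, Fintype.card_fin, nsmul_eq_mul]
    push_cast
    have : (N : ℝ) ^ 4 ≠ 0 := by positivity
    field_simp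
  · intro i v
    show (if v ∈ X then v else ν (rep i v)) ∈ X
    split_ifs with h
    · exact h
    · exact hν.mem _
  · intro u v huv
    set l : ℝ := ℓ s(u, v) with hl
    have hl0 : 0 < l := hℓ _ huv
    have hlip := hRlip u v huv
    obtain ⟨hlip1, hlip2⟩ := abs_le.1 hlip
    have hT : ∀ i, pathDist G ℓ (π i u) (π i v) ≤ 3 * R u + l + 3 * R v := by
      intro i
      have h1 := hclose i u
      have h2 := hclose i v
      have h4 := hd.tri (π i u) u (π i v)
      have h5 := hd.tri u v (π i v)
      have h7 := pathDist_adj hℓ huv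
      rw [hd.symm (π i u) u] at h4
      linarith
    have hw0 : (0 : ℝ) < ((N : ℝ) ^ 4)⁻¹ := by positivity
    have hcard : (∑ _i : Fin N × (Fin N × Fin N × Fin N), ((N : ℝ) ^ 4)⁻¹) = 1 := by
      rw [Finset.sum_const, Finset.card_univ, Fintype.card_prod, Fintype.card_prod,
        Fintype.card_prod, Fintype.card_fin, nsmul_eq_mul]
      push_cast
      have : (N : ℝ) ^ 4 ≠ 0 := by positivity
      field_simp
    by_cases hA : R u ≤ 2 * l ∨ R v ≤ 2 * l
    · have h1 : R u ≤ 3 * l ∧ R v ≤ 3 * l := by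
        rcases hA with h | h
        · exact ⟨by linarith, by linarith⟩
        · exact ⟨by linarith, by linarith⟩
      calc ∑ i, ((N : ℝ) ^ 4)⁻¹ * pathDist G ℓ (π i u) (π i v)
          ≤ ∑ _i : Fin N × (Fin N × Fin N × Fin N), ((N : ℝ) ^ 4)⁻¹ * (5000 * l) := by
            refine Finset.sum_le_sum fun i _ => mul_le_mul_of_nonneg_left ?_ hw0.le
            have := hT i
            linarith
        _ = 5000 * l := by rw [← Finset.sum_mul, hcard, one_mul]
    · push Not at hA
      obtain ⟨hu2, hv2⟩ := hA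
      have hRu : 0 < R u := by linarith
      have hRv : 0 < R v := by linarith
      have huX : u ∉ X := by
        intro h
        have : R u = 0 := by
          show pathDist G ℓ u (ν u) = 0
          rw [hν.self u h, hd.self]
        linarith
      have hvX : v ∉ X := by
        intro h
        have : R v = 0 := by
          show pathDist G ℓ v (ν v) = 0
          rw [hν.self v h, hd.self]
        linarith
      set T : ℝ := 3 * R u + l + 3 * R v with hTdef
      have hT8 : T ≤ 8 * R u := by rw [hTdef]; linarith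
      have hT0 : 0 ≤ T := by rw [hTdef]; positivity
      -- the bad indices
      set b1 : Fin N → ℝ := fun k => if lev N k (R u) ≠ lev N k (R v) then 1 else 0 with hb1
      set b2 : Fin N → (Fin N × Fin N × Fin N) → ℝ := fun k ω' =>
        if c (sc N k (lev N k (R u)) / 52) ω' u ≠ c (sc N k (lev N k (R u)) / 52) ω' v then 1
        else 0 with hb2
      have hcost : ∀ i : Fin N × (Fin N × Fin N × Fin N),
          pathDist G ℓ (π i u) (π i v) ≤ T * (b1 i.1 + b2 i.1 i.2) := by
        intro i
        have n1 : 0 ≤ b1 i.1 := by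
          show (0 : ℝ) ≤ if lev N i.1 (R u) ≠ lev N i.1 (R v) then 1 else 0
          split_ifs <;> norm_num
        have n2 : 0 ≤ b2 i.1 i.2 := by
          show (0 : ℝ) ≤ if c (sc N i.1 (lev N i.1 (R u)) / 52) i.2 u ≠
            c (sc N i.1 (lev N i.1 (R u)) / 52) i.2 v then 1 else 0
          split_ifs <;> norm_num
        by_cases g1 : lev N i.1 (R u) = lev N i.1 (R v)
        · by_cases g2 : c (sc N i.1 (lev N i.1 (R u)) / 52) i.2 u =
              c (sc N i.1 (lev N i.1 (R u)) / 52) i.2 v
          · have g3 : lab i u = lab i v := by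
              refine Prod.ext g1 ?_
              show c (sc N i.1 (lev N i.1 (R u)) / 52) i.2 u =
                c (sc N i.1 (lev N i.1 (R v)) / 52) i.2 v
              rw [← g1]
              exact g2
            have g4 : π i u = π i v := by
              show (if u ∈ X then u else ν (rep i u)) = (if v ∈ X then v else ν (rep i v))
              rw [if_neg huX, if_neg hvX, hrepe i u v g3]
            rw [g4, hd.self]
            positivity
          · have e : b2 i.1 i.2 = 1 := if_pos g2
            rw [e]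
            have := hT i
            nlinarith
        · have e : b1 i.1 = 1 := if_pos g1
          rw [e]
          have := hT i
          nlinarith
      have hsum1 : ∑ k, b1 k ≤ N * (4 * l / R u) + 1 := by
        have h1 := h3 (Real.logb 2 (R u)) (Real.logb 2 (R v)) (4 * l / R u) 1 N
          (logb_diff hRu hRv hlip hu2.le hv2.le) one_pos hN0
        rw [ncard_filter] at h1
        rw [div_one] at h1
        refine le_trans (le_of_eq ?_) h1
        rw [Finset.card_filter]
        push_cast
        rfl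
      have hsum2 : ∀ k, ∑ ω', b2 k ω' ≤ 3 * (N : ℝ) ^ 3 * (104 * l / R u + 1 / N) := by
        intro k
        have hs := sc_pos N k (lev N k (R u))
        have h1 := (hcc (sc N k (lev N k (R u)) / 52) (by positivity)).2 u v huv
        rw [ncard_filter] at h1
        have h2 : ℓ s(u, v) / (sc N k (lev N k (R u)) / 52) ≤ 104 * l / R u := by
          have h4 := lt_lev (N := N) (k := k) hRu
          rw [div_div_eq_mul_div, div_le_div_iff₀ hs hRu]
          have h5 : 0 ≤ l * (2 * sc N k (lev N k (R u)) - R u) :=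
            mul_nonneg hl0.le (by linarith)
          show l * 52 * R u ≤ 104 * l * sc N k (lev N k (R u))
          nlinarith
        have h4 : (∑ ω', b2 k ω') = (((univ.filter fun ω' => c (sc N k (lev N k (R u)) / 52) ω' u ≠
            c (sc N k (lev N k (R u)) / 52) ω' v).card : ℕ) : ℝ) := by
          rw [Finset.card_filter]
          push_cast
          rfl
        rw [h4]
        refine h1.trans (mul_le_mul_of_nonneg_left (by linarith) (by positivity))
      have hNne : (N : ℝ) ≠ 0 := hNpos.ne'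
      have htot : ∑ i : Fin N × (Fin N × Fin N × Fin N), (b1 i.1 + b2 i.1 i.2) ≤
          (N : ℝ) ^ 4 * (316 * l / R u + 4 * (1 / N)) := by
        rw [Fintype.sum_prod_type]
        have h1 : ∀ k : Fin N, ∑ ω' : Fin N × Fin N × Fin N, (b1 k + b2 k ω') ≤
            (N : ℝ) ^ 3 * b1 k + 3 * (N : ℝ) ^ 3 * (104 * l / R u + 1 / N) := by
          intro k
          rw [Finset.sum_add_distrib, Finset.sum_const, Finset.card_univ, Fintype.card_prod,
            Fintype.card_prod, Fintype.card_fin, nsmul_eq_mul]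
          have := hsum2 k
          push_cast
          have e : (N : ℝ) * (N * N) * b1 k = (N : ℝ) ^ 3 * b1 k := by ring
          rw [e]
          linarith
        refine (Finset.sum_le_sum fun k _ => h1 k).trans ?_
        rw [Finset.sum_add_distrib, ← Finset.mul_sum, Finset.sum_const, Finset.card_univ,
          Fintype.card_fin, nsmul_eq_mul]
        have h2 : (N : ℝ) ^ 3 * ∑ k, b1 k ≤ (N : ℝ) ^ 3 * (N * (4 * l / R u) + 1) :=
          mul_le_mul_of_nonneg_left hsum1 (by positivity)
        refine (add_le_add h2 le_rfl).trans (le_of_eq ?_)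
        field_simp
        ring
      calc ∑ i, ((N : ℝ) ^ 4)⁻¹ * pathDist G ℓ (π i u) (π i v)
          ≤ ∑ i : Fin N × (Fin N × Fin N × Fin N),
              ((N : ℝ) ^ 4)⁻¹ * (T * (b1 i.1 + b2 i.1 i.2)) :=
            Finset.sum_le_sum fun i _ => mul_le_mul_of_nonneg_left (hcost i) hw0.le
        _ = ((N : ℝ) ^ 4)⁻¹ * T * ∑ i : Fin N × (Fin N × Fin N × Fin N),
              (b1 i.1 + b2 i.1 i.2) := by
            rw [Finset.mul_sum]
            exact Finset.sum_congr rfl fun i _ => by ring
        _ ≤ ((N : ℝ) ^ 4)⁻¹ * T * ((N : ℝ) ^ 4 * (316 * l / R u + 4 * (1 / N))) :=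
            mul_le_mul_of_nonneg_left htot (by positivity)
        _ = T * (316 * l / R u + 4 * (1 / N)) := by
            field_simp
        _ ≤ 8 * R u * (316 * l / R u + 4 * (1 / N)) :=
            mul_le_mul_of_nonneg_right hT8 (by positivity)
        _ = 2528 * l + 32 * (R u * (1 / N)) := by
            field_simp
            ring
        _ ≤ 5000 * l := by
            have := hN1 u v u huv
            linarith

end Vale.Agent.P235.Kpr
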