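/-
P235-M (helper341): random retractions onto arbitrary sets of graphs without a `K_r` minor (K4).
-/
import Vale.Agent.P235.R2.H341.KrSpec
import Vale.Agent.P235.R2.H341.Retr7

set_option linter.all false
set_option autoImplicit false

namespace Vale.Agent.P235.Kr

open Finset Vale.Agent.P235 Vale.Agent.P235.Kpr

/-- (K4) -/
theorem rowK4 (h3 : RowCount) (h6 : RowK3) : RowK4 := by
  classical
  intro V _ G ℓ r hc hP hℓ X ν hν
  set q : ℝ := (r : ℝ) + 2 with hq
  have hq2 : 2 ≤ q := by
    have : (0 : ℝ) ≤ r := Nat.cast_nonneg r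
    rw [hq]; linarith
  have hq0 : 0 < q := by linarith
  have hq3 : 8 ≤ q ^ 3 := by
    have : (2 : ℝ) ^ 3 ≤ q ^ 3 := pow_le_pow_left₀ (by norm_num) hq2 3
    linarith
  have hqq : 4 * q ≤ q ^ 3 := by
    have h1 : (2 : ℝ) ^ 2 ≤ q ^ 2 := pow_le_pow_left₀ (by norm_num) hq2 2
    have h2 : q ^ 3 = q ^ 2 * q := by ring
    rw [h2]
    nlinarith
  have := Fintype.ofFinite V
  have hd := pathDist_isMet hc hℓ
  have hVne : Nonempty V := hc.nonempty
  set R : V → ℝ := fun v => pathDist G ℓ v (ν v) with hRdef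
  have hR0 : ∀ v, 0 ≤ R v := fun v => hd.nonneg _ _
  have hRpos : ∀ v, v ∉ X → 0 < R v := fun v hv => near_pos hc hℓ hν hv
  have hRlip : ∀ u v, G.Adj u v → |R u - R v| ≤ ℓ s(u, v) := by
    intro u v huv
    have h1 := hν.lip hc hℓ u v
    have h2 := hν.lip hc hℓ v u
    have h4 := pathDist_adj hℓ huv
    rw [hd.symm v u] at h2
    rw [abs_le]
    constructor
    · show -ℓ s(u, v) ≤ pathDist G ℓ u (ν u) - pathDist G ℓ v (ν v)
      linarith
    · show pathDist G ℓ u (ν u) - pathDist G ℓ v (ν v) ≤ ℓ s(u, v)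
      linarith
  -- the number of shifts
  obtain ⟨m, hm0, hm⟩ : ∃ m : ℝ, 0 < m ∧ ∀ u v, G.Adj u v → m ≤ ℓ s(u, v) := by
    obtain ⟨p, hp⟩ := Finite.exists_min
      (fun p : V × V => if G.Adj p.1 p.2 then ℓ s(p.1, p.2) else 1)
    refine ⟨if G.Adj p.1 p.2 then ℓ s(p.1, p.2) else 1, ?_, ?_⟩
    · split_ifs with h
      · exact hℓ _ h
      · norm_num
    · intro u v huv
      have h1 := hp (u, v)
      simp only [huv, if_true] at h1
      exact h1
  obtain ⟨Rm, hRm0, hRm⟩ : ∃ Rm : ℝ, 0 < Rm ∧ ∀ v, R v ≤ Rm := by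
    refine ⟨∑ v, R v + 1, ?_, fun v => ?_⟩
    · have : 0 ≤ ∑ v, R v := Finset.sum_nonneg fun v _ => hR0 v
      linarith
    · have : R v ≤ ∑ v, R v := Finset.single_le_sum (fun v _ => hR0 v) (Finset.mem_univ v)
      linarith
  obtain ⟨N, hN⟩ := exists_nat_ge (Rm / m)
  have hNpos : (0 : ℝ) < N := lt_of_lt_of_le (by positivity) hN
  have hN0 : 0 < N := by exact_mod_cast hNpos
  have hN1 : ∀ u v w, G.Adj u v → R w * (1 / N) ≤ ℓ s(u, v) := by
    intro u v w huv
    have h1 : Rm ≤ N * m := by rwa [div_le_iff₀ hm0] at hN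
    have h2 := hm u v huv
    rw [mul_one_div, div_le_iff₀ hNpos]
    have h4 := hRm w
    nlinarith
  -- partitions for all scales
  have hpart : ∀ Δ : ℝ, ∃ c : (Fin (r + 2) → Fin N) → V → V, 0 < Δ →
      (∀ ω' u v, c ω' u = c ω' v → pathDist G ℓ u v ≤ 8 * q ^ 2 * Δ) ∧
      ∀ u v, G.Adj u v → ({ω' | c ω' u ≠ c ω' v}.ncard : ℝ) ≤
        q * (N : ℝ) ^ (r + 2) * (ℓ s(u, v) / Δ + 1 / N) := by
    intro Δ
    by_cases hΔ : 0 < Δ
    · obtain ⟨c, h1, h2⟩ := h6 V G ℓ r hc hP hℓ Δ N hΔ hN0
      exact ⟨c, fun _ => ⟨h1, h2⟩⟩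
    · exact ⟨fun _ v => v, fun h => absurd h hΔ⟩
  choose c hcc using hpart
  set lab : Fin N × (Fin (r + 2) → Fin N) → V → ℤ × V := fun i v =>
    (Kpr.lev N i.1 (R v), c (sc N i.1 (Kpr.lev N i.1 (R v)) / (8 * q ^ 2)) i.2 v) with hlab
  set sel : Set V → V := fun S => if h : S.Nonempty then h.some else hVne.some with hsel
  have hselm : ∀ S : Set V, S.Nonempty → sel S ∈ S := by
    intro S hS
    show (if h : S.Nonempty then h.some else hVne.some) ∈ S
    rw [dif_pos hS]
    exact hS.some_mem
  set rep : Fin N × (Fin (r + 2) → Fin N) → V → V := fun i v =>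
    sel {v' | v' ∉ X ∧ lab i v' = lab i v} with hrep
  have hrepm : ∀ i v, v ∉ X → rep i v ∉ X ∧ lab i (rep i v) = lab i v := by
    intro i v hv
    exact hselm {v' | v' ∉ X ∧ lab i v' = lab i v} ⟨v, hv, rfl⟩
  have hrepe : ∀ i u v, lab i u = lab i v → rep i u = rep i v := by
    intro i u v h
    show sel {v' | v' ∉ X ∧ lab i v' = lab i u} = sel {v' | v' ∉ X ∧ lab i v' = lab i v}
    rw [h]
  set π : Fin N × (Fin (r + 2) → Fin N) → V → V := fun i v =>
    if v ∈ X then v else ν (rep i v) with hπ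
  have hclose : ∀ i v, pathDist G ℓ v (π i v) ≤ 3 * R v := by
    intro i v
    by_cases hv : v ∈ X
    · have e : π i v = v := if_pos hv
      rw [e, hd.self]
      have := hR0 v
      linarith
    · have e : π i v = ν (rep i v) := if_neg hv
      rw [e]
      obtain ⟨h1, h2⟩ := hrepm i v hv
      have h4 : Kpr.lev N i.1 (R (rep i v)) = Kpr.lev N i.1 (R v) := congrArg Prod.fst h2
      have h5 : c (sc N i.1 (Kpr.lev N i.1 (R (rep i v))) / (8 * q ^ 2)) i.2 (rep i v) =
          c (sc N i.1 (Kpr.lev N i.1 (R v)) / (8 * q ^ 2)) i.2 v := congrArg Prod.snd h2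
      rw [h4] at h5
      have hs := sc_pos N i.1 (Kpr.lev N i.1 (R v))
      have h7 := (hcc (sc N i.1 (Kpr.lev N i.1 (R v)) / (8 * q ^ 2)) (by positivity)).1 i.2 _ _ h5.symm
      have e7 : 8 * q ^ 2 * (sc N i.1 (Kpr.lev N i.1 (R v)) / (8 * q ^ 2)) =
          sc N i.1 (Kpr.lev N i.1 (R v)) := by
        field_simp
      rw [e7] at h7
      have h8 := lev_le (N := N) (k := i.1) (hRpos v hv)
      have h9 := lt_lev (N := N) (k := i.1) (hRpos _ h1)
      rw [h4] at h9
      have h10 := hd.tri v (rep i v) (ν (rep i v))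
      have h11 : R (rep i v) = pathDist G ℓ (rep i v) (ν (rep i v)) := rfl
      linarith
  set P : ℝ := (N : ℝ) ^ (r + 2) with hPdef
  have hP0 : 0 < P := by rw [hPdef]; positivity
  have hcardΩ : ((Fintype.card (Fin (r + 2) → Fin N) : ℕ) : ℝ) = P := by
    rw [Fintype.card_fun, Fintype.card_fin, Fintype.card_fin, hPdef]
    push_cast
    rfl
  have hcard : (∑ _i : Fin N × (Fin (r + 2) → Fin N), ((N : ℝ) * P)⁻¹) = 1 := by
    rw [Finset.sum_const, Finset.card_univ, Fintype.card_prod, Fintype.card_fin, nsmul_eq_mul]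
    push_cast
    rw [hcardΩ]
    exact mul_inv_cancel₀ (by positivity)
  refine ⟨Fin N × (Fin (r + 2) → Fin N), inferInstance, fun _ => ((N : ℝ) * P)⁻¹, π,
    fun _ => by positivity, hcard, ?_, ?_, hclose⟩
  · intro i v
    show (if v ∈ X then v else ν (rep i v)) ∈ X
    split_ifs with h
    · exact h
    · exact hν.mem _
  · intro u v huv
    set l : ℝ := ℓ s(u, v) with hl
    have hl0 : 0 < l := hℓ _ huv
    have hlip := hRlip u v huv
    obtain ⟨hlip1, hlip2⟩ := abs_le.1 hlip
    have hT : ∀ i, pathDist G ℓ (π i u) (π i v) ≤ 3 * R u + l + 3 * R v := by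
      intro i
      have h1 := hclose i u
      have h2 := hclose i v
      have h4 := hd.tri (π i u) u (π i v)
      have h5 := hd.tri u v (π i v)
      have h7 := pathDist_adj hℓ huv
      rw [hd.symm (π i u) u] at h4
      linarith
    have hw0 : (0 : ℝ) < ((N : ℝ) * P)⁻¹ := by positivity
    by_cases hA : R u ≤ 2 * l ∨ R v ≤ 2 * l
    · have h1 : R u ≤ 3 * l ∧ R v ≤ 3 * l := by
        rcases hA with h | h
        · exact ⟨by linarith, by linarith⟩
        · exact ⟨by linarith, by linarith⟩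
      calc ∑ i, ((N : ℝ) * P)⁻¹ * pathDist G ℓ (π i u) (π i v)
          ≤ ∑ _i : Fin N × (Fin (r + 2) → Fin N), ((N : ℝ) * P)⁻¹ * (200 * q ^ 3 * l) := by
            refine Finset.sum_le_sum fun i _ => mul_le_mul_of_nonneg_left ?_ hw0.le
            have h4 := hT i
            have h5 : 8 * l ≤ q ^ 3 * l := mul_le_mul_of_nonneg_right hq3 hl0.le
            linarith
        _ = 200 * q ^ 3 * l := by rw [← Finset.sum_mul, hcard, one_mul]
    · push Not at hA
      obtain ⟨hu2, hv2⟩ := hA
      have hRu : 0 < R u := by linarith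
      have hRv : 0 < R v := by linarith
      have huX : u ∉ X := by
        intro h
        have : R u = 0 := by
          show pathDist G ℓ u (ν u) = 0
          rw [hν.self u h, hd.self]
        linarith
      have hvX : v ∉ X := by
        intro h
        have : R v = 0 := by
          show pathDist G ℓ v (ν v) = 0
          rw [hν.self v h, hd.self]
        linarith
      set T : ℝ := 3 * R u + l + 3 * R v with hTdef
      have hT8 : T ≤ 8 * R u := by rw [hTdef]; linarith
      have hT0 : 0 ≤ T := by rw [hTdef]; positivity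
      -- the bad indices
      set b1 : Fin N → ℝ := fun k => if Kpr.lev N k (R u) ≠ Kpr.lev N k (R v) then 1 else 0 with hb1
      set b2 : Fin N → (Fin (r + 2) → Fin N) → ℝ := fun k ω' =>
        if c (sc N k (Kpr.lev N k (R u)) / (8 * q ^ 2)) ω' u ≠
          c (sc N k (Kpr.lev N k (R u)) / (8 * q ^ 2)) ω' v then 1 else 0 with hb2
      have hcost : ∀ i : Fin N × (Fin (r + 2) → Fin N),
          pathDist G ℓ (π i u) (π i v) ≤ T * (b1 i.1 + b2 i.1 i.2) := by
        intro i
        have n1 : 0 ≤ b1 i.1 := by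
          show (0 : ℝ) ≤ if Kpr.lev N i.1 (R u) ≠ Kpr.lev N i.1 (R v) then 1 else 0
          split_ifs <;> norm_num
        have n2 : 0 ≤ b2 i.1 i.2 := by
          show (0 : ℝ) ≤ if c (sc N i.1 (Kpr.lev N i.1 (R u)) / (8 * q ^ 2)) i.2 u ≠
            c (sc N i.1 (Kpr.lev N i.1 (R u)) / (8 * q ^ 2)) i.2 v then 1 else 0
          split_ifs <;> norm_num
        by_cases g1 : Kpr.lev N i.1 (R u) = Kpr.lev N i.1 (R v)
        · by_cases g2 : c (sc N i.1 (Kpr.lev N i.1 (R u)) / (8 * q ^ 2)) i.2 u =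
              c (sc N i.1 (Kpr.lev N i.1 (R u)) / (8 * q ^ 2)) i.2 v
          · have g3 : lab i u = lab i v := by
              refine Prod.ext g1 ?_
              show c (sc N i.1 (Kpr.lev N i.1 (R u)) / (8 * q ^ 2)) i.2 u =
                c (sc N i.1 (Kpr.lev N i.1 (R v)) / (8 * q ^ 2)) i.2 v
              rw [← g1]
              exact g2
            have g4 : π i u = π i v := by
              show (if u ∈ X then u else ν (rep i u)) = (if v ∈ X then v else ν (rep i v))
              rw [if_neg huX, if_neg hvX, hrepe i u v g3]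
            rw [g4, hd.self]
            positivity
          · have e : b2 i.1 i.2 = 1 := if_pos g2
            rw [e]
            have := hT i
            nlinarith
        · have e : b1 i.1 = 1 := if_pos g1
          rw [e]
          have := hT i
          nlinarith
      have hsum1 : ∑ k, b1 k ≤ N * (4 * l / R u) + 1 := by
        have h1 := h3 (Real.logb 2 (R u)) (Real.logb 2 (R v)) (4 * l / R u) 1 N
          (logb_diff hRu hRv hlip hu2.le hv2.le) one_pos hN0
        rw [ncard_filter] at h1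
        rw [div_one] at h1
        refine le_trans (le_of_eq ?_) h1
        rw [Finset.card_filter]
        push_cast
        rfl
      have hsum2 : ∀ k, ∑ ω', b2 k ω' ≤ q * P * (16 * q ^ 2 * l / R u + 1 / N) := by
        intro k
        have hs := sc_pos N k (Kpr.lev N k (R u))
        have h1 := (hcc (sc N k (Kpr.lev N k (R u)) / (8 * q ^ 2)) (by positivity)).2 u v huv
        rw [ncard_filter] at h1
        have h2 : ℓ s(u, v) / (sc N k (Kpr.lev N k (R u)) / (8 * q ^ 2)) ≤ 16 * q ^ 2 * l / R u := by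
          have h4 := lt_lev (N := N) (k := k) hRu
          rw [div_div_eq_mul_div, div_le_div_iff₀ hs hRu]
          have h5 : 0 ≤ 8 * q ^ 2 * l * (2 * sc N k (Kpr.lev N k (R u)) - R u) :=
            mul_nonneg (by positivity) (by linarith)
          show l * (8 * q ^ 2) * R u ≤ 16 * q ^ 2 * l * sc N k (Kpr.lev N k (R u))
          nlinarith
        have h4 : (∑ ω', b2 k ω') = (((univ.filter fun ω' =>
            c (sc N k (Kpr.lev N k (R u)) / (8 * q ^ 2)) ω' u ≠
            c (sc N k (Kpr.lev N k (R u)) / (8 * q ^ 2)) ω' v).card : ℕ) : ℝ) := by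
          rw [Finset.card_filter]
          push_cast
          rfl
        rw [h4]
        refine h1.trans (mul_le_mul_of_nonneg_left (by linarith) (by positivity))
      have hNne : (N : ℝ) ≠ 0 := hNpos.ne'
      have htot : ∑ i : Fin N × (Fin (r + 2) → Fin N), (b1 i.1 + b2 i.1 i.2) ≤
          ((N : ℝ) * P) * (4 * l / R u + 1 / N + q * (16 * q ^ 2 * l / R u + 1 / N)) := by
        rw [Fintype.sum_prod_type]
        have h1 : ∀ k : Fin N, ∑ ω' : (Fin (r + 2) → Fin N), (b1 k + b2 k ω') ≤
            P * b1 k + q * P * (16 * q ^ 2 * l / R u + 1 / N) := by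
          intro k
          rw [Finset.sum_add_distrib, Finset.sum_const, Finset.card_univ, nsmul_eq_mul, hcardΩ]
          have := hsum2 k
          linarith
        refine (Finset.sum_le_sum fun k _ => h1 k).trans ?_
        rw [Finset.sum_add_distrib, ← Finset.mul_sum, Finset.sum_const, Finset.card_univ,
          Fintype.card_fin, nsmul_eq_mul]
        have h2 : P * ∑ k, b1 k ≤ P * (N * (4 * l / R u) + 1) :=
          mul_le_mul_of_nonneg_left hsum1 hP0.le
        refine (add_le_add h2 le_rfl).trans (le_of_eq ?_)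
        field_simp
      calc ∑ i, ((N : ℝ) * P)⁻¹ * pathDist G ℓ (π i u) (π i v)
          ≤ ∑ i : Fin N × (Fin (r + 2) → Fin N),
              ((N : ℝ) * P)⁻¹ * (T * (b1 i.1 + b2 i.1 i.2)) :=
            Finset.sum_le_sum fun i _ => mul_le_mul_of_nonneg_left (hcost i) hw0.le
        _ = ((N : ℝ) * P)⁻¹ * T * ∑ i : Fin N × (Fin (r + 2) → Fin N),
              (b1 i.1 + b2 i.1 i.2) := by
            rw [Finset.mul_sum]
            exact Finset.sum_congr rfl fun i _ => by ring
        _ ≤ ((N : ℝ) * P)⁻¹ * T *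
              (((N : ℝ) * P) * (4 * l / R u + 1 / N + q * (16 * q ^ 2 * l / R u + 1 / N))) :=
            mul_le_mul_of_nonneg_left htot (by positivity)
        _ = T * (4 * l / R u + 1 / N + q * (16 * q ^ 2 * l / R u + 1 / N)) := by
            field_simp
        _ ≤ 8 * R u * (4 * l / R u + 1 / N + q * (16 * q ^ 2 * l / R u + 1 / N)) :=
            mul_le_mul_of_nonneg_right hT8 (by positivity)
        _ = 32 * l + 128 * q ^ 3 * l + 8 * (1 + q) * (R u * (1 / N)) := by
            field_simp
            ring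
        _ ≤ 200 * q ^ 3 * l := by
            have h4 := hN1 u v u huv
            have h5 : 8 * (1 + q) * (R u * (1 / N)) ≤ 8 * (1 + q) * l :=
              mul_le_mul_of_nonneg_left h4 (by positivity)
            have h7 : 8 * l ≤ q ^ 3 * l := mul_le_mul_of_nonneg_right hq3 hl0.le
            have h8 : 4 * q * l ≤ q ^ 3 * l := mul_le_mul_of_nonneg_right hqq hl0.le
            have e : 8 * (1 + q) * l = 8 * l + 2 * (4 * q * l) := by ring
            rw [e] at h5
            have e2 : 128 * q ^ 3 * l = 128 * (q ^ 3 * l) := by ring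
            have e3 : 200 * q ^ 3 * l = 200 * (q ^ 3 * l) := by ring
            rw [e2, e3]
            linarith

end Vale.Agent.P235.Kr
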