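/-
P235-M (helper341): all rows for graphs without a `K_r` minor together.
-/
import Vale.Agent.P235.R2.H341.K1
import Vale.Agent.P235.R2.H341.K4
import Vale.Agent.P235.R2.H934.KrK2
import Vale.Agent.P235.R2.H910.Kr3
import Vale.Agent.P235.R2.H643.Kr5
import Vale.Agent.P235.R2.H611.KrK6
import Vale.Agent.P235.R2.H680.RowPot
import Vale.Agent.P235.R2.H907.RowCount

set_option autoImplicit false
set_option linter.all false

namespace Vale.Agent.P235.Kr

open SimpleGraph Vale.Agent.P235

/-- random partitions of a graph without a `K_r` minor (Klein, Plotkin, Rao) -/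
theorem kpr : RowK3 := R2.H910.Kr3.rowK3 (rowK2 rowK1) Kpr.rowPot Kpr.rowCount

/-- random retractions of a graph without a `K_r` minor onto any nonempty set of vertices -/
theorem retr : RowK4 := rowK4 Kpr.rowCount kpr

/-- the step which deletes any set from a graph without a `K_r` minor -/
theorem step : RowK5 := rowK5 retr

end Vale.Agent.P235.Kr
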