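/-
P235-M (helper341): the rounds and the unions for graphs without a `K_r` minor, no hypothesis left.
-/
import Vale.Agent.P235.R2.H341.KrAll
import Vale.Agent.P235.R2.H324.MinorRounds
import Vale.Agent.P235.R2.H611.KrUni

set_option autoImplicit false
set_option linter.all false

namespace Vale.Agent.P235.Kr

open Vale.Agent.P235

/-- **Rounds.** `k` rounds of `s` lanes cost `√k log (s + 2)`, `j` rounds of faces of Euler genus
`g` cost `j (g + 1)`, a round which deletes any set `X` of a graph without a `K_r` minor costs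
`(r + 2)^3` times the distortion of the metric of `X`. -/
theorem rounds {Q : ℝ} (hQ : 1 ≤ Q) {s g k j : ℕ} {β : ℝ} (hβ : 0 ≤ β) {V : Type} [Finite V]
    {G : SimpleGraph V} {ℓ : Sym2 V → ℝ} (hc : G.Connected) (hℓ : ∀ e ∈ G.edgeSet, 0 < ℓ e)
    (h : Pk.MinorRounds Q s g k j β G ℓ) :
    EmbedsL1 (pathDist G ℓ) (1600000000 * (Q + √(k : ℝ) * Real.log ((s : ℝ) + 2) +
      j * ((g : ℝ) + 1) + β)) := by
  have h1 := MinR.minorRounds_final (A := 400) (by norm_num) (MinR.stepX_of step) hQ hβ hc hℓ h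
  have e : (1600000000 : ℝ) = 4000000 * 400 := by norm_num
  rw [e]
  exact h1

/-- **One set.** If the connected graph `G` has no `K_r` minor, the metric on `X` has distortion `B`
and the components of `G - X` have distortion at most `Q`, then `G` has distortion at most
`C (Q + (r + 2)^3 B)`. -/
theorem delete_set {r : ℕ} {Q B : ℝ} (hQ : 1 ≤ Q) (hB : 1 ≤ B) {V : Type} [Finite V]
    {G : SimpleGraph V} {ℓ : Sym2 V → ℝ} (hc : G.Connected) (hℓ : ∀ e ∈ G.edgeSet, 0 < ℓ e)
    (hK : NoK r G) {X : Set V} (hX : X.Nonempty)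
    (hE : EmbedsL1 (fun u v : X => pathDist G ℓ u v) B)
    (hcomp : ∀ u, u ∉ X → EmbedsL1 (pathDist (G.induce (compSet G X u))
      (fun e => ℓ (e.map Subtype.val))) Q) (hparts : Pk.Parts G X (compSet G X)) :
    EmbedsL1 (pathDist G ℓ) (1600000000 * (Q + ((r : ℝ) + 2) ^ 3 * B)) := by
  have h1 : Pk.MinorRounds Q 0 0 0 0 (0 + ((r : ℝ) + 2) ^ 3 * B) G ℓ :=
    .set hK hX hB hE hparts le_rfl fun u hu => .leaf (hcomp u hu)
  have h2 := rounds hQ (by positivity) hc hℓ h1
  have e : (1600000000 : ℝ) * (Q + √((0 : ℕ) : ℝ) * Real.log (((0 : ℕ) : ℝ) + 2) +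
      ((0 : ℕ) : ℝ) * (((0 : ℕ) : ℝ) + 1) + (0 + ((r : ℝ) + 2) ^ 3 * B)) =
      1600000000 * (Q + ((r : ℝ) + 2) ^ 3 * B) := by
    simp
  rw [e] at h2
  exact h2

end Vale.Agent.P235.Kr
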