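/-
P235-M (helper341): the hypotheses of `Pf.rounds_final` and `Uni.union_of_retr` are theorems for
graphs without a `K_r` minor.
-/
import Vale.Agent.P235.R2.H341.KrAll
import Vale.Agent.P235.R2.H802.RoundsF
import Vale.Agent.P235.R2.H802.Uni

set_option autoImplicit false
set_option linter.all false

namespace Vale.Agent.P235.Pf

open Vale.Agent.P235

theorem stepK_all (r : ℕ) : StepK r (400 * ((r : ℝ) + 2) ^ 3) := by
  intro V _ G ℓ hc hK hℓ X B hX hB hE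
  obtain ⟨F, h1, h2, h3⟩ := Kr.step V G ℓ r hc hK hℓ X B hX hB hE
  exact ⟨F, h1, h2, h3⟩

theorem retr_all {V : Type} [Finite V] {G : SimpleGraph V} {ℓ : Sym2 V → ℝ} {r : ℕ}
    (hc : G.Connected) (hK : ¬ H134.IsMinor (⊤ : SimpleGraph (Fin r)) G)
    (hℓ : ∀ e ∈ G.edgeSet, 0 < ℓ e) : Uni.Retr G ℓ (200 * ((r : ℝ) + 2) ^ 3) :=
  Kr.retr V G ℓ r hc hK hℓ

/-- **Rounds** -/
theorem rounds_all {Q : ℝ} (hQ : 1 ≤ Q) {s r k : ℕ} {β : ℝ} (hβ : 0 ≤ β) {V : Type} [Finite V]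
    {G : SimpleGraph V} {ℓ : Sym2 V → ℝ} (hc : G.Connected) (hℓ : ∀ e ∈ G.edgeSet, 0 < ℓ e)
    (h : Rounds Q s r k β G ℓ) :
    EmbedsL1 (pathDist G ℓ) (1600000000 * (Q + √(k : ℝ) * Real.log ((s : ℝ) + 2) +
      ((r : ℝ) + 2) ^ 3 * β)) := by
  have hr : (1 : ℝ) ≤ ((r : ℝ) + 2) ^ 3 := one_le_pow₀ (by
    have : (0 : ℝ) ≤ r := Nat.cast_nonneg r
    linarith)
  have h1 := rounds_final (A := 400 * ((r : ℝ) + 2) ^ 3) (by linarith) (stepK_all r) hQ hβ hc hℓ h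
  obtain ⟨Ω, μ', μ, f, hf⟩ := h1
  refine ⟨Ω, μ', μ, f, fun x y => ⟨(hf x y).1, (hf x y).2.trans
    (mul_le_mul_of_nonneg_right ?_ (pathDist_isMet hc hℓ |>.nonneg x y))⟩⟩
  have e1 : 0 ≤ √(k : ℝ) * Real.log ((s : ℝ) + 2) :=
    mul_nonneg (Real.sqrt_nonneg _) (Real.log_nonneg (by
      have : (0 : ℝ) ≤ s := Nat.cast_nonneg s
      linarith))
  have e2 : 0 ≤ ((r : ℝ) + 2) ^ 3 * β := by positivity
  linarith

/-- **Unions** -/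
theorem union_all {V : Type} [Finite V] {G : SimpleGraph V} {ℓ : Sym2 V → ℝ} {r : ℕ}
    (hc : G.Connected) (hK : ¬ H134.IsMinor (⊤ : SimpleGraph (Fin r)) G)
    (hℓ : ∀ e ∈ G.edgeSet, 0 < ℓ e) {m : ℕ} {X : Fin m → Set V} {B : Fin m → ℝ}
    (hB : ∀ i, 1 ≤ B i) (hE : ∀ i, EmbedsL1 (fun u v : X i => pathDist G ℓ u v) (B i)) :
    EmbedsL1 (fun u v : (⋃ i, X i : Set V) => pathDist G ℓ u v)
      (203 * ((r : ℝ) + 2) ^ 3 * ∑ i, B i) := by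
  have hr : (1 : ℝ) ≤ ((r : ℝ) + 2) ^ 3 := one_le_pow₀ (by
    have : (0 : ℝ) ≤ r := Nat.cast_nonneg r
    linarith)
  have h1 := Uni.union_of_retr (E := 200 * ((r : ℝ) + 2) ^ 3) (by linarith)
    (retr_all hc hK hℓ) hc hℓ hB hE
  obtain ⟨Ω, μ', μ, f, hf⟩ := h1
  refine ⟨Ω, μ', μ, f, fun x y => ⟨(hf x y).1, (hf x y).2.trans
    (mul_le_mul_of_nonneg_right ?_ (pathDist_isMet hc hℓ |>.nonneg x y))⟩⟩
  have h0 : 0 ≤ ∑ i, B i := Finset.sum_nonneg fun i _ => by linarith [hB i]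
  nlinarith

end Vale.Agent.P235.Pf
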