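import Vale.Agent.P235.R2.H721.UniSpec

/-!
P235-M (helper341): (Z3), one set which is active where `g < M`.
-/

set_option autoImplicit false

namespace Vale.Agent.P235.Kpr

open Vale.Agent.P235 H341W

/-- **(Z3)** -/
theorem rowOne : RowOne := by
  intro V _ G ℓ hc hℓ g M F C ε hC hε hg hM hF hFl
  have hlen : ∀ u v, G.Adj u v → 0 < ℓ s(u, v) := fun u v h => hℓ _ h
  set K : V → ℝ := fun v => max 0 (M v - g v) with hKdef
  have hK0 : ∀ v, 0 ≤ K v := fun v => le_max_left _ _
  have hKl : ∀ u v, G.Adj u v → |K u - K v| ≤ 2 * ℓ s(u, v) := by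
    intro u v huv
    have h1 := abs_max_sub_max_le_max 0 (M u - g u) 0 (M v - g v)
    have h2 : |(M u - g u) - (M v - g v)| ≤ 2 * ℓ s(u, v) := by
      have a1 := abs_le.1 (hM u v huv)
      have a2 := abs_le.1 (hg u v huv)
      rw [abs_le]
      constructor <;> linarith
    refine h1.trans (max_le ?_ h2)
    rw [sub_zero, abs_zero]
    linarith [hlen u v huv]
  set H : V → ℝ := fun v => K v / 2 + ε with hHdef
  have hH : ∀ v, 0 < H v := fun v => by
    have := hK0 v
    show 0 < K v / 2 + ε
    linarith
  have hHl : ∀ u v, G.Adj u v → |H u - H v| ≤ ℓ s(u, v) := by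
    intro u v huv
    have h1 := abs_le.1 (hKl u v huv)
    show |(K u / 2 + ε) - (K v / 2 + ε)| ≤ _
    rw [abs_le]
    constructor <;> linarith
  have hρI : IsL1 fun x y => F x y + |g x - g y| := hF.add (isL1_line g)
  obtain ⟨τ, hτ1, hτ2, hτ3, -, hτ5⟩ := pointedD_of_L1 (C := C + 1) (by linarith) hc hℓ hH hHl
    (ρ := fun x y => F x y + |g x - g y|) (D := fun x y => F x y + |g x - g y|) hρI
    (fun u v huv => by
      have h1 := hFl u v huv
      have h2 := hg u v huv
      show F u v + |g u - g v| ≤ _
      linarith) (fun _ _ => le_rfl)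
  refine ⟨fun u v => τ (some u) (some v) + 1 * |K u - K v|,
    (hτ1.comap some).add ((isL1_line K).smul (by norm_num)), fun u v huv => ?_,
    fun u v hu hv => ?_, fun x y δ hδ hx hMx hy => ?_⟩
  · have h1 := hτ2 u v huv
    have h2 := hKl u v huv
    have h3 := hlen u v huv
    show τ (some u) (some v) + 1 * |K u - K v| ≤ _
    linarith
  · have e1 : K u = 0 := max_eq_left (by linarith)
    have e2 : K v = 0 := max_eq_left (by linarith)
    have h1 := hτ3 u
    have h2 := hτ3 v
    have h3 := hτ1.tri (some u) none (some v)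
    have h4 := hτ1.symm none (some v)
    have e3 : H u = ε := by show K u / 2 + ε = ε; rw [e1]; ring
    have e4 : H v = ε := by show K v / 2 + ε = ε; rw [e2]; ring
    rw [e3] at h1
    rw [e4] at h2
    show τ (some u) (some v) + 1 * |K u - K v| ≤ _
    rw [e1, e2, sub_self, abs_zero]
    have : 0 < C * ε := mul_pos hC hε
    linarith
  · show δ / 400000 ≤ τ (some x) (some y) + 1 * |K x - K y|
    have hKx : δ / 48 ≤ K x := by
      have : M x - g x ≤ K x := le_max_right _ _
      linarith
    have hτn : 0 ≤ τ (some x) (some y) := hτ1.nonneg _ _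
    have hab := abs_nonneg (K x - K y)
    rcases lt_or_ge (K y) (δ / 96) with h | h
    · have := le_abs_self (K x - K y)
      linarith
    · have hρ : 8 * (δ / 192) ≤ F x y + |g x - g y| := by
        rcases le_or_gt (g y) (δ / 12) with h1 | h1
        · have h2 := hy h1
          have h3 := abs_nonneg (g x - g y)
          linarith
        · have h2 := neg_abs_le (g x - g y)
          have h3 := hF.nonneg x y
          linarith
      have h1 := hτ5 x y (δ / 192) (by show _ ≤ K x / 2 + ε; linarith)
        (by show _ ≤ K y / 2 + ε; linarith) hρ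
      linarith

end Vale.Agent.P235.Kpr
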