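import Vale.Agent.P235.H105.Peel

/-!
# Relative leaves

`pointed_leaf` of `H105/Peel.lean` for one `L₁` semimetric instead of all lengths (helper341).
-/

namespace Vale.Agent.P235.H341W

open Finset Vale.Agent.P235

section comps

variable {V : Type} [Finite V] {G : SimpleGraph V} {X : Set V} {ℓ : Sym2 V → ℝ} {ν : V → V}

/-- the finite multi-scale map of one component -/
theorem comp_oneR {C : ℝ} (hC : 0 < C) (hc : G.Connected) (hℓ : ∀ e ∈ G.edgeSet, 0 < ℓ e)
    (hν : Near G ℓ X ν) {u : V} {K : Set V} (hKe : K = compSet G X u)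
    {ρ : K → K → ℝ} (hρI : IsL1 ρ)
    (hρℓ : ∀ x y : K, G.Adj x y → ρ x y ≤ C * ℓ s(x.1, y.1)) (J : Finset ℤ) :
    ∃ R : V → V → ℝ, IsL1 R ∧
      (∀ x y : V, x ∈ K → y ∈ K → G.Adj x y →
        R x y ≤ 12 * (C + 1) * ℓ s(x, y)) ∧
      (∀ x y : V, x ∈ K → y ∉ K →
        R x y ≤ 12 * pathDist G ℓ x (ν x)) ∧
      (∀ x y : V, x ∈ K → y ∉ K →
        Int.log 2 (pathDist G ℓ x (ν x)) ∈ J → pathDist G ℓ x (ν x) / 2 ≤ R x y) ∧
      (∀ x y : K,
        Int.log 2 (pathDist G ℓ x (ν x)) ∈ J →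
        pathDist G ℓ y (ν y) ≤ pathDist G ℓ x (ν x) →
        min (ρ x y) (pathDist G ℓ x (ν x) + pathDist G ℓ y (ν y)) / 8 -
          2 * |pathDist G ℓ x (ν x) - pathDist G ℓ y (ν y)| ≤ R x y) ∧
      (∀ x y : V, x ∉ K → y ∉ K → R x y = 0) := by
  classical
  have hd := pathDist_isMet hc hℓ
  set D : V → ℝ := fun x => pathDist G ℓ x (ν x) with hD
  have hKX : ∀ x ∈ K, x ∉ X := fun x hx => ReachOff.right (hKe ▸ hx)
  have hDpos : ∀ x ∈ K, 0 < D x := fun x hx => near_pos hc hℓ hν (hKX x hx)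
  -- one scale maps
  let φ : ℤ → V → ℝ := fun j x => if x ∈ K then prof (D x / 2 ^ j) else 0
  have hφK : ∀ j, ∀ x ∈ K, φ j x = prof (D x / 2 ^ j) := fun j x hx => if_pos hx
  have hφ0 : ∀ j, ∀ x, x ∉ K → φ j x = 0 := fun j x hx => if_neg hx
  have hφn : ∀ j x, 0 ≤ φ j x := by
    intro j x
    by_cases hx : x ∈ K
    · rw [hφK j x hx]; exact prof_nonneg _
    · rw [hφ0 j x hx]
  have hφ2 : ∀ j x, φ j x ≤ 2 := by
    intro j x
    by_cases hx : x ∈ K
    · rw [hφK j x hx]; exact prof_le _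
    · rw [hφ0 j x hx]; norm_num
  have hφl : ∀ j, ∀ x ∈ K, ∀ y ∈ K, (2 : ℝ) ^ j * |φ j x - φ j y| ≤ 2 * |D x - D y| := by
    intro j x hx y hy
    have hj : (0 : ℝ) < 2 ^ j := by positivity
    rw [hφK j x hx, hφK j y hy]
    calc (2 : ℝ) ^ j * |prof (D x / 2 ^ j) - prof (D y / 2 ^ j)|
        ≤ 2 ^ j * (2 * |D x / 2 ^ j - D y / 2 ^ j|) :=
          mul_le_mul_of_nonneg_left (prof_lip _ _) hj.le
      _ = 2 * |D x - D y| := by
          rw [← sub_div, abs_div, abs_of_pos hj]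
          field_simp
  have hS : ∀ j : ℤ, ∃ R : V → V → ℝ, IsL1 R ∧
      (∀ x y : K, R x y ≤ φ j x * ρ x y + 2 ^ j * |φ j x - φ j y|) ∧
      (∀ x y : K, φ j x * (min (ρ x y) (2 ^ j) / 2) - 2 ^ j * |φ j x - φ j y| ≤ R x y) ∧
      (∀ x y : V, y ∉ K → R x y = 2 ^ j * φ j x) := fun j =>
    one_scale hρI (by positivity) (φ j) (hφn j) (hφ0 j)
  choose R hRI hR1 hR2 hR3 using hS
  have hRn : ∀ j x y, 0 ≤ R j x y := fun j x y => (hRI j).nonneg x y
  have hlog1 : ∀ x ∈ K, (2 : ℝ) ^ (Int.log 2 (D x)) ≤ D x := fun x hx =>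
    Int.zpow_log_le_self (by norm_num) (hDpos x hx)
  have hlog2 : ∀ x : V, D x < 2 * (2 : ℝ) ^ (Int.log 2 (D x)) := by
    intro x
    have := Int.lt_zpow_succ_log_self (b := 2) (by norm_num) (D x)
    rw [zpow_add_one₀ (by norm_num)] at this
    push_cast at this
    linarith
  have hφ1 : ∀ x ∈ K, 1 ≤ φ (Int.log 2 (D x)) x := by
    intro x hx
    rw [hφK _ x hx]
    have hj : (0 : ℝ) < 2 ^ (Int.log 2 (D x)) := by positivity
    refine prof_ge ?_ ?_
    · rw [le_div_iff₀ hj, one_mul]; exact hlog1 x hx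
    · rw [div_le_iff₀ hj]; exact (hlog2 x).le
  have hsingle : ∀ j ∈ J, ∀ x y, R j x y ≤ ∑ j ∈ J, R j x y := fun j hj x y =>
    Finset.single_le_sum (f := fun j => R j x y) (fun j _ => hRn j x y) hj
  have hDl : ∀ x y, |D x - D y| ≤ pathDist G ℓ x y := by
    intro x y
    have h1 := hν.lip hc hℓ x y
    have h2 := hν.lip hc hℓ y x
    rw [hd.symm y x] at h2
    rw [abs_le]; constructor <;> (simp only [hD]; linarith)
  refine ⟨fun x y => ∑ j ∈ J, R j x y, IsL1.sum J (fun j => R j) fun j _ => hRI j,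
    ?_, ?_, ?_, ?_, ?_⟩
  · -- edges inside `K`
    intro x y hx hy hxy
    have hB0 : 0 ≤ 2 * (C * ℓ s(x, y)) + 2 * ℓ s(x, y) := by
      have := hℓ _ (G.mem_edgeSet.mpr hxy)
      positivity
    set A : Finset ℤ := Finset.Icc (Int.log 2 (D x) - 1) (Int.log 2 (D x) + 1) ∪
      Finset.Icc (Int.log 2 (D y) - 1) (Int.log 2 (D y) + 1) with hA
    have hcard : (A.card : ℝ) ≤ 6 := by
      have h1 : A.card ≤ 6 := by
        refine (Finset.card_union_le _ _).trans ?_
        rw [Int.card_Icc, Int.card_Icc]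
        have e1 : (Int.log 2 (D x) + 1 + 1 - (Int.log 2 (D x) - 1)).toNat = 3 := by
          have : Int.log 2 (D x) + 1 + 1 - (Int.log 2 (D x) - 1) = 3 := by ring
          rw [this]; rfl
        have e2 : (Int.log 2 (D y) + 1 + 1 - (Int.log 2 (D y) - 1)).toNat = 3 := by
          have : Int.log 2 (D y) + 1 + 1 - (Int.log 2 (D y) - 1) = 3 := by ring
          rw [this]; rfl
        rw [e1, e2]
      exact_mod_cast h1
    have hterm : ∀ j ∈ J, R j x y ≤ if j ∈ A then 2 * (C * ℓ s(x, y)) + 2 * ℓ s(x, y) else 0 := by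
      intro j _
      have h1 := hR1 j ⟨x, hx⟩ ⟨y, hy⟩
      simp only at h1
      by_cases hj : j ∈ A
      · rw [if_pos hj]
        refine h1.trans (add_le_add ?_ ?_)
        · have h2 := hρℓ ⟨x, hx⟩ ⟨y, hy⟩ hxy
          exact mul_le_mul (hφ2 j x) h2 (hρI.nonneg _ _) (by norm_num)
        · refine (hφl j x hx y hy).trans ?_
          have := (hDl x y).trans (pathDist_adj hℓ hxy)
          linarith
      · rw [if_neg hj]
        rw [hA, Finset.mem_union, not_or] at hj
        have hx0 : φ j x = 0 := by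
          rw [hφK j x hx]
          by_contra hne
          exact hj.1 (active (hDpos x hx) hne)
        have hy0 : φ j y = 0 := by
          rw [hφK j y hy]
          by_contra hne
          exact hj.2 (active (hDpos y hy) hne)
        rw [hx0, hy0] at h1
        simpa using h1
    refine (Finset.sum_le_sum hterm).trans ?_
    rw [Finset.sum_ite_mem, Finset.sum_const, nsmul_eq_mul]
    have h2 : ((J ∩ A).card : ℝ) ≤ A.card := by
      exact_mod_cast Finset.card_le_card Finset.inter_subset_right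
    calc ((J ∩ A).card : ℝ) * (2 * (C * ℓ s(x, y)) + 2 * ℓ s(x, y))
        ≤ 6 * (2 * (C * ℓ s(x, y)) + 2 * ℓ s(x, y)) :=
          mul_le_mul_of_nonneg_right (h2.trans hcard) hB0
      _ = _ := by ring
  · -- upper bound across
    intro x y hx hy
    set A : Finset ℤ := Finset.Icc (Int.log 2 (D x) - 1) (Int.log 2 (D x) + 1) with hA
    have hcard : (A.card : ℝ) = 3 := by
      have h1 : A.card = 3 := by
        rw [hA, Int.card_Icc]
        have : Int.log 2 (D x) + 1 + 1 - (Int.log 2 (D x) - 1) = 3 := by ring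
        rw [this]; rfl
      rw [h1]; norm_num
    have hterm : ∀ j ∈ J, R j x y ≤ if j ∈ A then 4 * D x else 0 := by
      intro j _
      rw [hR3 j x y hy]
      by_cases hj : j ∈ A
      · rw [if_pos hj]
        by_cases h0 : φ j x = 0
        · rw [h0, mul_zero]; linarith [hDpos x hx]
        · rw [hφK j x hx] at h0
          have h1 := (prof_ne h0).1
          have hj : (0 : ℝ) < 2 ^ j := by positivity
          rw [lt_div_iff₀ hj] at h1
          calc (2 : ℝ) ^ j * φ j x ≤ 2 ^ j * 2 := mul_le_mul_of_nonneg_left (hφ2 j x) hj.le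
            _ ≤ _ := by linarith
      · rw [if_neg hj]
        have hx0 : φ j x = 0 := by
          rw [hφK j x hx]
          by_contra hne
          exact hj (active (hDpos x hx) hne)
        rw [hx0, mul_zero]
    refine (Finset.sum_le_sum hterm).trans ?_
    rw [Finset.sum_ite_mem, Finset.sum_const, nsmul_eq_mul]
    have h2 : ((J ∩ A).card : ℝ) ≤ A.card := by
      exact_mod_cast Finset.card_le_card Finset.inter_subset_right
    rw [hcard] at h2
    have h3 : 0 ≤ 4 * D x := by linarith [hDpos x hx]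
    calc ((J ∩ A).card : ℝ) * (4 * D x) ≤ 3 * (4 * D x) := mul_le_mul_of_nonneg_right h2 h3
      _ = _ := by ring
  · -- lower bound across
    intro x y hx hy hJ
    refine le_trans ?_ (hsingle _ hJ x y)
    rw [hR3 _ x y hy]
    have h1 := hφ1 x hx
    have h2 := hlog2 x
    have hj : (0 : ℝ) < 2 ^ (Int.log 2 (D x)) := by positivity
    calc D x / 2 ≤ 2 ^ (Int.log 2 (D x)) * 1 := by linarith
      _ ≤ _ := mul_le_mul_of_nonneg_left h1 hj.le
  · -- lower bound inside
    rintro ⟨x, hx⟩ ⟨y, hy⟩ hJ hle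
    refine le_trans ?_ (hsingle _ hJ x y)
    have h1 := hR2 (Int.log 2 (D x)) ⟨x, hx⟩ ⟨y, hy⟩
    simp only at h1
    refine le_trans ?_ h1
    have h2 := hφl (Int.log 2 (D x)) x hx y hy
    have h3 := hφ1 x hx
    have h4 := hlog2 x
    have hDy : 0 ≤ D y := hd.nonneg _ _
    have hle' : D y ≤ D x := hle
    have h6 : min (ρ ⟨x, hx⟩ ⟨y, hy⟩) (D x + D y) / 4 ≤
        min (ρ ⟨x, hx⟩ ⟨y, hy⟩) (2 ^ (Int.log 2 (D x))) := by
      refine le_min ?_ ?_
      · have h7 := min_le_left (ρ ⟨x, hx⟩ ⟨y, hy⟩) (D x + D y)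
        have h8 := hρI.nonneg ⟨x, hx⟩ ⟨y, hy⟩
        linarith
      · have h7 := min_le_right (ρ ⟨x, hx⟩ ⟨y, hy⟩) (D x + D y)
        linarith
    have h7 : 0 ≤ min (ρ ⟨x, hx⟩ ⟨y, hy⟩) (2 ^ (Int.log 2 (D x))) / 2 := by
      have : 0 ≤ min (ρ ⟨x, hx⟩ ⟨y, hy⟩) (2 ^ (Int.log 2 (D x))) :=
        le_min (hρI.nonneg _ _) (by positivity)
      linarith
    have h8 := mul_le_mul_of_nonneg_right h3 h7
    rw [one_mul] at h8
    show min (ρ ⟨x, hx⟩ ⟨y, hy⟩) (D x + D y) / 8 - 2 * |D x - D y| ≤ _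
    linarith
  · -- outside
    intro x y hx hy
    refine Finset.sum_eq_zero fun j _ => ?_
    rw [hR3 j x y hy, hφ0 j x hx, mul_zero]

end comps

section cone

variable {V : Type} [Finite V] {G : SimpleGraph V} {ℓ : Sym2 V → ℝ} {H : V → ℝ}

/-- a pointed `L₁` semimetric which is bounded by the edge lengths and by `H`, and separates the
pairs at `D`-distance at least `8 δ` on which `H ≥ δ` -/
def PointedD {V : Type} (G : SimpleGraph V) (ℓ : Sym2 V → ℝ) (H : V → ℝ) (D : V → V → ℝ)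
    (K : ℝ) : Prop :=
  ∃ σ : Option V → Option V → ℝ, IsL1 σ ∧
    (∀ u v, G.Adj u v → σ (some u) (some v) ≤ K * ℓ s(u, v)) ∧
    (∀ v, σ (some v) none ≤ K * H v) ∧ (∀ v, H v ≤ 2000 * σ (some v) none) ∧
    ∀ x y δ, δ ≤ H x → δ ≤ H y → 8 * δ ≤ D x y → δ ≤ 2000 * σ (some x) (some y)

theorem PointedD.mono {V : Type} {G : SimpleGraph V} {ℓ : Sym2 V → ℝ} {H : V → ℝ}
    {D : V → V → ℝ} {K K' : ℝ} (hℓ : ∀ e ∈ G.edgeSet, 0 < ℓ e) (hH : ∀ v, 0 < H v)
    (hK : K ≤ K') (h : PointedD G ℓ H D K) : PointedD G ℓ H D K' := by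
  obtain ⟨σ, h1, h2, h3, h4, h5⟩ := h
  exact ⟨σ, h1, fun u v huv => (h2 u v huv).trans (mul_le_mul_of_nonneg_right hK (hℓ _ huv).le),
    fun v => (h3 v).trans (mul_le_mul_of_nonneg_right hK (hH v).le), h4, h5⟩

theorem PointedD.anti {V : Type} {G : SimpleGraph V} {ℓ : Sym2 V → ℝ} {H : V → ℝ}
    {D D' : V → V → ℝ} {K : ℝ} (hD : ∀ x y, D' x y ≤ D x y) (h : PointedD G ℓ H D K) :
    PointedD G ℓ H D' K := by
  obtain ⟨σ, h1, h2, h3, h4, h5⟩ := h
  exact ⟨σ, h1, h2, h3, h4, fun x y δ hx hy hxy => h5 x y δ hx hy (hxy.trans (hD x y))⟩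

theorem pointed_iff {V : Type} {G : SimpleGraph V} {ℓ : Sym2 V → ℝ} {H : V → ℝ} {K : ℝ} :
    PointedD G ℓ H (pathDist G ℓ) K ↔ Pointed G ℓ H K := Iff.rfl

/-- **relative leaves**: an `L₁` semimetric which is at most `C` times the edge lengths and at least
`D` -/
theorem pointedD_of_L1 {C : ℝ} (hC : 0 < C) (hc : G.Connected) (hℓ : ∀ e ∈ G.edgeSet, 0 < ℓ e)
    (hH : ∀ v, 0 < H v) (hHl : ∀ u v, G.Adj u v → |H u - H v| ≤ ℓ s(u, v))
    {ρ D : V → V → ℝ} (hρ : IsL1 ρ) (hρℓ : ∀ u v, G.Adj u v → ρ u v ≤ C * ℓ s(u, v))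
    (hD : ∀ u v, D u v ≤ ρ u v) : PointedD G ℓ H D (96 * C + 112) := by
  classical
  have hcc := cone_connected G
  have hcℓ := coneLen_pos hℓ hH
  have hcd := pathDist_isMet hcc hcℓ
  obtain ⟨ν, hν⟩ := exists_near (X := {(none : Option V)}) hcc hcℓ ⟨none, rfl⟩
  have hνn : ∀ a, ν a = none := fun a => hν.mem a
  obtain ⟨v0⟩ := hc.nonempty
  have ha : (some v0 : Option V) ∉ ({(none : Option V)} : Set (Option V)) := by simp
  set Kc := compSet (cone G) {(none : Option V)} (some v0) with hKdef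
  have hget : ∀ z : Kc, ∃ v, z.1 = some v := by
    intro z
    have h1 : z.1 ∉ ({none} : Set (Option V)) := ReachOff.right z.2
    exact Option.ne_none_iff_exists'.1 h1
  choose f hf using hget
  have hall : ∀ v : V, (some v : Option V) ∈ Kc := by
    have key : ∀ (u v : V), G.Walk u v → (some u : Option V) ∈ Kc → (some v : Option V) ∈ Kc := by
      intro u v p
      induction p with
      | nil => exact id
      | @cons u w v h p ih =>
        intro hu
        exact ih (ReachOff.trans hu (ReachOff.adj (by simp) (by simp) (cone_some.2 h)))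
    intro v
    obtain ⟨p⟩ := hc.preconnected v0 v
    exact key v0 v p (ReachOff.refl ha)
  have hnK : (none : Option V) ∉ Kc := fun h => ReachOff.right h rfl
  have hfs : ∀ v : V, f ⟨some v, hall v⟩ = v := fun v =>
    (Option.some.inj (hf ⟨some v, hall v⟩)).symm
  have : Fintype V := Fintype.ofFinite V
  let J : Finset ℤ := Finset.univ.image fun v : V =>
    Int.log 2 (pathDist (cone G) (coneLen ℓ H) (some v) none)
  have hJ : ∀ v : V, Int.log 2 (pathDist (cone G) (coneLen ℓ H) (some v) none) ∈ J := fun v =>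
    Finset.mem_image_of_mem _ (Finset.mem_univ v)
  obtain ⟨R, hRI, hR1, hR2, hR3, hR4, -⟩ := comp_oneR (X := {(none : Option V)}) hC hcc hcℓ hν hKdef
    (ρ := fun z z' => ρ (f z) (f z')) (hρ.comap f) (by
      intro z z' h
      have h1 : (cone G).Adj z.1 z'.1 := h
      rw [hf z, hf z', cone_some] at h1
      have h2 := hρℓ _ _ h1
      show _ ≤ C * coneLen ℓ H s(z.1, z'.1)
      rw [hf z, hf z', coneLen_some]
      exact h2) J
  have hK : 0 < 96 * C + 112 := by positivity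
  have hd1 : ∀ v, pathDist (cone G) (coneLen ℓ H) (some v) none = H v := by
    intro v
    apply le_antisymm
    · have h := pathDist_adj hcℓ (cone_none (G := G) v)
      rwa [coneLen_none] at h
    · have h := cone_lip (G := G) (ℓ := ℓ) (H := H) (f := fun a => a.elim 0 H)
        (fun u v h => hHl u v h) (fun u => by
          show |H u - 0| ≤ H u
          rw [sub_zero, abs_of_pos (hH u)]) (some v) none
      have e : |(fun a : Option V => a.elim 0 H) (some v) -
          (fun a : Option V => a.elim 0 H) none| = H v := by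
        show |H v - 0| = H v
        rw [sub_zero, abs_of_pos (hH v)]
      rw [e] at h
      exact h
  let h0 : Option V → ℝ := fun a => a.elim 0 H
  have hI := (hRI.add ((isL1_line h0).smul (by norm_num : (0 : ℝ) ≤ 2))).smul
    (by norm_num : (0 : ℝ) ≤ 8)
  have hRn : ∀ a b, 0 ≤ R a b := hRI.nonneg
  refine ⟨_, hI, ?_, ?_, ?_, ?_⟩
  · intro u v huv
    have h1 := hR1 (some u) (some v) (hall u) (hall v) (cone_some.2 huv)
    rw [coneLen_some] at h1
    have h2 := hHl u v huv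
    show 8 * (R (some u) (some v) + 2 * |H u - H v|) ≤ _
    linarith
  · intro v
    have h1 := hR2 (some v) none (hall v) hnK
    rw [hνn, hd1] at h1
    have h2 := hH v
    show 8 * (R (some v) none + 2 * |H v - 0|) ≤ _
    rw [sub_zero, abs_of_pos h2]
    have h3 : 0 < C * H v := mul_pos hC h2
    linarith
  · intro v
    show H v ≤ 2000 * (8 * (R (some v) none + 2 * |H v - 0|))
    have h1 := hRn (some v) none
    have h2 := hH v
    rw [sub_zero, abs_of_pos h2]
    linarith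
  · intro x y δ hx hy hxy
    have key : ∀ x y : V, δ ≤ H x → δ ≤ H y → 8 * δ ≤ ρ x y → H y ≤ H x →
        δ ≤ 2000 * (8 * (R (some x) (some y) + 2 * |H x - H y|)) := by
      intro x y hx hy hxy hle
      have h0 := hRn (some x) (some y)
      have h00 := abs_nonneg (H x - H y)
      rcases le_or_gt δ 0 with hδ | hδ
      · linarith
      have h1 := hR4 ⟨some x, hall x⟩ ⟨some y, hall y⟩
      simp only [hνn, hd1, hfs] at h1
      have h2 := h1 (by rw [← hd1 x]; exact hJ x) hle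
      have h3 : 2 * δ ≤ min (ρ x y) (H x + H y) := le_min (by linarith) (by linarith)
      linarith
    show δ ≤ 2000 * (8 * (R (some x) (some y) + 2 * |H x - H y|))
    rcases le_total (H y) (H x) with h | h
    · exact key x y hx hy (hxy.trans (hD x y)) h
    · have h1 := key y x hy hx (by rw [hρ.symm]; exact hxy.trans (hD x y)) h
      rwa [hRI.symm, abs_sub_comm] at h1

/-- leaves, for one length function -/
theorem pointed_leafW {C : ℝ} (hC : 0 < C) (hc : G.Connected) (hℓ : ∀ e ∈ G.edgeSet, 0 < ℓ e)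
    (hH : ∀ v, 0 < H v) (hHl : ∀ u v, G.Adj u v → |H u - H v| ≤ ℓ s(u, v))
    (hD : EmbedsL1 (pathDist G ℓ) C) : Pointed G ℓ H (96 * C + 112) := by
  obtain ⟨ρ, hρL, hρ1, hρ2, -⟩ := hD.toL1S
  exact pointedD_of_L1 hC hc hℓ hH hHl hρL.isL1
    (fun u v huv => (hρ2 u v).trans (mul_le_mul_of_nonneg_left (pathDist_adj hℓ huv) hC.le)) hρ1

end cone

end Vale.Agent.P235.H341W
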