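import Vale.Agent.P235.R2.H341.KrPf
import Vale.Agent.P235.R2.H341.One
import Vale.Agent.P235.R2.H721.UniLog
import Vale.Agent.P235.R2.H611.UniZ1
import Vale.Agent.P235.R2.H611.UniZ2
import Vale.Agent.P235.R2.H907.VarK

/-!
P235-M (helper341; text of helper721's `UniLog.lean`).  The union of `m` sets of distortion `B` in a
graph without a `K_r` minor has distortion `O((r + 2)^3 B log (m + 2))`.
-/

set_option autoImplicit false
set_option linter.all false

namespace Vale.Agent.P235.Uni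

open Vale.Agent.P235 Vale.Agent.P235.Kpr Vale.Agent.P235.Kpr.H549 Vale.Agent.P235.R2.H721

/-- the map of one set, from random retractions -/
theorem one_mapE {V : Type} [Finite V] {G : SimpleGraph V} {ℓ : Sym2 V → ℝ} {E : ℝ}
    (h7 : Uni.Retr G ℓ E) (hc : G.Connected)
    (hℓ : ∀ e ∈ G.edgeSet, 0 < ℓ e) {X : Set V} {ν : V → V} (hν : Near G ℓ X ν) {B : ℝ}
    (hB : 1 ≤ B) (hE : EmbedsL1 (fun u v : X => pathDist G ℓ u v) B) :
    ∃ F : V → V → ℝ, IsL1 F ∧ (∀ u v, G.Adj u v → F u v ≤ E * B * ℓ s(u, v)) ∧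
      ∀ x y, pathDist G ℓ x y - 3 * pathDist G ℓ x (ν x) - 3 * pathDist G ℓ y (ν y) ≤ F x y := by
  classical
  have hd := pathDist_isMet hc hℓ
  obtain ⟨κ, hκ, w, π, hw, hw1, hπ1, hπ3, hπ4⟩ := h7 X ν hν
  obtain ⟨ρ, hρL, hρ1, hρ2, -⟩ := hE.toL1S
  have hρI : IsL1 ρ := hρL.isL1
  refine ⟨fun x y => ∑ i, w i * ρ ⟨π i x, hπ1 i x⟩ ⟨π i y, hπ1 i y⟩, IsL1.sum Finset.univ
    (fun i x y => w i * ρ ⟨π i x, hπ1 i x⟩ ⟨π i y, hπ1 i y⟩)
    fun i _ => (hρI.comap (fun x => (⟨π i x, hπ1 i x⟩ : X))).smul (hw i), fun u v huv => ?_,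
    fun x y => ?_⟩
  · have h1 : ∑ i, w i * ρ ⟨π i u, hπ1 i u⟩ ⟨π i v, hπ1 i v⟩ ≤
        ∑ i, B * (w i * pathDist G ℓ (π i u) (π i v)) := by
      refine Finset.sum_le_sum fun i _ => ?_
      have h2 : ρ ⟨π i u, hπ1 i u⟩ ⟨π i v, hπ1 i v⟩ ≤ B * pathDist G ℓ (π i u) (π i v) :=
        hρ2 ⟨π i u, hπ1 i u⟩ ⟨π i v, hπ1 i v⟩
      have := mul_le_mul_of_nonneg_left h2 (hw i)
      linarith
    rw [← Finset.mul_sum] at h1
    have h2 := mul_le_mul_of_nonneg_left (hπ3 u v huv) (by linarith : (0 : ℝ) ≤ B)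
    show ∑ i, w i * ρ ⟨π i u, hπ1 i u⟩ ⟨π i v, hπ1 i v⟩ ≤ _
    linarith
  · have h1 : ∑ i, w i * (pathDist G ℓ x y - 3 * pathDist G ℓ x (ν x) -
        3 * pathDist G ℓ y (ν y)) ≤ ∑ i, w i * ρ ⟨π i x, hπ1 i x⟩ ⟨π i y, hπ1 i y⟩ := by
      refine Finset.sum_le_sum fun i _ => mul_le_mul_of_nonneg_left ?_ (hw i)
      have h2 : pathDist G ℓ (π i x) (π i y) ≤ ρ ⟨π i x, hπ1 i x⟩ ⟨π i y, hπ1 i y⟩ :=
        hρ1 ⟨π i x, hπ1 i x⟩ ⟨π i y, hπ1 i y⟩
      have h3 := hπ4 i x
      have h4 := hπ4 i y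
      have h5 := hd.tri x (π i x) y
      have h6 := hd.tri (π i x) (π i y) y
      rw [hd.symm (π i y) y] at h6
      linarith
    rw [← Finset.sum_mul, hw1, one_mul] at h1
    exact h1

/-- one map at a variable scale -/
def Var {V : Type} (G : SimpleGraph V) (ℓ : Sym2 V → ℝ) (P : ℝ) : Prop :=
  ∀ τ : V → ℝ, (∀ v, 0 ≤ τ v) → (∀ u v, G.Adj u v → |τ u - τ v| ≤ ℓ s(u, v)) →
    ∃ N : V → V → ℝ, IsSq N ∧ (∀ u v, G.Adj u v → N u v ≤ 12 * ℓ s(u, v) ^ 2) ∧
      ∀ x y, 0 < τ x → τ x ≤ 2 * pathDist G ℓ x y → τ x ^ 2 ≤ P ^ 2 * N x y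

/-- **unions** of `m` sets of distortion `B`, from random retractions and maps at a variable
scale -/
theorem union_log {V : Type} [Finite V] {G : SimpleGraph V} {ℓ : Sym2 V → ℝ} {E P : ℝ}
    (hE1 : 1 ≤ E) (hP1 : 1 ≤ P) (h7 : Uni.Retr G ℓ E) (hM : Var G ℓ P) (hc : G.Connected)
    (hℓ : ∀ e ∈ G.edgeSet, 0 < ℓ e) {m : ℕ} {X0 : Fin m → Set V} {B : ℝ} (hB : 1 ≤ B)
    (hE0 : ∀ i, EmbedsL1 (fun u v : X0 i => pathDist G ℓ u v) B) :
    EmbedsL1 (fun x y : ↥(⋃ i, X0 i) => pathDist G ℓ x y)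
      (10 ^ 10 * (E + P) * B * Real.log ((m : ℝ) + 2)) := by
  classical
  have hEp : 0 < E := by linarith
  have hPp : 0 < P := by linarith
  have hR : RowRec := H611.rowRec
  have hU : RowFirst := rowFirst
  have hO : RowOne := rowOne
  have hd := pathDist_isMet hc hℓ
  rcases (⋃ i, X0 i).eq_empty_or_nonempty with h0 | hX
  · refine (isL1_line fun x : ↥(⋃ i, X0 i) => (0 : ℝ)).embeds (fun x y => ?_) fun x y => ?_
    · exact (Set.eq_empty_iff_forall_notMem.1 h0 x x.2).elim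
    · exact (Set.eq_empty_iff_forall_notMem.1 h0 x x.2).elim
  -- nonempty sets
  obtain ⟨X, hXe, hXn, hE⟩ : ∃ X : Fin m → Set V, (⋃ i, X i) = (⋃ i, X0 i) ∧
      (∀ i, (X i).Nonempty) ∧ ∀ i, EmbedsL1 (fun u v : X i => pathDist G ℓ u v) B := by
    obtain ⟨a, ha⟩ := hX
    obtain ⟨i0, hi0⟩ := Set.mem_iUnion.mp ha
    have hc0 : ∀ i, ∃ Y : Set V, Y.Nonempty ∧ X0 i ⊆ Y ∧ (Y = X0 i ∨ Y = X0 i0) ∧
        EmbedsL1 (fun u v : Y => pathDist G ℓ u v) B := by
      intro i
      by_cases h : (X0 i).Nonempty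
      · exact ⟨X0 i, h, subset_rfl, Or.inl rfl, hE0 i⟩
      · refine ⟨X0 i0, ⟨a, hi0⟩, ?_, Or.inr rfl, hE0 i0⟩
        rw [Set.not_nonempty_iff_eq_empty.1 h]
        exact Set.empty_subset _
    choose Y h1 h2 h3 h4 using hc0
    refine ⟨Y, ?_, h1, h4⟩
    apply Set.Subset.antisymm
    · refine Set.iUnion_subset fun i => ?_
      rcases h3 i with h | h <;> rw [h]
      · exact Set.subset_iUnion X0 i
      · exact Set.subset_iUnion X0 i0
    · exact Set.iUnion_mono h2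
  rw [← hXe] at hX ⊢
  have hm : 0 < m := by
    obtain ⟨a, ha⟩ := hX
    obtain ⟨i, -⟩ := Set.mem_iUnion.mp ha
    exact i.pos
  have hmR : (0 : ℝ) < m := by exact_mod_cast hm
  have := Fintype.ofFinite V
  -- distances to the sets
  have hν := fun i => exists_near hc hℓ (hXn i)
  choose ν hν using hν
  obtain ⟨e, he⟩ : ∃ e : Fin m → V → ℝ, ∀ i v, e i v = pathDist G ℓ v (ν i v) :=
    ⟨_, fun _ _ => rfl⟩
  have he0 : ∀ i v, 0 ≤ e i v := fun i v => by rw [he]; exact hd.nonneg _ _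
  have hel : ∀ i x y, e i x ≤ e i y + pathDist G ℓ x y := by
    intro i x y
    rw [he, he]
    have := (hν i).lip hc hℓ x y
    linarith
  have hself : ∀ i, ∀ x ∈ X i, e i x = 0 := fun i x hx => by
    rw [he, (hν i).self x hx, hd.self]
  have hF := fun i => one_mapE h7 hc hℓ (hν i) hB (hE i)
  choose F hF1 hF2 hF3 using hF
  -- the bound for all distances
  obtain ⟨Λ, hΛ1, hΛ2⟩ : ∃ Λ : ℝ, 0 ≤ Λ ∧ ∀ x y, pathDist G ℓ x y ≤ Λ := by
    refine ⟨∑ x, ∑ y, pathDist G ℓ x y, Finset.sum_nonneg fun x _ => Finset.sum_nonneg fun y _ =>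
      hd.nonneg x y, fun x y => ?_⟩
    refine (Finset.single_le_sum (f := fun y => pathDist G ℓ x y) (fun y _ => hd.nonneg x y)
      (Finset.mem_univ y)).trans ?_
    exact Finset.single_le_sum (f := fun x => ∑ y, pathDist G ℓ x y)
      (fun x _ => Finset.sum_nonneg fun y _ => hd.nonneg x y) (Finset.mem_univ x)
  -- the error
  obtain ⟨ε, hε0, hε⟩ : ∃ ε : ℝ, 0 < ε ∧ ∀ u v, G.Adj u v → m * ε ≤ ℓ s(u, v) := by
    rcases G.edgeSet.eq_empty_or_nonempty with h | h
    · refine ⟨1, one_pos, fun u v huv => ?_⟩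
      have : s(u, v) ∈ G.edgeSet := huv
      rw [h] at this
      exact absurd this (Set.notMem_empty _)
    · obtain ⟨e0, he0', hmin⟩ := Set.exists_min_image G.edgeSet ℓ (Set.toFinite _) h
      refine ⟨ℓ e0 / m, div_pos (hℓ e0 he0') hmR, fun u v huv => ?_⟩
      rw [mul_div_cancel₀ _ hmR.ne']
      exact hmin _ huv
  -- the localised maps
  have hlipe : ∀ i u v, G.Adj u v → |e i u - e i v| ≤ ℓ s(u, v) := by
    intro i u v huv
    have h1 := hel i u v
    have h2 := hel i v u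
    have h3 : pathDist G ℓ u v ≤ ℓ s(u, v) := pathDist_adj hℓ huv
    rw [hd.symm v u] at h2
    rw [abs_le]; constructor <;> linarith
  have hlipM : ∀ π i u v, G.Adj u v → |mn e Λ π i u - mn e Λ π i v| ≤ ℓ s(u, v) := by
    intro π i u v huv
    have h1 := mn_lip (Λ := Λ) (π := π) (i := i) (hd.nonneg u v) (fun j => hel j u v)
    have h2 := mn_lip (Λ := Λ) (π := π) (i := i) (hd.nonneg v u) (fun j => hel j v u)
    have h3 : pathDist G ℓ u v ≤ ℓ s(u, v) := pathDist_adj hℓ huv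
    rw [hd.symm v u] at h2
    rw [abs_le]; constructor <;> linarith
  have hσ := fun (π : Equiv.Perm (Fin m)) (i : Fin m) => hO V G ℓ hc hℓ (e i) (mn e Λ π i) (F i)
    (E * B) ε (by positivity) hε0 (hlipe i) (hlipM π i) (hF1 i) (hF2 i)
  choose σ s1 s2 s3 s4 using hσ
  set Kc : ℝ := 96 * (E * B) + 300 with hKc
  set Kd : ℝ := 192 * (E * B) + 600 with hKd
  have hKc0 : 0 < Kc := by rw [hKc]; positivity
  have hKd0 : 0 < Kd := by rw [hKd]; positivity
  have hfac : (0 : ℝ) < (m.factorial : ℝ) := by exact_mod_cast m.factorial_pos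
  obtain ⟨Φ, hΦ⟩ : ∃ Φ : V → V → ℝ, ∀ x y, Φ x y = (m.factorial : ℝ)⁻¹ *
      ∑ π : Equiv.Perm (Fin m), ∑ i, σ π i x y := ⟨_, fun _ _ => rfl⟩
  have hΦI : IsL1 Φ := by
    have : IsL1 (fun x y => (m.factorial : ℝ)⁻¹ *
      ∑ π : Equiv.Perm (Fin m), ∑ i, σ π i x y) :=
      (IsL1.sum Finset.univ (fun (π : Equiv.Perm (Fin m)) x y => ∑ i, σ π i x y) fun π _ =>
        IsL1.sum Finset.univ (fun i x y => σ π i x y) fun i _ => s1 π i).smul
        (inv_nonneg.2 hfac.le)
    have e1 : Φ = fun x y => (m.factorial : ℝ)⁻¹ *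
      ∑ π : Equiv.Perm (Fin m), ∑ i, σ π i x y := by
      funext x y; exact hΦ x y
    rw [e1]; exact this
  set R : ℝ := 1 + Real.log m with hRdef
  have hlogm : 0 ≤ Real.log m := Real.log_nonneg (by exact_mod_cast hm)
  have hΦe : ∀ u v, G.Adj u v → Φ u v ≤ (2 * Kc * R + Kd) * ℓ s(u, v) := by
    intro u v huv
    have hl0 : 0 < ℓ s(u, v) := hℓ _ huv
    have hone : ∀ π : Equiv.Perm (Fin m), ∑ i, σ π i u v ≤
        Kc * ℓ s(u, v) * ({i | ∀ j, π j < π i → e i u < e j u}.ncard : ℝ) +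
        Kc * ℓ s(u, v) * ({i | ∀ j, π j < π i → e i v < e j v}.ncard : ℝ) + Kd * ℓ s(u, v) := by
      intro π
      have hi : ∀ i ∈ Finset.univ, σ π i u v ≤
          (if (∀ j, π j < π i → e i u < e j u) then Kc * ℓ s(u, v) else 0) +
          (if (∀ j, π j < π i → e i v < e j v) then Kc * ℓ s(u, v) else 0) + Kd * ε := by
        intro i _
        have hp : 0 ≤ Kd * ε := by positivity
        have hq : 0 ≤ Kc * ℓ s(u, v) := by positivity
        by_cases c1 : ∀ j, π j < π i → e i u < e j u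
        · have h1 := s2 π i u v huv
          rw [if_pos c1]
          split_ifs <;> linarith
        by_cases c2 : ∀ j, π j < π i → e i v < e j v
        · have h1 := s2 π i u v huv
          rw [if_pos c2]
          split_ifs <;> linarith
        rw [if_neg c1, if_neg c2]
        have h1 := s3 π i u v (mn_le c1) (mn_le c2)
        linarith
      refine (Finset.sum_le_sum hi).trans ?_
      rw [Finset.sum_add_distrib, Finset.sum_add_distrib]
      have c1 : ∀ z : V, ∑ i, (if (∀ j, π j < π i → e i z < e j z) then Kc * ℓ s(u, v) else 0) =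
          Kc * ℓ s(u, v) * ({i | ∀ j, π j < π i → e i z < e j z}.ncard : ℝ) := by
        intro z
        rw [ncard_sum, Finset.mul_sum]
        refine Finset.sum_congr rfl fun i _ => ?_
        split_ifs <;> simp
      rw [c1 u, c1 v]
      have c3 : ∑ _i : Fin m, Kd * ε ≤ Kd * ℓ s(u, v) := by
        rw [Finset.sum_const, Finset.card_univ, Fintype.card_fin, nsmul_eq_mul]
        have := mul_le_mul_of_nonneg_left (hε u v huv) hKd0.le
        linarith
      linarith
    rw [hΦ, inv_mul_le_iff₀ hfac]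
    refine (Finset.sum_le_sum fun π _ => hone π).trans ?_
    rw [Finset.sum_add_distrib, Finset.sum_add_distrib, ← Finset.mul_sum, ← Finset.mul_sum]
    have r1 := hR m (fun i => e i u)
    have r2 := hR m (fun i => e i v)
    have hq : 0 ≤ Kc * ℓ s(u, v) := by positivity
    have r3 := mul_le_mul_of_nonneg_left r1 hq
    have r4 := mul_le_mul_of_nonneg_left r2 hq
    have r5 : ∑ _π : Equiv.Perm (Fin m), Kd * ℓ s(u, v) = (m.factorial : ℝ) * (Kd * ℓ s(u, v)) := by
      rw [Finset.sum_const, Finset.card_univ, Fintype.card_perm, Fintype.card_fin, nsmul_eq_mul]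
    rw [r5]
    have r6 : (m.factorial : ℝ) * ((2 * Kc * R + Kd) * ℓ s(u, v)) =
        Kc * ℓ s(u, v) * ((m.factorial : ℝ) * (1 + Real.log m)) +
        Kc * ℓ s(u, v) * ((m.factorial : ℝ) * (1 + Real.log m)) +
        (m.factorial : ℝ) * (Kd * ℓ s(u, v)) := by rw [hRdef]; ring
    rw [r6]
    linarith
  have hR1 : 1 ≤ R := by rw [hRdef]; linarith
  have hΦd : ∀ x y, Φ x y ≤ (2 * Kc * R + Kd) * pathDist G ℓ x y :=
    pathDist_semi hc (by positivity) (fun x => hΦI.self x) (fun x y z => hΦI.tri x y z) hΦe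
  -- the scales
  obtain ⟨q, hq⟩ : ∃ q : ℕ → ℕ, ∀ j, q j = min (2 ^ j) m := ⟨_, fun _ => rfl⟩
  have hqs : ∀ j, q j ≤ m := fun j => by rw [hq]; exact min_le_right _ _
  have hMj := fun j => hM (tau e (q j)) (fun v => tau_nonneg v) (by
    intro x y hxy
    have h1 := tau_lip he0 (hqs j) (hd.nonneg x y) (fun i => hel i x y)
    have h2 := tau_lip he0 (hqs j) (hd.nonneg y x) (fun i => hel i y x)
    have h3 : pathDist G ℓ x y ≤ ℓ s(x, y) := pathDist_adj hℓ hxy
    rw [hd.symm y x] at h2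
    rw [abs_le]
    constructor <;> linarith)
  choose N hN1 hN2 hN3 using hMj
  have hNI : IsSq (fun x y => ∑ j ∈ Finset.range (Nat.log 2 m + 1), N j x y) :=
    IsSq.sum _ _ fun j _ => hN1 j
  have hNe : ∀ x y, G.Adj x y → ∑ j ∈ Finset.range (Nat.log 2 m + 1), N j x y ≤
      12 * ((Nat.log 2 m : ℝ) + 1) * ℓ s(x, y) ^ 2 := by
    intro x y hxy
    calc ∑ j ∈ Finset.range (Nat.log 2 m + 1), N j x y
        ≤ ∑ _j ∈ Finset.range (Nat.log 2 m + 1), 12 * ℓ s(x, y) ^ 2 :=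
          Finset.sum_le_sum fun j _ => hN2 j x y hxy
      _ = _ := by
          rw [Finset.sum_const, Finset.card_range, nsmul_eq_mul]
          push_cast
          ring
  have hlg0 : (0 : ℝ) ≤ Nat.log 2 m := Nat.cast_nonneg _
  have hNd := SqR.sq_walk hNI hc hℓ (k := 12 * ((Nat.log 2 m : ℝ) + 1)) (by positivity) hNe
  obtain ⟨S, hSI, hS⟩ := hNI.toL1
  obtain ⟨hl1, hl2⟩ := log_ge m hm
  obtain ⟨L, hL⟩ : ∃ L, L = Real.log ((m : ℝ) + 2) := ⟨_, rfl⟩
  rw [← hL] at hl1 hl2 ⊢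
  have hsq : √(12 * ((Nat.log 2 m : ℝ) + 1)) ≤ 9 * L := by
    rw [Real.sqrt_le_left (by positivity)]
    nlinarith
  have hRL : R ≤ 5 / 2 * L := by
    have : Real.log m ≤ L := by
      rw [hL]
      exact Real.log_le_log hmR (by linarith)
    rw [hRdef]
    linarith
  have hRI : IsL1 (fun x y : ↥(⋃ i, X i) => 1600000 * Φ x y + 96 * P * S x y) :=
    ((hΦI.comap fun x : ↥(⋃ i, X i) => (x : V)).smul (by norm_num)).add
      ((hSI.comap fun x : ↥(⋃ i, X i) => (x : V)).smul (by positivity))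
  refine hRI.embeds (fun x y => ?_) fun x y => ?_
  · -- lower bound
    obtain ⟨x, hx⟩ := x
    obtain ⟨y, hy⟩ := y
    show pathDist G ℓ x y ≤ 1600000 * Φ x y + 96 * P * S x y
    have hS0 : 0 ≤ S x y := hSI.nonneg x y
    have hΦ0 : 0 ≤ Φ x y := hΦI.nonneg x y
    have hPS0 : 0 ≤ 96 * P * S x y := by positivity
    obtain ⟨D, hD⟩ : ∃ D, D = pathDist G ℓ x y := ⟨_, rfl⟩
    rw [← hD]
    rcases (hD ▸ hd.nonneg x y : 0 ≤ D).lt_or_eq with hDp | hDz
    swap
    · linarith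
    -- growth near one point
    have key : ∀ x y, pathDist G ℓ x y = D → x ∈ ⋃ i, X i →
        2 * {i | e i x ≤ D / 48}.ncard ≤ {i | e i x ≤ D / 24}.ncard →
        D ^ 2 ≤ 2304 * P ^ 2 * ∑ j ∈ Finset.range (Nat.log 2 m + 1), N j x y := by
      intro x y hxy hx hcard
      have hA : 0 < {i | e i x ≤ D / 48}.ncard := by
        obtain ⟨i, hi⟩ := Set.mem_iUnion.mp hx
        rw [Set.ncard_pos]
        refine ⟨i, ?_⟩
        show e i x ≤ D / 48
        rw [hself i x hi]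
        linarith
      have hle2 : {i | e i x ≤ D / 24}.ncard ≤ m := by
        have := Set.ncard_le_ncard (Set.subset_univ {i | e i x ≤ D / 24}) (Set.toFinite _)
        rw [Set.ncard_univ, Nat.card_eq_fintype_card, Fintype.card_fin] at this
        exact this
      obtain ⟨a, ha⟩ : ∃ a, a = {i | e i x ≤ D / 48}.ncard := ⟨_, rfl⟩
      rw [← ha] at hA hcard
      obtain ⟨j, hj1, hj2⟩ : ∃ j, a < 2 ^ j ∧ 2 ^ j ≤ 2 * a :=
        ⟨Nat.log 2 a + 1, Nat.lt_pow_succ_log_self (by norm_num) a, by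
          rw [pow_succ, mul_comm]
          exact Nat.mul_le_mul_left 2 (Nat.pow_log_le_self 2 (by omega))⟩
      have hj3 : 2 ^ j ≤ m := by omega
      have hqj : q j = 2 ^ j := by rw [hq]; exact min_eq_left hj3
      have hjr : j ∈ Finset.range (Nat.log 2 m + 1) := by
        rw [Finset.mem_range, Nat.lt_succ_iff]
        exact Nat.le_log_of_pow_le (by norm_num) hj3
      have t1 : D / 48 ≤ tau e (q j) x := le_tau he0 (hqs j) (by rw [← ha, hqj]; exact hj1)
      have t2 : tau e (q j) x ≤ 2 * pathDist G ℓ x y := by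
        rw [hxy]
        have : tau e (q j) x ≤ D / 24 := tau_le (by linarith) (by rw [hqj]; omega)
        linarith
      have t3 := hN3 j x y (by linarith) t2
      have t4 : N j x y ≤ ∑ j ∈ Finset.range (Nat.log 2 m + 1), N j x y :=
        Finset.single_le_sum (f := fun j => N j x y) (fun j _ => (hN1 j).nonneg x y) hjr
      have t5 : (D / 48) ^ 2 ≤ tau e (q j) x ^ 2 :=
        pow_le_pow_left₀ (by linarith) t1 2
      have t6 : (D / 48) ^ 2 = D ^ 2 / 2304 := by ring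
      rw [t6] at t5
      have t7 := mul_le_mul_of_nonneg_left t4 (sq_nonneg P)
      linarith
    have hsym : ∑ j ∈ Finset.range (Nat.log 2 m + 1), N j y x =
        ∑ j ∈ Finset.range (Nat.log 2 m + 1), N j x y :=
      Finset.sum_congr rfl fun j _ => (hN1 j).symm y x
    have fin1 : D ^ 2 ≤ 2304 * P ^ 2 * ∑ j ∈ Finset.range (Nat.log 2 m + 1), N j x y →
        D ≤ 1600000 * Φ x y + 96 * P * S x y := by
      intro hfin
      have h1 : D ≤ 48 * P * √(∑ j ∈ Finset.range (Nat.log 2 m + 1), N j x y) := by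
        have h2 := Real.sqrt_le_sqrt hfin
        rw [Real.sqrt_sq hDp.le, Real.sqrt_mul (by positivity)] at h2
        have h3 : √((2304 : ℝ) * P ^ 2) = 48 * P := by
          rw [show ((2304 : ℝ) * P ^ 2) = (48 * P) ^ 2 by ring, Real.sqrt_sq (by positivity)]
        rw [h3] at h2
        exact h2
      have h2 := mul_le_mul_of_nonneg_left (hS x y).2 (by positivity : (0 : ℝ) ≤ 48 * P)
      linarith
    by_cases g1 : 2 * {i | e i x ≤ D / 48}.ncard ≤ {i | e i x ≤ D / 24}.ncard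
    · exact fin1 (key x y hD.symm hx g1)
    by_cases g2 : 2 * {i | e i y ≤ D / 48}.ncard ≤ {i | e i y ≤ D / 24}.ncard
    · have := key y x (by rw [hd.symm, hD]) hy g2
      rw [hsym] at this
      exact fin1 this
    push Not at g1 g2
    -- the first of the near sets
    set U₁ : Set (Fin m) := {i | e i x ≤ D / 48} ∪ {i | e i y ≤ D / 48} with hU₁
    set U₂ : Set (Fin m) := {i | e i x ≤ D / 24} ∪ {i | e i y ≤ D / 24} with hU₂
    have hsub : U₁ ⊆ U₂ := by
      apply Set.union_subset_union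
      · intro i (hi : e i x ≤ D / 48)
        show e i x ≤ D / 24
        linarith
      · intro i (hi : e i y ≤ D / 48)
        show e i y ≤ D / 24
        linarith
    have hc1 : {i | e i x ≤ D / 48}.ncard ≤ U₁.ncard :=
      Set.ncard_le_ncard Set.subset_union_left (Set.toFinite _)
    have hc2 : {i | e i y ≤ D / 48}.ncard ≤ U₁.ncard :=
      Set.ncard_le_ncard Set.subset_union_right (Set.toFinite _)
    have hc3 : U₂.ncard ≤ 4 * U₁.ncard := by
      have : U₂.ncard ≤ {i | e i x ≤ D / 24}.ncard + {i | e i y ≤ D / 24}.ncard :=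
        Set.ncard_union_le _ _
      omega
    have hc4 : 0 < U₁.ncard := by
      obtain ⟨i, hi⟩ := Set.mem_iUnion.mp hx
      rw [Set.ncard_pos]
      refine ⟨i, Or.inl ?_⟩
      show e i x ≤ D / 48
      rw [hself i x hi]
      linarith
    have hgood := hU m U₁ U₂ hsub
    set Gd : Set (Equiv.Perm (Fin m)) := {π | ∃ i ∈ U₁, ∀ j ∈ U₂, π i ≤ π j} with hGd
    have hg2 : (m.factorial : ℝ) ≤ 4 * (Gd.ncard : ℝ) := by
      have a1 : (U₂.ncard : ℝ) ≤ 4 * (U₁.ncard : ℝ) := by exact_mod_cast hc3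
      have a2 : (0 : ℝ) < (U₁.ncard : ℝ) := by exact_mod_cast hc4
      have a3 : (0 : ℝ) ≤ (Gd.ncard : ℝ) := Nat.cast_nonneg _
      have a4 := mul_le_mul_of_nonneg_right a1 a3
      have a5 : (m.factorial : ℝ) * (U₁.ncard : ℝ) ≤ 4 * (Gd.ncard : ℝ) * (U₁.ncard : ℝ) := by
        linarith
      exact le_of_mul_le_mul_right a5 a2
    have hserv : ∀ π ∈ Gd, D / 400000 ≤ ∑ i, σ π i x y := by
      rintro π ⟨i, hi, hmin⟩
      have hfar : ∀ j, π j < π i → D / 24 < e j x ∧ D / 24 < e j y := by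
        intro j hj
        have hn : j ∉ U₂ := fun hj2 => absurd (hmin j hj2) (not_le.2 hj)
        constructor
        · by_contra hcon
          exact hn (Or.inl (not_lt.1 hcon))
        · by_contra hcon
          exact hn (Or.inr (not_lt.1 hcon))
      have hΛ3 : D / 24 ≤ Λ := by
        have := hΛ2 x y
        rw [← hD] at this
        linarith
      have hMx : D / 24 ≤ mn e Λ π i x := le_mn hΛ3 fun j hj => (hfar j hj).1.le
      have hMy : D / 24 ≤ mn e Λ π i y := le_mn hΛ3 fun j hj => (hfar j hj).2.le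
      have hsum : σ π i x y ≤ ∑ i, σ π i x y :=
        Finset.single_le_sum (f := fun i => σ π i x y) (fun j _ => (s1 π j).nonneg x y)
          (Finset.mem_univ i)
      refine le_trans ?_ hsum
      rcases hi with hi | hi
      · have hi' : e i x ≤ D / 48 := hi
        refine s4 π i x y D hDp hi' hMx fun h => ?_
        have := hF3 i x y
        rw [← he, ← he, ← hD] at this
        linarith
      · have hi' : e i y ≤ D / 48 := hi
        rw [(s1 π i).symm x y]
        refine s4 π i y x D hDp hi' hMy fun h => ?_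
        have := hF3 i y x
        rw [← he, ← he, hd.symm y x, ← hD] at this
        linarith
    have hΦl : D ≤ 1600000 * Φ x y := by
      have b1 : (Gd.ncard : ℝ) * (D / 400000) ≤ ∑ π : Equiv.Perm (Fin m), ∑ i, σ π i x y := by
        have b0 : (Gd.ncard : ℝ) = ∑ π : Equiv.Perm (Fin m), (if π ∈ Gd then (1 : ℝ) else 0) := by
          have b00 := ncard_sum (fun π : Equiv.Perm (Fin m) => π ∈ Gd)
          rw [Set.ofPred_mem_eq] at b00
          exact b00
        have b2 : (Gd.ncard : ℝ) * (D / 400000) =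
            ∑ π : Equiv.Perm (Fin m), (if π ∈ Gd then D / 400000 else 0) := by
          rw [b0, Finset.sum_mul]
          refine Finset.sum_congr rfl fun π _ => ?_
          by_cases h : π ∈ Gd
          · rw [if_pos h, if_pos h, one_mul]
          · rw [if_neg h, if_neg h, zero_mul]
        rw [b2]
        refine Finset.sum_le_sum fun π _ => ?_
        by_cases h : π ∈ Gd
        · rw [if_pos h]; exact hserv π h
        · rw [if_neg h]
          exact Finset.sum_nonneg fun i _ => (s1 π i).nonneg x y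
      have b3 : (m.factorial : ℝ) * (D / 1600000) ≤ (Gd.ncard : ℝ) * (D / 400000) := by
        have := mul_le_mul_of_nonneg_right hg2 (by positivity : (0 : ℝ) ≤ D / 1600000)
        linarith
      have b4 : D / 1600000 ≤ Φ x y := by
        rw [hΦ, le_inv_mul_iff₀ hfac]
        linarith
      linarith
    linarith
  · -- upper bound
    obtain ⟨x, hx⟩ := x
    obtain ⟨y, hy⟩ := y
    show 1600000 * Φ x y + 96 * P * S x y ≤ 10 ^ 10 * (E + P) * B * L * pathDist G ℓ x y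
    have h0 := hd.nonneg x y
    have h1 := hΦd x y
    have h2 := (hS x y).1.trans (hNd x y)
    have h3 := mul_le_mul_of_nonneg_right hsq h0
    have hL0 : 0 ≤ L := by linarith
    obtain ⟨Z, hZ⟩ : ∃ Z, Z = E * B := ⟨_, rfl⟩
    have hZ1 : 1 ≤ Z := by rw [hZ]; nlinarith
    have h4 : 2 * Kc * R + Kd ≤ 4000 * (Z * L) := by
      have k1 : Kc ≤ 396 * Z := by rw [hKc, ← hZ]; linarith
      have k2 : Kd ≤ 792 * Z := by rw [hKd, ← hZ]; linarith
      have k3 : Kc * R ≤ 396 * Z * (5 / 2 * L) :=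
        mul_le_mul k1 hRL (by linarith) (by positivity)
      have k4 : Z ≤ 3 / 2 * (Z * L) := by nlinarith
      linarith
    have h5 := mul_le_mul_of_nonneg_right h4 h0
    have h6 : 96 * P * S x y ≤ 96 * P * (9 * L * pathDist G ℓ x y) :=
      mul_le_mul_of_nonneg_left (h2.trans h3) (by positivity)
    have h7 : P * L * pathDist G ℓ x y ≤ P * B * L * pathDist G ℓ x y := by
      refine mul_le_mul_of_nonneg_right (mul_le_mul_of_nonneg_right ?_ hL0) h0
      nlinarith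
    have h8 : 0 ≤ Z * L * pathDist G ℓ x y := by positivity
    have h9 : 0 ≤ P * B * L * pathDist G ℓ x y := by positivity
    have e1 : 10 ^ 10 * (E + P) * B * L * pathDist G ℓ x y =
        10 ^ 10 * (Z * L * pathDist G ℓ x y) + 10 ^ 10 * (P * B * L * pathDist G ℓ x y) := by
      rw [hZ]; ring
    rw [e1]
    linarith

/-- graphs without a `K_r` minor -/
theorem unionK {V : Type} [Finite V] {G : SimpleGraph V} {ℓ : Sym2 V → ℝ} {r : ℕ}
    (hc : G.Connected) (hK : ¬ H134.IsMinor (⊤ : SimpleGraph (Fin r)) G)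
    (hℓ : ∀ e ∈ G.edgeSet, 0 < ℓ e) {m : ℕ} {X : Fin m → Set V} {B : ℝ} (hB : 1 ≤ B)
    (hE : ∀ i, EmbedsL1 (fun u v : X i => pathDist G ℓ u v) B) :
    EmbedsL1 (fun x y : ↥(⋃ i, X i) => pathDist G ℓ x y)
      (10 ^ 14 * ((r : ℝ) + 2) ^ 3 * B * Real.log ((m : ℝ) + 2)) := by
  have hr : (1 : ℝ) ≤ ((r : ℝ) + 2) ^ 3 := one_le_pow₀ (by
    have : (0 : ℝ) ≤ r := Nat.cast_nonneg r
    linarith)
  have hV : Var G ℓ (1000 * ((r : ℝ) + 2) ^ 3) := by
    intro τ h0 h1
    obtain ⟨N, a1, a2, a3⟩ := R2.H907.VarK.rowVarK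
      (R2.H907.KprPadK.rowPadK Kpr.rowPot Kpr.rowCount (Kr.rowK2 Kr.rowK1)) V G ℓ r hc hK hℓ τ h0 h1
    refine ⟨N, a1, a2, fun x y b1 b2 => (a3 x y b1 b2).trans (le_of_eq (by ring))⟩
  have h1 := union_log (by linarith) (by linarith) (Pf.retr_all hc hK hℓ) hV hc hℓ hB hE
  obtain ⟨Ω, μ', μ, f, hf⟩ := h1
  refine ⟨Ω, μ', μ, f, fun x y => ⟨(hf x y).1, (hf x y).2.trans
    (mul_le_mul_of_nonneg_right ?_ (pathDist_isMet hc hℓ |>.nonneg x y))⟩⟩
  have hl : 0 ≤ Real.log ((m : ℝ) + 2) := Real.log_nonneg (by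
    have : (0 : ℝ) ≤ m := Nat.cast_nonneg m
    linarith)
  refine mul_le_mul_of_nonneg_right (mul_le_mul_of_nonneg_right ?_ (by linarith)) hl
  linarith

end Vale.Agent.P235.Uni
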