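import Vale.Agent.P235.H105.PlaneCycle

/-!
Upward trees and fundamental cycles modulo two (after helper802, P235/R2/H802/Flow.lean and
Region.lean, without lengths).
-/

set_option linter.unusedSectionVars false
set_option linter.unusedDecidableInType false
set_option linter.unusedFintypeInType false

namespace Vale.Agent.P235.H341W

open SimpleGraph Finset

/-- indicator with values in `ZMod 2` -/
noncomputable def ind (p : Prop) : ZMod 2 := by
  classical
  exact if p then 1 else 0

theorem ind_pos {p : Prop} (h : p) : ind p = 1 := by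
  unfold ind
  exact if_pos h

theorem ind_neg {p : Prop} (h : ¬ p) : ind p = 0 := by
  unfold ind
  exact if_neg h

theorem ind_ne {p : Prop} (h : ind p ≠ 0) : p := by
  by_contra hp
  exact h (ind_neg hp)

theorem ind_eq_one {p : Prop} (h : ind p = 1) : p := by
  by_contra hp
  rw [ind_neg hp] at h
  exact absurd h (by decide)

theorem ind_congr {p q : Prop} (h : p ↔ q) : ind p = ind q := by rw [propext h]

theorem ind_or {p q r : Prop} (h : r ↔ (p ∨ q)) (hn : ¬ (p ∧ q)) : ind r = ind p + ind q := by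
  by_cases hp : p
  · have hq : ¬ q := fun hq => hn ⟨hp, hq⟩
    rw [ind_pos (h.2 (Or.inl hp)), ind_pos hp, ind_neg hq, add_zero]
  · by_cases hq : q
    · rw [ind_pos (h.2 (Or.inr hq)), ind_neg hp, ind_pos hq, zero_add]
    · rw [ind_neg (fun hr => (h.1 hr).elim hp hq), ind_neg hp, ind_neg hq, zero_add]

theorem zmod2_cases (x : ZMod 2) : x = 0 ∨ x = 1 := by
  revert x
  decide

variable {V : Type} {G : SimpleGraph V}

/-- `u` selects an upward edge at every vertex except `t` -/
def Up (G : SimpleGraph V) (h : V → ℝ) (t : V) (u : V → V) : Prop :=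
  ∀ v, v ≠ t → G.Adj v (u v) ∧ h v < h (u v)

/-- reachability along `u` -/
def Orb (u : V → V) (t : V) : V → V → Prop := Relation.ReflTransGen fun x y => x ≠ t ∧ y = u x

theorem Orb.total {u : V → V} {t a v w : V} (h1 : Orb u t a v) (h2 : Orb u t a w) :
    Orb u t v w ∨ Orb u t w v := by
  refine Relation.ReflTransGen.total_of_right_unique ?_ h1 h2
  rintro x y z ⟨_, rfl⟩ ⟨_, rfl⟩
  rfl

theorem Orb.le {h : V → ℝ} {t : V} {u : V → V} (hu : Up G h t u) {a v : V}
    (h1 : Orb u t a v) : a = v ∨ h a < h v := by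
  induction h1 with
  | refl => exact Or.inl rfl
  | @tail b c _ hbc ih =>
    obtain ⟨hb, rfl⟩ := hbc
    right
    rcases ih with rfl | ih
    · exact (hu _ hb).2
    · exact ih.trans (hu _ hb).2

theorem Orb.le' {h : V → ℝ} {t : V} {u : V → V} (hu : Up G h t u) {a v : V}
    (h1 : Orb u t a v) : h a ≤ h v := by
  rcases h1.le hu with rfl | h2
  · exact le_rfl
  · exact h2.le

theorem orb_head {u : V → V} {t a v : V} (h1 : Orb u t a v) :
    a = v ∨ (a ≠ t ∧ Orb u t (u a) v) := by
  rcases Relation.ReflTransGen.cases_head h1 with h2 | ⟨c, ⟨hc, rfl⟩, h3⟩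
  · exact Or.inl h2
  · exact Or.inr ⟨hc, h3⟩

theorem orb_cons {u : V → V} {t a v : V} (ha : a ≠ t) (h1 : Orb u t (u a) v) : Orb u t a v :=
  Relation.ReflTransGen.head ⟨ha, rfl⟩ h1

theorem orb_snoc {u : V → V} {t a v : V} (hv : v ≠ t) (h1 : Orb u t a v) : Orb u t a (u v) :=
  Relation.ReflTransGen.tail h1 ⟨hv, rfl⟩

theorem wf_up [Finite V] (h : V → ℝ) : WellFounded fun x y : V => h y < h x := by
  have : IsTrans V fun x y : V => h y < h x := ⟨fun a b c h1 h2 => h2.trans h1⟩
  have : Std.Irrefl fun x y : V => h y < h x := ⟨fun a h1 => lt_irrefl _ h1⟩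
  exact Finite.wellFounded_of_trans_of_irrefl _

theorem orb_top [Finite V] {h : V → ℝ} {t : V} {u : V → V}
    (hu : Up G h t u) (a : V) : Orb u t a t := by
  induction a using (wf_up h).induction with
  | _ a ih =>
    by_cases ha : a = t
    · rw [ha]
      exact Relation.ReflTransGen.refl
    · exact orb_cons ha (ih _ (hu a ha).2)

/-- the dart `d` is an upward tree dart on the chain from `a` -/
def TO (u : V → V) (t a : V) (d : G.Dart) : Prop :=
  d.fst ≠ t ∧ u d.fst = d.snd ∧ Orb u t a d.fst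

/-- the chain from `a` to `t` as a symmetric function on the darts -/
noncomputable def pz (u : V → V) (t a : V) (d : G.Dart) : ZMod 2 :=
  ind (TO u t a d ∨ TO u t a d.symm)

theorem pz_symm (u : V → V) (t a : V) (d : G.Dart) : pz u t a d.symm = pz u t a d := by
  unfold pz
  rw [Dart.symm_symm]
  exact ind_congr Or.comm

theorem pz_top (u : V → V) (t : V) (d : G.Dart) : pz u t t d = 0 := by
  refine ind_neg ?_
  have h1 : ∀ d : G.Dart, ¬ TO u t t d := by
    rintro d ⟨h1, _, h3⟩
    rcases orb_head h3 with h4 | ⟨h4, _⟩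
    · exact h1 h4.symm
    · exact h4 rfl
  rintro (h | h)
  · exact h1 _ h
  · exact h1 _ h

theorem pz_step {h : V → ℝ} {t : V} {u : V → V} (hu : Up G h t u) {a : V}
    (ha : a ≠ t) (δ : G.Dart) (h1 : δ.fst = a) (h2 : δ.snd = u a) (d : G.Dart) :
    pz u t a d = pz u t (u a) d + (ind (d = δ) + ind (d = δ.symm)) := by
  have hlt := (hu a ha).2
  have e1 : ∀ d : G.Dart, TO u t a d ↔ (TO u t (u a) d ∨ d = δ) := by
    intro d
    constructor
    · rintro ⟨k1, k2, k3⟩
      rcases orb_head k3 with k4 | ⟨_, k4⟩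
      · right
        ext
        · exact k4.symm.trans h1.symm
        · show d.snd = δ.snd
          rw [← k2, ← k4, h2]
      · exact Or.inl ⟨k1, k2, k4⟩
    · rintro (⟨k1, k2, k3⟩ | rfl)
      · exact ⟨k1, k2, orb_cons ha k3⟩
      · refine ⟨by rw [h1]; exact ha, by rw [h1, h2], by rw [h1]; exact Relation.ReflTransGen.refl⟩
  have e2 : ∀ d : G.Dart, ¬ (TO u t (u a) d ∧ d = δ) := by
    rintro d ⟨⟨_, _, k3⟩, rfl⟩
    rw [h1] at k3
    exact absurd (k3.le' hu) (not_le.2 hlt)
  have e3 : ∀ d : G.Dart, ¬ (TO u t (u a) d.symm ∧ d = δ) := by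
    rintro d ⟨⟨k1, k2, _⟩, rfl⟩
    have k4 : d.symm.fst = u a := h2
    have k5 : d.symm.snd = a := h1
    rw [k4] at k1 k2
    rw [k5] at k2
    have := (hu _ k1).2
    rw [k2] at this
    exact absurd this (not_lt.2 hlt.le)
  have hs : ∀ d : G.Dart, d.symm = δ ↔ d = δ.symm := fun d =>
    ⟨fun k => by rw [← k, Dart.symm_symm], fun k => by rw [k, Dart.symm_symm]⟩
  have h3 : ind (d = δ) + ind (d = δ.symm) = ind (d = δ ∨ d = δ.symm) := by
    refine (ind_or Iff.rfl ?_).symm
    rintro ⟨rfl, k⟩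
    exact Dart.symm_ne d k.symm
  rw [h3]
  unfold pz
  refine ind_or ?_ ?_
  · rw [e1 d, e1 d.symm, hs]
    tauto
  · rintro ⟨k1 | k1, k2 | k2⟩
    · exact e2 _ ⟨k1, k2⟩
    · refine e3 d.symm ⟨?_, (hs d).2 k2⟩
      rw [Dart.symm_symm]
      exact k1
    · exact e3 _ ⟨k1, k2⟩
    · exact e2 _ ⟨k1, (hs d).2 k2⟩

section sums

variable [Fintype V] [DecidableEq V] [Fintype G.Dart] [DecidableEq G.Dart]

theorem sum_edge (δ : G.Dart) (v : V) :
    ∑ d : G.Dart with d.fst = v, (ind (d = δ) + ind (d = δ.symm)) =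
      ind (v = δ.fst) + ind (v = δ.snd) := by
  have h1 : ∀ d x : G.Dart, ind (d = x) = if d = x then 1 else 0 := by
    intro d x
    by_cases h : d = x
    · rw [if_pos h, ind_pos h]
    · rw [if_neg h, ind_neg h]
  have h2 : ∀ x : G.Dart, ∑ d : G.Dart with d.fst = v, ind (d = x) = ind (v = x.fst) := by
    intro x
    simp only [h1]
    rw [Finset.sum_ite_eq']
    simp only [Finset.mem_filter, Finset.mem_univ, true_and]
    by_cases h : x.fst = v
    · rw [if_pos h, ind_pos h.symm]
    · rw [if_neg h, ind_neg fun k => h k.symm]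
  rw [Finset.sum_add_distrib, h2, h2]
  rfl

theorem sum_pz {h : V → ℝ} {t : V} {u : V → V} (hu : Up G h t u) (a v : V) :
    ∑ d : G.Dart with d.fst = v, pz u t a d = ind (v = a) + ind (v = t) := by
  induction a using (wf_up h).induction with
  | _ a ih =>
    by_cases ha : a = t
    · subst ha
      rw [Finset.sum_congr rfl (fun d _ => pz_top u a d), Finset.sum_const_zero,
        CharTwo.add_self_eq_zero]
    · have h1 := hu a ha
      set δ : G.Dart := ⟨(a, u a), h1.1⟩ with hδ
      rw [Finset.sum_congr rfl (fun d _ => pz_step hu ha δ rfl rfl d), Finset.sum_add_distrib,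
        ih _ h1.2, sum_edge]
      show ind (v = u a) + ind (v = t) + (ind (v = a) + ind (v = u a)) = ind (v = a) + ind (v = t)
      have h2 : ind (v = u a) + ind (v = u a) = 0 := CharTwo.add_self_eq_zero _
      linear_combination h2

/-- boundaries of face functions have even sums -/
theorem sum_face {σ : Equiv.Perm G.Dart} (fst : ∀ d, (σ d).fst = d.fst) (S : G.Dart → ZMod 2)
    (hS : ∀ d, S (faceNext σ d) = S d) (v : V) :
    ∑ d : G.Dart with d.fst = v, (S d + S d.symm) = 0 := by
  rw [Finset.sum_add_distrib]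
  have e1 : (∑ d : G.Dart with d.fst = v, S d.symm) = ∑ d : G.Dart with d.fst = v, S d := by
    refine Finset.sum_bij (fun (d : G.Dart) _ => σ d) ?_ ?_ ?_ ?_
    · intro d hd
      rw [Finset.mem_filter] at hd ⊢
      exact ⟨Finset.mem_univ _, (fst d).trans hd.2⟩
    · intro a _ b _ hab
      exact σ.injective hab
    · intro b hb
      rw [Finset.mem_filter] at hb
      refine ⟨σ⁻¹ b, ?_, Equiv.apply_symm_apply _ _⟩
      rw [Finset.mem_filter]
      refine ⟨Finset.mem_univ _, ?_⟩
      rw [← fst, show σ (σ⁻¹ b) = b from Equiv.apply_symm_apply _ _]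
      exact hb.2
    · intro d _
      have h1 := hS d.symm
      rw [faceNext_apply, Dart.symm_symm] at h1
      rw [h1]
  rw [e1, CharTwo.add_self_eq_zero]

end sums

/-- tree darts, in either direction -/
def Tr (u : V → V) (t : V) (d : G.Dart) : Prop :=
  (d.fst ≠ t ∧ u d.fst = d.snd) ∨ (d.snd ≠ t ∧ u d.snd = d.fst)

theorem Tr.symm {u : V → V} {t : V} {d : G.Dart} (h : Tr u t d) : Tr u t d.symm := Or.symm h

theorem tr_of_pz {u : V → V} {t a : V} {d : G.Dart} (h : pz u t a d ≠ 0) : Tr u t d := by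
  rcases ind_ne h with ⟨h1, h2, _⟩ | ⟨h1, h2, _⟩
  · exact Or.inl ⟨h1, h2⟩
  · exact Or.inr ⟨h1, h2⟩

/-- the fundamental cycle of the dart `e` -/
noncomputable def CC (u : V → V) (t : V) (e d : G.Dart) : ZMod 2 :=
  pz u t e.fst d + pz u t e.snd d + (ind (d = e) + ind (d = e.symm))

theorem CC_symm (u : V → V) (t : V) (e d : G.Dart) : CC u t e d.symm = CC u t e d := by
  unfold CC
  rw [pz_symm, pz_symm]
  have h1 : ind (d.symm = e) = ind (d = e.symm) := ind_congr
    ⟨fun k => by rw [← k, Dart.symm_symm], fun k => by rw [k, Dart.symm_symm]⟩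
  have h2 : ind (d.symm = e.symm) = ind (d = e) := ind_congr
    ⟨fun k => by rw [← Dart.symm_symm d, k, Dart.symm_symm], fun k => by rw [k]⟩
  rw [h1, h2, add_comm (ind (d = e.symm))]

theorem CC_supp {u : V → V} {t : V} {e d : G.Dart} (h : CC u t e d ≠ 0) :
    d = e ∨ d = e.symm ∨ Tr u t d := by
  by_contra hn
  push Not at hn
  refine h ?_
  unfold CC
  rw [ind_neg hn.1, ind_neg hn.2.1]
  have h1 : pz u t e.fst d = 0 := by
    by_contra k
    exact hn.2.2 (tr_of_pz k)
  have h2 : pz u t e.snd d = 0 := by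
    by_contra k
    exact hn.2.2 (tr_of_pz k)
  rw [h1, h2]
  rfl

theorem CC_self {u : V → V} {t : V} {e : G.Dart} (he : ¬ Tr u t e) : CC u t e e = 1 := by
  unfold CC
  have h1 : pz u t e.fst e = 0 := by
    by_contra k
    exact he (tr_of_pz k)
  have h2 : pz u t e.snd e = 0 := by
    by_contra k
    exact he (tr_of_pz k)
  rw [h1, h2, ind_pos rfl, ind_neg (Dart.symm_ne e).symm]
  rfl

section forest

variable [Fintype V] [DecidableEq V] [Fintype G.Dart] [DecidableEq G.Dart]

/-- an even function supported on the tree vanishes -/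
theorem forest {h : V → ℝ} {t : V} {u : V → V} (hu : Up G h t u)
    (Z : G.Dart → ZMod 2) (hs : ∀ d : G.Dart, Z d.symm = Z d)
    (hv : ∀ v, ∑ d : G.Dart with d.fst = v, Z d = 0) (ht : ∀ d, Z d ≠ 0 → Tr u t d) :
    ∀ d, Z d = 0 := by
  by_contra hn
  push Not at hn
  obtain ⟨d₀, hd₀⟩ := hn
  obtain ⟨x, ⟨d, hdx, hd⟩, hmin⟩ := Set.exists_min_image {x | ∃ d : G.Dart, d.fst = x ∧ Z d ≠ 0} h
    (Set.toFinite _) ⟨_, d₀, rfl, hd₀⟩
  have key : ∀ d' : G.Dart, d'.fst = x → Z d' ≠ 0 → d'.snd = u x := by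
    intro d' h1 h2
    rcases ht d' h2 with ⟨_, h3⟩ | ⟨h3, h4⟩
    · rw [← h3, h1]
    · exfalso
      have h5 := (hu _ h3).2
      rw [h4, h1] at h5
      have h6 := hmin d'.snd ⟨d'.symm, rfl, by rw [hs]; exact h2⟩
      exact absurd h5 (not_lt.2 h6)
  have h1 := hv x
  rw [Finset.sum_eq_single d] at h1
  · exact hd h1
  · intro d' h2 h3
    by_contra h4
    refine h3 ?_
    rw [Finset.mem_filter] at h2
    ext
    · exact h2.2.trans hdx.symm
    · exact (key d' h2.2 h4).trans (key d hdx hd).symm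
  · intro h2
    exfalso
    refine h2 ?_
    rw [Finset.mem_filter]
    exact ⟨Finset.mem_univ _, hdx⟩

theorem sum_CC {h : V → ℝ} {t : V} {u : V → V} (hu : Up G h t u)
    (e : G.Dart) (v : V) : ∑ d : G.Dart with d.fst = v, CC u t e d = 0 := by
  unfold CC
  rw [Finset.sum_add_distrib, Finset.sum_add_distrib, sum_pz hu, sum_pz hu, sum_edge]
  have h1 := CharTwo.add_self_eq_zero (ind (v = e.fst))
  have h2 := CharTwo.add_self_eq_zero (ind (v = e.snd))
  have h3 := CharTwo.add_self_eq_zero (ind (v = t))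
  linear_combination h1 + h2 + h3

end forest

end Vale.Agent.P235.H341W
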