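import Vale.Agent.P235.R2.H341.W3

/-!
Sides of fundamental cycles of a plane map (helper341).
-/

set_option linter.unusedSectionVars false
set_option linter.unusedDecidableInType false
set_option linter.unusedFintypeInType false

namespace Vale.Agent.P235.H341W

open SimpleGraph Finset

section basic

variable {V : Type} {G : SimpleGraph V} {σ : Equiv.Perm G.Dart}

/-- a face function which does not change across the darts at `v` is constant at `v` -/
theorem const_at [Finite V] (hσ : PlaneMap G σ) {K : Type} {g : G.Dart → K}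
    (h1 : ∀ d, g (faceNext σ d) = g d) {v : V} (h2 : ∀ d : G.Dart, d.fst = v → g d.symm = g d)
    {d d' : G.Dart} (hd : d.fst = v) (hd' : d'.fst = v) : g d = g d' := by
  have hfin : Finite G.Dart := by
    classical
    have := Fintype.ofFinite V
    infer_instance
  have key : ∀ n : ℕ, ((σ ^ n) d).fst = v ∧ g ((σ ^ n) d) = g d := by
    intro n
    induction n with
    | zero => exact ⟨hd, rfl⟩
    | succ n ih =>
      rw [pow_succ', Equiv.Perm.mul_apply]
      refine ⟨(hσ.fst _).trans ih.1, ?_⟩
      have h3 := h1 ((σ ^ n) d).symm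
      rw [faceNext_apply, Dart.symm_symm, h2 _ ih.1] at h3
      exact h3.trans ih.2
  obtain ⟨n, hn⟩ := (hσ.cyc d d' (hd.trans hd'.symm)).exists_nat_pow_eq
  rw [← hn]
  exact (key n).2.symm

/-- a face function is constant on faces -/
theorem face_const {K : Type} {g : G.Dart → K} (h1 : ∀ d, g (faceNext σ d) = g d) {d d' : G.Dart}
    (h : (faceNext σ).SameCycle d d') : g d = g d' := by
  obtain ⟨n, rfl⟩ := h
  have key : ∀ (n : ℤ) (d : G.Dart), g ((faceNext σ ^ n) d) = g d := by
    intro n
    induction n using Int.induction_on with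
    | zero => intro d; rfl
    | succ n ih =>
      intro d
      rw [zpow_add_one, Equiv.Perm.mul_apply, ih, h1]
    | pred n ih =>
      intro d
      rw [zpow_sub_one, Equiv.Perm.mul_apply, ih]
      have h3 := h1 ((faceNext σ)⁻¹ d)
      rw [show faceNext σ ((faceNext σ)⁻¹ d) = d from Equiv.apply_symm_apply _ _] at h3
      exact h3.symm
  exact (key n d).symm

theorem faceNext_fst (hσ : ∀ d, (σ d).fst = d.fst) (d : G.Dart) : (faceNext σ d).fst = d.snd := by
  rw [faceNext_apply, hσ]
  rfl

theorem fst_mem_onFace {d d' : G.Dart} (h : (faceNext σ).SameCycle d d') : d'.fst ∈ onFace σ d :=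
  ⟨d', h, rfl⟩

theorem snd_mem_onFace (hσ : ∀ d, (σ d).fst = d.fst) {d d' : G.Dart}
    (h : (faceNext σ).SameCycle d d') : d'.snd ∈ onFace σ d :=
  ⟨faceNext σ d', Equiv.Perm.sameCycle_apply_right.2 h, faceNext_fst hσ d'⟩

end basic

section side

variable {V : Type} {G : SimpleGraph V} {σ : Equiv.Perm G.Dart} {h : V → ℝ} {s : V} {p : V → V}

/-- the two chains of a dart -/
def Ch (p : V → V) (s : V) (e : G.Dart) : Set V := {v | Orb p s e.fst v ∨ Orb p s e.snd v}

theorem pz_mem {a : V} {d : G.Dart} (hd : pz p s a d ≠ 0) : Orb p s a d.fst ∧ Orb p s a d.snd := by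
  rcases ind_ne hd with ⟨h1, h2, h3⟩ | ⟨h1, h2, h3⟩
  · exact ⟨h3, by rw [← h2]; exact orb_snoc h1 h3⟩
  · refine ⟨?_, h3⟩
    have h4 : p d.snd = d.fst := h2
    rw [← h4]
    exact orb_snoc h1 h3

theorem CC_mem {e d : G.Dart} (hd : CC p s e d ≠ 0) : d.fst ∈ Ch p s e := by
  by_contra hn
  refine hd ?_
  have hn1 : ¬ Orb p s e.fst d.fst := fun h => hn (Or.inl h)
  have hn2 : ¬ Orb p s e.snd d.fst := fun h => hn (Or.inr h)
  unfold CC
  have h1 : pz p s e.fst d = 0 := by
    by_contra k
    exact hn1 (pz_mem k).1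
  have h2 : pz p s e.snd d = 0 := by
    by_contra k
    exact hn2 (pz_mem k).1
  have h3 : d ≠ e := by
    rintro rfl
    exact hn1 Relation.ReflTransGen.refl
  have h4 : d ≠ e.symm := by
    rintro rfl
    exact hn2 Relation.ReflTransGen.refl
  rw [h1, h2, ind_neg h3, ind_neg h4]
  rfl

theorem CC_nt {e d : G.Dart} (hd : ¬ Tr p s d) : CC p s e d = ind (d = e) + ind (d = e.symm) := by
  unfold CC
  have h1 : pz p s e.fst d = 0 := by
    by_contra k
    exact hd (tr_of_pz k)
  have h2 : pz p s e.snd d = 0 := by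
    by_contra k
    exact hd (tr_of_pz k)
  rw [h1, h2, zero_add, zero_add]

theorem CC_flip (e d : G.Dart) : CC p s e.symm d = CC p s e d := by
  unfold CC
  rw [Dart.symm_symm]
  show pz p s e.snd d + pz p s e.fst d + (ind (d = e.symm) + ind (d = e)) = _
  rw [add_comm (pz p s e.snd d), add_comm (ind (d = e.symm))]

/-- the side of the fundamental cycle of `e` which contains `e` -/
structure Side (σ : Equiv.Perm G.Dart) (p : V → V) (s : V) (e : G.Dart) (r : G.Dart → ZMod 2) :
    Prop where
  inv : ∀ d, r (faceNext σ d) = r d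
  bd : ∀ d : G.Dart, r d + r d.symm = CC p s e d
  one : r e = 1

theorem exists_side [Finite V] (hc : G.Connected) (hσ : PlaneMap G σ)
    (hp : Up G (fun v => - h v) s p) (e : G.Dart) : ∃ r, Side σ p s e r := by
  classical
  have := Fintype.ofFinite V
  obtain ⟨r, hr1, hr2⟩ := plane_cycle' hc hσ (CC p s e) (CC_symm p s e) (sum_CC hp e)
  refine ⟨fun d => r d + (r e + 1), fun d => ?_, fun d => ?_, ?_⟩
  · show r _ + _ = r d + _
    rw [hr1]
  · show r d + (r e + 1) + (r d.symm + (r e + 1)) = _
    rw [hr2 d]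
    have h1 := CharTwo.add_self_eq_zero (r e + 1)
    linear_combination h1
  · show r e + (r e + 1) = 1
    rw [← add_assoc, CharTwo.add_self_eq_zero, zero_add]

/-- a face function which does not change across darts off the tree is constant -/
theorem const_nt [Finite V] (hc : G.Connected) (hσ : PlaneMap G σ)
    (hp : Up G (fun v => - h v) s p) {g : G.Dart → ZMod 2} (h1 : ∀ d, g (faceNext σ d) = g d)
    (h2 : ∀ d : G.Dart, ¬ Tr p s d → g d.symm = g d) (d d' : G.Dart) : g d = g d' := by
  classical
  have := Fintype.ofFinite V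
  have h3 := forest hp (fun d => g d + g d.symm) (fun d => by
      show g d.symm + g d.symm.symm = g d + g d.symm
      rw [Dart.symm_symm, add_comm]) (sum_face hσ.fst g h1) (fun d hd => by
      by_contra hn
      refine hd ?_
      show g d + g d.symm = 0
      rw [h2 d hn, CharTwo.add_self_eq_zero])
  exact const_of_inv hc hσ.cyc g h1 (fun d => (CharTwo.add_eq_zero.1 (h3 d)).symm) d d'

variable {r : G.Dart → G.Dart → ZMod 2}

theorem zmod_ne_one {x : ZMod 2} (h : x ≠ 1) : x = 0 := (zmod2_cases x).resolve_right h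

theorem zmod_ne_zero {x : ZMod 2} (h : x ≠ 0) : x = 1 := (zmod2_cases x).resolve_left h

/-- `F1` -/
theorem side_symm (hr : ∀ e, Side σ p s e (r e)) {e : G.Dart} (he : ¬ Tr p s e) :
    r e e.symm = 0 := by
  have h1 := (hr e).bd e
  rw [(hr e).one, CC_self he] at h1
  have h2 : (1 : ZMod 2) + r e e.symm = 1 + 0 := by rw [h1, add_zero]
  exact add_left_cancel h2

/-- `F4` -/
theorem side_cross (hr : ∀ e, Side σ p s e (r e)) {e d : G.Dart} (hd : ¬ Tr p s d) (h1 : d ≠ e)
    (h2 : d ≠ e.symm) : r e d.symm = r e d := by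
  have h3 := (hr e).bd d
  rw [CC_nt hd, ind_neg h1, ind_neg h2, add_zero] at h3
  exact (CharTwo.add_eq_zero.1 h3).symm

/-- `F2` -/
theorem side_flip [Finite V] (hc : G.Connected) (hσ : PlaneMap G σ)
    (hp : Up G (fun v => - h v) s p) (hr : ∀ e, Side σ p s e (r e)) {e : G.Dart}
    (he : ¬ Tr p s e) (d : G.Dart) : r e.symm d = 1 + r e d := by
  have h1 := const_nt hc hσ hp (g := fun d => r e.symm d + r e d) (fun d => by
    show r e.symm _ + r e _ = r e.symm d + r e d
    rw [(hr e.symm).inv, (hr e).inv]) (fun d _ => by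
    have h2 := (hr e.symm).bd d
    have h3 := (hr e).bd d
    rw [CC_flip] at h2
    have h4 : (r e.symm d + r e d) + (r e.symm d.symm + r e d.symm) = 0 := by
      have h5 := CharTwo.add_self_eq_zero (CC p s e d)
      linear_combination h2 + h3 + h5
    exact (CharTwo.add_eq_zero.1 h4).symm) d e
  have h2 : ¬ Tr p s e.symm := fun k => he (by rw [← Dart.symm_symm e]; exact k.symm)
  have h3 := side_symm hr h2
  rw [Dart.symm_symm] at h3
  have h4 : r e.symm d + r e d = r e.symm e + r e e := h1
  rw [h3, (hr e).one, zero_add] at h4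
  have h5 := CharTwo.add_self_eq_zero (r e d)
  linear_combination h4 - h5

/-- `F5`: from a face one can leave towards any other face -/
theorem side_next [Finite V] (hc : G.Connected) (hσ : PlaneMap G σ)
    (hp : Up G (fun v => - h v) s p) (hr : ∀ e, Side σ p s e (r e)) {f m : G.Dart}
    (hfm : ¬ (faceNext σ).SameCycle f m) :
    ∃ b, ¬ Tr p s b ∧ (faceNext σ).SameCycle f b ∧ r b m = 0 := by
  classical
  have := Fintype.ofFinite V
  by_contra hn
  push Not at hn
  have hn' : ∀ b, ¬ Tr p s b → (faceNext σ).SameCycle f b → r b m = 1 := fun b h1 h2 =>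
    zmod_ne_zero (hn b h1 h2)
  let B : Finset G.Dart := Finset.univ.filter fun b => ¬ Tr p s b ∧ (faceNext σ).SameCycle f b
  have hB : ∀ b, b ∈ B ↔ ¬ Tr p s b ∧ (faceNext σ).SameCycle f b := fun b => by
    show b ∈ Finset.univ.filter _ ↔ _
    rw [Finset.mem_filter]
    exact ⟨fun k => k.2, fun k => ⟨Finset.mem_univ _, k⟩⟩
  have hsum : ∀ x : G.Dart, ∑ b ∈ B, ind (x = b) = ind (x ∈ B) := by
    intro x
    by_cases hx : x ∈ B
    · rw [Finset.sum_eq_single x (fun b _ hb => ind_neg fun k => hb k.symm)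
        (fun k => absurd hx k), ind_pos rfl, ind_pos hx]
    · rw [ind_neg hx]
      exact Finset.sum_eq_zero fun b hb => ind_neg fun k => hx (k ▸ hb)
  have h1 := const_nt hc hσ hp
    (g := fun d => ind ((faceNext σ).SameCycle f d) + ∑ b ∈ B, (1 + r b d)) (fun d => by
      show ind _ + ∑ b ∈ B, (1 + r b (faceNext σ d)) = ind _ + ∑ b ∈ B, (1 + r b d)
      rw [Finset.sum_congr rfl fun b _ => by rw [(hr b).inv]]
      rw [ind_congr (Equiv.Perm.sameCycle_apply_right)]) (fun d hd => by
      have e1 : (ind ((faceNext σ).SameCycle f d.symm) + ∑ b ∈ B, (1 + r b d.symm)) +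
          (ind ((faceNext σ).SameCycle f d) + ∑ b ∈ B, (1 + r b d)) = 0 := by
        have e2 : ∑ b ∈ B, (1 + r b d.symm) + ∑ b ∈ B, (1 + r b d) =
            ind (d ∈ B) + ind (d.symm ∈ B) := by
          rw [← Finset.sum_add_distrib, ← hsum d, ← hsum d.symm, ← Finset.sum_add_distrib]
          refine Finset.sum_congr rfl fun b _ => ?_
          have e3 := (hr b).bd d
          rw [CC_nt hd] at e3
          have e4 : ind (d = b.symm) = ind (d.symm = b) := ind_congr
            ⟨fun k => by rw [k, Dart.symm_symm], fun k => by rw [← k, Dart.symm_symm]⟩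
          rw [e4] at e3
          have e5 : (1 : ZMod 2) + 1 = 0 := by decide
          linear_combination e3 + e5
        have e6 : ind (d ∈ B) = ind ((faceNext σ).SameCycle f d) := ind_congr
          ⟨fun k => ((hB d).1 k).2, fun k => (hB d).2 ⟨hd, k⟩⟩
        have hds : ¬ Tr p s d.symm := fun k => hd (by rw [← Dart.symm_symm d]; exact k.symm)
        have e7 : ind (d.symm ∈ B) = ind ((faceNext σ).SameCycle f d.symm) := ind_congr
          ⟨fun k => ((hB d.symm).1 k).2, fun k => (hB d.symm).2 ⟨hds, k⟩⟩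
        rw [e6, e7] at e2
        have e8 := CharTwo.add_self_eq_zero (ind ((faceNext σ).SameCycle f d))
        have e9 := CharTwo.add_self_eq_zero (ind ((faceNext σ).SameCycle f d.symm))
        linear_combination e2 + e8 + e9
      exact CharTwo.add_eq_zero.1 e1) f m
  have h2 : ind ((faceNext σ).SameCycle f f) + ∑ b ∈ B, (1 + r b f) =
      ind ((faceNext σ).SameCycle f m) + ∑ b ∈ B, (1 + r b m) := h1
  have h3 : ∑ b ∈ B, (1 + r b f) = 0 := Finset.sum_eq_zero fun b hb => by
    rw [face_const (hr b).inv ((hB b).1 hb).2, (hr b).one]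
    decide
  have h4 : ∑ b ∈ B, (1 + r b m) = 0 := Finset.sum_eq_zero fun b hb => by
    rw [hn' b ((hB b).1 hb).1 ((hB b).1 hb).2]
    decide
  rw [h3, h4, ind_pos (Equiv.Perm.SameCycle.refl _ _), ind_neg hfm] at h2
  exact absurd h2 (by decide)

/-- `F6` -/
theorem side_nested [Finite V] (hc : G.Connected) (hσ : PlaneMap G σ)
    (hp : Up G (fun v => - h v) s p) (hr : ∀ e, Side σ p s e (r e)) {e b : G.Dart}
    (he : ¬ Tr p s e) (hb : ¬ Tr p s b) (heb : (faceNext σ).SameCycle e.symm b) (hne : b ≠ e.symm)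
    {d : G.Dart} (hd : r e d = 1) : r b d = 1 := by
  have h1 : r e b = 0 := by rw [← face_const (hr e).inv heb, side_symm hr he]
  have h2 : b ≠ e := by
    rintro rfl
    rw [(hr b).one] at h1
    exact absurd h1 (by decide)
  have h3 : r b e = 1 := by
    have := side_cross hr (e := b) he (fun k => h2 k.symm)
      (fun k => hne (by rw [k, Dart.symm_symm]))
    rw [← this, face_const (hr b).inv heb, (hr b).one]
  have h3' : r b e.symm = 1 := by rw [face_const (hr b).inv heb, (hr b).one]
  have h4 : r e b.symm = 0 := by rw [side_cross hr hb h2 hne, h1]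
  have key := const_nt hc hσ hp (g := fun d => r e d * (1 + r b d)) (fun d => by
    show r e _ * (1 + r b _) = r e d * (1 + r b d)
    rw [(hr e).inv, (hr b).inv]) (fun d hd => by
    show r e d.symm * (1 + r b d.symm) = r e d * (1 + r b d)
    by_cases k1 : d = e
    · rw [k1, h3, h3']
      have : (1 : ZMod 2) + 1 = 0 := by decide
      rw [this, mul_zero, mul_zero]
    by_cases k2 : d = e.symm
    · rw [k2, Dart.symm_symm, h3, h3']
      have : (1 : ZMod 2) + 1 = 0 := by decide
      rw [this, mul_zero, mul_zero]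
    by_cases k3 : d = b
    · rw [k3, h1, h4, zero_mul, zero_mul]
    by_cases k4 : d = b.symm
    · rw [k4, Dart.symm_symm, h1, h4, zero_mul, zero_mul]
    · rw [side_cross hr hd k1 k2, side_cross hr hd k3 k4]) d e
  have key' : r e d * (1 + r b d) = r e e * (1 + r b e) := key
  rw [hd, h3] at key'
  have h5 : (1 : ZMod 2) + 1 = 0 := by decide
  rw [h5, mul_zero, one_mul] at key'
  have h6 := CharTwo.add_eq_zero.1 key'
  exact h6.symm

end side

end Vale.Agent.P235.H341W
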