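import Vale.Agent.P235.H536.PlaneDefs

/-!
Plane maps whose local maxima lie on few faces: the rows (helper341).
-/

namespace Vale.Agent.P235.H341W

/-- `b` can be reached from `a` along a descending path -/
def Desc {V : Type} (G : SimpleGraph V) (h : V → ℝ) : V → V → Prop :=
  Relation.ReflTransGen fun x y => G.Adj x y ∧ h y < h x

/-- a plane map with a height `h` without equal values on edges, with one local minimum `s`, such
that every local maximum is on the boundary of one of the faces of the darts in `M` -/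
structure MP {V : Type} (G : SimpleGraph V) (σ : Equiv.Perm G.Dart) (h : V → ℝ) (s : V)
    (M : Set G.Dart) : Prop where
  conn : G.Connected
  plane : PlaneMap G σ
  ne : ∀ u v, G.Adj u v → h u ≠ h v
  low : ∀ v, v ≠ s → ∃ u, G.Adj v u ∧ h u < h v
  high : ∀ v, (∃ u, G.Adj v u ∧ h v < h u) ∨ ∃ m ∈ M, v ∈ onFace σ m

/-- one face contains all local maxima -/
def Leaf1 {W : Type} (G' : SimpleGraph W) (h' : W → ℝ) : Prop :=
  ∃ (σ' : Equiv.Perm G'.Dart) (s' : W) (m : G'.Dart), MP G' σ' h' s' {m}

/-- the set of the vertices of the lanes -/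
def lanesSet {V : Type} (Ls : List (Set V)) : Set V := {v | ∃ L ∈ Ls, v ∈ L}

/-- **the decomposition**: `4 (γ - 1)` descending paths cut a plane map with all local maxima on
`γ` faces into parts which lie in induced subgraphs with all local maxima on one face -/
def RowMP : Prop :=
  ∀ (γ : ℕ) (V : Type) [Finite V] (G : SimpleGraph V) (σ : Equiv.Perm G.Dart) (h : V → ℝ) (s : V)
    (M : Finset G.Dart), MP G σ h s (M : Set G.Dart) → M.Nonempty → M.card ≤ γ →
    ∃ Ls : List (Set V), Ls.length + 4 ≤ 4 * γ ∧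
      (∀ L ∈ Ls, L.Nonempty ∧ ∀ a ∈ L, ∀ b ∈ L, Desc G h a b ∨ Desc G h b a) ∧
      ∀ u, u ∉ lanesSet Ls → ∃ (W : Type) (_ : Finite W) (G' : SimpleGraph W) (ι : W → V),
        Function.Injective ι ∧ (∀ a b, G'.Adj a b ↔ G.Adj (ι a) (ι b)) ∧
        compSet G (lanesSet Ls) u ⊆ Set.range ι ∧ Leaf1 G' (h ∘ ι)

end Vale.Agent.P235.H341W
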