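import Vale.Agent.P235.R2.H341.W4
import Vale.Agent.P235.R2.H341.W5Defs
import Vale.Agent.P235.R2.H341.CapDefs

/-!
The mountain pass: one or two non-tree edges which cut a plane map with all local maxima on few
faces into simpler ones (helper341).
-/

set_option linter.unusedSectionVars false
set_option linter.unusedDecidableInType false
set_option linter.unusedFintypeInType false

namespace Vale.Agent.P235.H341W

open SimpleGraph Finset

variable {V : Type} {G : SimpleGraph V} {σ : Equiv.Perm G.Dart} {h : V → ℝ} {s : V} {p : V → V}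

/-- the higher end of a dart -/
noncomputable def tp (h : V → ℝ) (e : G.Dart) : V := by
  classical
  exact if h e.fst < h e.snd then e.snd else e.fst

theorem tp_pos {e : G.Dart} (k : h e.fst < h e.snd) : tp h e = e.snd := by
  unfold tp
  exact if_pos k

theorem tp_neg {e : G.Dart} (k : ¬ h e.fst < h e.snd) : tp h e = e.fst := by
  unfold tp
  exact if_neg k

theorem tp_or (e : G.Dart) : tp h e = e.fst ∨ tp h e = e.snd := by
  by_cases k : h e.fst < h e.snd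
  · exact Or.inr (tp_pos k)
  · exact Or.inl (tp_neg k)

theorem tp_symm {e : G.Dart} (hne : h e.fst ≠ h e.snd) : tp h e.symm = tp h e := by
  rcases lt_or_gt_of_ne hne with k | k
  · rw [tp_pos k, tp_neg (e := e.symm) (fun k' => absurd k (not_lt.2 k'.le))]
    rfl
  · rw [tp_neg (e := e) (not_lt.2 k.le), tp_pos (e := e.symm) k]
    rfl

/-- the side of `e` is harmless -/
def Hm (σ : Equiv.Perm G.Dart) (h : V → ℝ) (r : G.Dart → G.Dart → ZMod 2) (M : Set G.Dart)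
    (e : G.Dart) : Prop :=
  (∃ d : G.Dart, d.fst = tp h e ∧ h (tp h e) < h d.snd ∧ r e d = 1) ∨
    ∃ m ∈ M, r e m = 1 ∧ tp h e ∈ onFace σ m

variable {r : G.Dart → G.Dart → ZMod 2} {M : Set G.Dart}

theorem Hm_or [Finite V] (hP : MP G σ h s M) (hp : Up G (fun v => - h v) s p)
    (hr : ∀ e, Side σ p s e (r e)) {e : G.Dart} (he : ¬ Tr p s e) :
    Hm σ h r M e ∨ Hm σ h r M e.symm := by
  have ht := tp_symm (h := h) (hP.ne _ _ e.adj)
  have hfl : ∀ d, r e d = 0 → r e.symm d = 1 := fun d hd => by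
    rw [side_flip hP.conn hP.plane hp hr he, hd, add_zero]
  rcases hP.high (tp h e) with ⟨u, hu, hlt⟩ | ⟨m, hm, hv⟩
  · rcases zmod2_cases (r e ⟨(tp h e, u), hu⟩) with k | k
    · exact Or.inr (Or.inl ⟨⟨(tp h e, u), hu⟩, ht.symm, by rw [ht]; exact hlt, hfl _ k⟩)
    · exact Or.inl (Or.inl ⟨⟨(tp h e, u), hu⟩, rfl, hlt, k⟩)
  · rcases zmod2_cases (r e m) with k | k
    · exact Or.inr (Or.inr ⟨m, hm, hfl _ k, by rw [ht]; exact hv⟩)
    · exact Or.inl (Or.inr ⟨m, hm, k, hv⟩)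

theorem tp_onFace (hσ : ∀ d, (σ d).fst = d.fst) {f e : G.Dart}
    (hf : (faceNext σ).SameCycle f e) : tp h e ∈ onFace σ f := by
  rcases tp_or (h := h) e with k | k
  · rw [k]
    exact fst_mem_onFace hf
  · rw [k]
    exact snd_mem_onFace hσ hf

/-- **the mountain pass** -/
theorem pass [Finite V] (hP : MP G σ h s M) (hp : Up G (fun v => - h v) s p)
    (hr : ∀ e, Side σ p s e (r e)) {m₁ m₂ : G.Dart} (h1 : m₁ ∈ M) (h2 : m₂ ∈ M)
    (h12 : ¬ (faceNext σ).SameCycle m₁ m₂) :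
    (∃ e, ¬ Tr p s e ∧ r e m₁ = 1 ∧ r e m₂ = 0 ∧ Hm σ h r M e ∧ Hm σ h r M e.symm) ∨
    ∃ e b, ¬ Tr p s e ∧ ¬ Tr p s b ∧ (faceNext σ).SameCycle e.symm b ∧ b ≠ e.symm ∧
      r e m₁ = 1 ∧ r b m₂ = 0 ∧ Hm σ h r M e ∧ Hm σ h r M b.symm := by
  classical
  have := Fintype.ofFinite V
  have hc := hP.conn
  have hσ := hP.plane
  let E : Set G.Dart := {e | ¬ Tr p s e ∧ r e m₁ = 1 ∧ r e m₂ = 0 ∧ Hm σ h r M e}
  have hE : E.Nonempty := by
    obtain ⟨b, hb1, hb2, hb3⟩ := side_next hc hσ hp hr h12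
    have hb4 : r b m₁ = 1 := by rw [face_const (hr b).inv hb2, (hr b).one]
    exact ⟨b, hb1, hb4, hb3, Or.inr ⟨m₁, h1, hb4, tp_onFace hσ.fst hb2⟩⟩
  obtain ⟨e, ⟨he1, he2, he3, he4⟩, hmax⟩ := Set.exists_max_image E
    (fun e => (Finset.univ.filter fun d => r e d = 1).card) (Set.toFinite _) hE
  by_cases hs : Hm σ h r M e.symm
  · exact Or.inl ⟨e, he1, he2, he3, he4, hs⟩
  right
  have hfl := side_flip hc hσ hp hr he1
  have h3 : ¬ (faceNext σ).SameCycle e.symm m₂ := fun k => hs (Or.inr ⟨m₂, h2, by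
    rw [hfl, he3, add_zero], tp_onFace hσ.fst k.symm |> fun k' => k'⟩)
  obtain ⟨b, hb1, hb2, hb3⟩ := side_next hc hσ hp hr h3
  have hne : b ≠ e.symm := by
    rintro rfl
    rw [hfl, he3, add_zero] at hb3
    exact absurd hb3 (by decide)
  have hsub : ∀ d, r e d = 1 → r b d = 1 := fun d hd =>
    side_nested hc hσ hp hr he1 hb1 hb2 hne hd
  have hbH : ¬ Hm σ h r M b := by
    intro k
    have h4 := hmax b ⟨hb1, hsub _ he2, hb3, k⟩
    refine absurd h4 (not_le.2 (Finset.card_lt_card ⟨fun d hd => ?_, fun hc' => ?_⟩))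
    · rw [Finset.mem_filter] at hd ⊢
      exact ⟨hd.1, hsub _ hd.2⟩
    · have h5 := hc' (Finset.mem_filter.2 ⟨Finset.mem_univ b, (hr b).one⟩)
      rw [Finset.mem_filter] at h5
      have h6 : r e b = 0 := by rw [← face_const (hr e).inv hb2, side_symm hr he1]
      rw [h6] at h5
      exact absurd h5.2 (by decide)
  exact ⟨e, b, he1, hb1, hb2, hne, he2, hb3, he4, (Hm_or hP hp hr hb1).resolve_left hbH⟩

/-- the vertices of a set of faces -/
def vs (D : Set G.Dart) : Set V := {v | ∃ d ∈ D, d.fst = v}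

/-- `D` is a set of faces, `C` a set of vertices closed under `p` which separates `D` from the rest,
`M'` is a set of marked faces of `D` which serves all local maxima -/
structure PD (σ : Equiv.Perm G.Dart) (h : V → ℝ) (s : V) (p : V → V) (M : Set G.Dart)
    (D : Set G.Dart) (C : Set V) (M' : Finset G.Dart) : Prop where
  face : ∀ d, faceNext σ d ∈ D ↔ d ∈ D
  root : s ∈ C
  down : ∀ v ∈ C, v ≠ s → p v ∈ C
  off : ∀ d : G.Dart, d.fst ∉ C → (d.symm ∈ D ↔ d ∈ D)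
  marks : ∀ m ∈ M', m ∈ D
  old : ∀ m ∈ M, m ∈ D → m ∈ M'
  top : ∀ v ∈ C, (∃ w, w ∈ C ∪ vs D ∧ G.Adj v w ∧ h v < h w) ∨ ∃ m ∈ M', v ∈ onFace σ m
  ne : M'.Nonempty

theorem PD.mem_of_same {D : Set G.Dart} {C : Set V} {M' : Finset G.Dart}
    (hD : PD σ h s p M D C M') {d d' : G.Dart} (h1 : (faceNext σ).SameCycle d d') :
    d ∈ D ↔ d' ∈ D := by
  have h2 := face_const (g := fun d => (d ∈ D : Prop)) (fun d => propext (hD.face d)) h1
  exact iff_of_eq h2

theorem PD.all_at [Finite V] (hσ : PlaneMap G σ) {D : Set G.Dart} {C : Set V}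
    {M' : Finset G.Dart} (hD : PD σ h s p M D C M') {v : V} (hv : v ∉ C) (hv' : v ∈ vs D)
    {d : G.Dart} (hd : d.fst = v) : d ∈ D := by
  obtain ⟨d', hd', hd'v⟩ := hv'
  have h2 := const_at hσ (g := fun d => (d ∈ D : Prop)) (fun d => propext (hD.face d))
    (v := v) (fun d hd => propext (hD.off d (hd ▸ hv))) hd hd'v
  exact (iff_of_eq h2).2 hd'

theorem PD.snd_mem (hσ : PlaneMap G σ) {D : Set G.Dart} {C : Set V} {M' : Finset G.Dart}
    (hD : PD σ h s p M D C M') {d : G.Dart} (hd : d ∈ D) : d.snd ∈ vs D :=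
  ⟨faceNext σ d, (hD.face d).2 hd, faceNext_fst hσ.fst d⟩

/-- the induced plane map of a piece -/
theorem PD.mp [Finite V] (hInd : RowInd) (hP : MP G σ h s M)
    (hp : Up G (fun v => - h v) s p) {D : Set G.Dart} {C : Set V} {M' : Finset G.Dart}
    (hD : PD σ h s p M D C M') :
    ∃ (σ' : Equiv.Perm (G.induce (C ∪ vs D)).Dart) (M'' : Finset (G.induce (C ∪ vs D)).Dart),
      MP (G.induce (C ∪ vs D)) σ' (fun v => h v.1) ⟨s, Or.inl hD.root⟩
        (M'' : Set (G.induce (C ∪ vs D)).Dart) ∧ M''.Nonempty ∧ M''.card ≤ M'.card := by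
  classical
  have hσ := hP.plane
  have hpS : ∀ v ∈ C ∪ vs D, v ≠ s → p v ∈ C ∪ vs D := by
    intro v hv hvs
    by_cases hC : v ∈ C
    · exact Or.inl (hD.down v hC hvs)
    · have h1 : v ∈ vs D := hv.resolve_left hC
      exact Or.inr (hD.snd_mem hσ (hD.all_at hσ hC h1 (d := ⟨(v, p v), (hp v hvs).1⟩) rfl))
  have hconn : (G.induce (C ∪ vs D)).Connected := by
    have key : ∀ v (hv : v ∈ C ∪ vs D), (G.induce (C ∪ vs D)).Reachable ⟨v, hv⟩
        ⟨s, Or.inl hD.root⟩ := by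
      intro v
      induction v using (wf_up (fun v => - h v)).induction with
      | _ v ih =>
        intro hv
        by_cases hvs : v = s
        · subst hvs
          exact Reachable.refl _
        · have h1 : (G.induce (C ∪ vs D)).Adj ⟨v, hv⟩ ⟨p v, hpS v hv hvs⟩ := (hp v hvs).1
          exact h1.reachable.trans (ih (p v) (hp v hvs).2 (hpS v hv hvs))
    rw [connected_iff]
    exact ⟨fun a b => (key a.1 a.2).trans (key b.1 b.2).symm, ⟨⟨s, Or.inl hD.root⟩⟩⟩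
  obtain ⟨m0, hm0⟩ := hD.ne
  have hne : Nonempty (G.induce (C ∪ vs D)).Dart :=
    ⟨⟨(⟨m0.fst, Or.inr ⟨m0, hD.marks _ hm0, rfl⟩⟩, ⟨m0.snd, Or.inr (hD.snd_mem hσ
      (hD.marks _ hm0))⟩), m0.adj⟩⟩
  obtain ⟨σ', hσ', hface⟩ := hInd V G σ (C ∪ vs D) hP.conn hσ hconn hne
  have hsub : ∀ m ∈ M', onFace σ m ⊆ C ∪ vs D := by
    rintro m hm v ⟨d', h1, rfl⟩
    exact Or.inr ⟨d', (hD.mem_of_same h1).1 (hD.marks m hm), rfl⟩
  choose F hF using fun m : {m // m ∈ M'} => hface m.1 (hsub m.1 m.2)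
  refine ⟨σ', M'.attach.image F, ⟨hconn, hσ', fun u v huv => hP.ne u.1 v.1 huv, ?_, ?_⟩, ?_, ?_⟩
  · rintro ⟨v, hv⟩ hvs
    have hvs' : v ≠ s := fun k => hvs (Subtype.ext k)
    refine ⟨⟨p v, hpS v hv hvs'⟩, (hp v hvs').1, ?_⟩
    have := (hp v hvs').2
    show h (p v) < h v
    linarith
  · rintro ⟨v, hv⟩
    have mk : ∀ m ∈ M', v ∈ onFace σ m → ∃ m' ∈ (M'.attach.image F : Finset _),
        (⟨v, hv⟩ : (C ∪ vs D : Set V)) ∈ onFace σ' m' := fun m hm hvm =>
      ⟨F ⟨m, hm⟩, Finset.mem_image_of_mem F (Finset.mem_attach _ _), hF ⟨m, hm⟩ ⟨v, hv⟩ hvm⟩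
    by_cases hC : v ∈ C
    · rcases hD.top v hC with ⟨w, hw, h1, h2⟩ | ⟨m, hm, h1⟩
      · exact Or.inl ⟨⟨w, hw⟩, h1, h2⟩
      · exact Or.inr (by simpa using mk m hm h1)
    · have h1 : v ∈ vs D := hv.resolve_left hC
      rcases hP.high v with ⟨w, h2, h3⟩ | ⟨m, hm, d', h2, h3⟩
      · refine Or.inl ⟨⟨w, Or.inr (hD.snd_mem hσ (hD.all_at hσ hC h1
          (d := ⟨(v, w), h2⟩) rfl))⟩, h2, h3⟩
      · have h4 : m ∈ D := (hD.mem_of_same h2).2 (hD.all_at hσ hC h1 h3)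
        exact Or.inr (by simpa using mk m (hD.old m hm h4) ⟨d', h2, h3⟩)
  · exact ⟨F ⟨m0, hm0⟩, Finset.mem_image_of_mem F (Finset.mem_attach _ _)⟩
  · exact Finset.card_image_le.trans (by rw [Finset.card_attach])

end Vale.Agent.P235.H341W
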