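import Vale.Agent.P235.R2.H341.W5
import Vale.Agent.P235.Comp.Core

/-!
The pieces of a cut along one or two non-tree edges (helper341).
-/

set_option linter.unusedSectionVars false
set_option linter.unusedDecidableInType false
set_option linter.unusedFintypeInType false

namespace Vale.Agent.P235.H341W

open SimpleGraph Finset

variable {V : Type} {G : SimpleGraph V} {σ : Equiv.Perm G.Dart} {h : V → ℝ} {s : V} {p : V → V}
variable {r : G.Dart → G.Dart → ZMod 2} {M : Finset G.Dart}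

/-- a chain vertex which is not its start has a higher neighbour in the chain -/
theorem chain_up (hp : Up G (fun v => - h v) s p) {a v : V} (hv : Orb p s a v) :
    v = a ∨ ∃ w, Orb p s a w ∧ G.Adj v w ∧ h v < h w := by
  rcases Relation.ReflTransGen.cases_tail hv with h1 | ⟨w, h1, hw, rfl⟩
  · exact Or.inl h1
  · have h2 := hp w hw
    exact Or.inr ⟨w, h1, h2.1.symm, by linarith [h2.2]⟩

theorem ch_flip (e : G.Dart) : Ch p s e.symm = Ch p s e := by
  ext v
  exact Or.comm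

theorem ch_root [Finite V] (hp : Up G (fun v => - h v) s p) (e : G.Dart) : s ∈ Ch p s e :=
  Or.inl (orb_top hp _)

theorem ch_down {e : G.Dart} {v : V} (hv : v ∈ Ch p s e) (hvs : v ≠ s) : p v ∈ Ch p s e := by
  rcases hv with h1 | h1
  · exact Or.inl (orb_snoc hvs h1)
  · exact Or.inr (orb_snoc hvs h1)

/-- a vertex of the two chains is the top of the dart or has a higher neighbour in the chains -/
theorem ch_up (hne : ∀ u v, G.Adj u v → h u ≠ h v) (hp : Up G (fun v => - h v) s p) {e : G.Dart}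
    {v : V} (hv : v ∈ Ch p s e) :
    v = tp h e ∨ ∃ w, w ∈ Ch p s e ∧ G.Adj v w ∧ h v < h w := by
  rcases hv with h1 | h1
  · rcases chain_up hp h1 with h2 | ⟨w, h2, h3, h4⟩
    · by_cases k : h e.fst < h e.snd
      · right
        rw [h2]
        exact ⟨e.snd, Or.inr Relation.ReflTransGen.refl, e.adj, k⟩
      · left
        rw [tp_neg k, h2]
    · exact Or.inr ⟨w, Or.inl h2, h3, h4⟩
  · rcases chain_up hp h1 with h2 | ⟨w, h2, h3, h4⟩
    · by_cases k : h e.fst < h e.snd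
      · left
        rw [tp_pos k, h2]
      · right
        rw [h2]
        exact ⟨e.fst, Or.inl Relation.ReflTransGen.refl, e.adj.symm,
          lt_of_le_of_ne (not_lt.1 k) (hne _ _ e.adj.symm)⟩
    · exact Or.inr ⟨w, Or.inr h2, h3, h4⟩

/-- off the chains the side does not change across a dart -/
theorem side_off (hr : ∀ e, Side σ p s e (r e)) {e d : G.Dart} (hd : d.fst ∉ Ch p s e) :
    r e d.symm = r e d := by
  have h1 : CC p s e d = 0 := by
    by_contra k
    exact hd (CC_mem k)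
  have h2 := (hr e).bd d
  rw [h1] at h2
  exact (CharTwo.add_eq_zero.1 h2).symm

open Classical in
/-- the piece of a harmless side -/
theorem pd_side [Finite V] (hP : MP G σ h s (M : Set G.Dart)) (hp : Up G (fun v => - h v) s p)
    (hr : ∀ e, Side σ p s e (r e)) {e m : G.Dart} (hm : m ∈ M) (hem : r e m = 1)
    (hH : Hm σ h r (M : Set G.Dart) e) :
    PD σ h s p (M : Set G.Dart) {d | r e d = 1} (Ch p s e) (M.filter fun m => r e m = 1) where
  face d := by
    show r e _ = 1 ↔ r e d = 1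
    rw [(hr e).inv]
  root := ch_root hp e
  down v hv hvs := ch_down hv hvs
  off d hd := by
    show r e _ = 1 ↔ r e d = 1
    rw [side_off hr hd]
  marks m hm := (Finset.mem_filter.1 hm).2
  old m hm hmD := Finset.mem_filter.2 ⟨hm, hmD⟩
  top v hv := by
    rcases ch_up hP.ne hp hv with rfl | ⟨w, h1, h2, h3⟩
    · rcases hH with ⟨d, h1, h2, h3⟩ | ⟨m', h1, h2, h3⟩
      · refine Or.inl ⟨d.snd, Or.inr ⟨faceNext σ d, ?_, faceNext_fst hP.plane.fst d⟩, ?_, h2⟩
        · show r e _ = 1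
          rw [(hr e).inv]
          exact h3
        · rw [← h1]
          exact d.adj
      · exact Or.inr ⟨m', Finset.mem_filter.2 ⟨h1, h2⟩, h3⟩
    · exact Or.inl ⟨w, Or.inl h1, h2, h3⟩
  ne := ⟨m, Finset.mem_filter.2 ⟨hm, hem⟩⟩

open Classical in
/-- the middle piece -/
theorem pd_mid [Finite V] (hP : MP G σ h s (M : Set G.Dart)) (hp : Up G (fun v => - h v) s p)
    (hr : ∀ e, Side σ p s e (r e)) {e b : G.Dart} (he : ¬ Tr p s e)
    (hb : (faceNext σ).SameCycle e.symm b) :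
    PD σ h s p (M : Set G.Dart) {d | r e d = 0 ∧ r b d = 1} (Ch p s e ∪ Ch p s b)
      (insert b (M.filter fun m => r e m = 0 ∧ r b m = 1)) where
  face d := by
    show (r e _ = 0 ∧ r b _ = 1) ↔ (r e d = 0 ∧ r b d = 1)
    rw [(hr e).inv, (hr b).inv]
  root := Or.inl (ch_root hp e)
  down v hv hvs := hv.imp (fun k => ch_down k hvs) (fun k => ch_down k hvs)
  off d hd := by
    show (r e _ = 0 ∧ r b _ = 1) ↔ (r e d = 0 ∧ r b d = 1)
    rw [side_off hr (fun k => hd (Or.inl k)), side_off hr (fun k => hd (Or.inr k))]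
  marks m hm := by
    rcases Finset.mem_insert.1 hm with rfl | h1
    · exact ⟨by rw [← face_const (hr e).inv hb, side_symm hr he], (hr m).one⟩
    · exact (Finset.mem_filter.1 h1).2
  old m hm hmD := Finset.mem_insert_of_mem (Finset.mem_filter.2 ⟨hm, hmD⟩)
  top v hv := by
    rcases hv with hv | hv
    · rcases ch_up hP.ne hp hv with rfl | ⟨w, h1, h2, h3⟩
      · refine Or.inr ⟨b, Finset.mem_insert_self _ _, ?_⟩
        rw [← tp_symm (h := h) (hP.ne _ _ e.adj)]
        exact tp_onFace hP.plane.fst hb.symm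
      · exact Or.inl ⟨w, Or.inl (Or.inl h1), h2, h3⟩
    · rcases ch_up hP.ne hp hv with rfl | ⟨w, h1, h2, h3⟩
      · exact Or.inr ⟨b, Finset.mem_insert_self _ _,
          tp_onFace hP.plane.fst (Equiv.Perm.SameCycle.refl _ _)⟩
      · exact Or.inl ⟨w, Or.inl (Or.inr h1), h2, h3⟩
  ne := ⟨b, Finset.mem_insert_self _ _⟩

/-- the statement of the decomposition for one plane map -/
def Dec {V : Type} (G : SimpleGraph V) (h : V → ℝ) (γ : ℕ) : Prop :=
  ∃ Ls : List (Set V), Ls.length + 4 ≤ 4 * γ ∧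
    (∀ L ∈ Ls, L.Nonempty ∧ ∀ a ∈ L, ∀ b ∈ L, Desc G h a b ∨ Desc G h b a) ∧
    ∀ u, u ∉ lanesSet Ls → ∃ (W : Type) (_ : Finite W) (G' : SimpleGraph W) (ι : W → V),
      Function.Injective ι ∧ (∀ a b, G'.Adj a b ↔ G.Adj (ι a) (ι b)) ∧
      compSet G (lanesSet Ls) u ⊆ Set.range ι ∧ Leaf1 G' (h ∘ ι)

theorem desc_map {S : Set V} {a b : S} (hab : Desc (G.induce S) (fun v => h v.1) a b) :
    Desc G h a.1 b.1 := by
  induction hab with
  | refl => exact Relation.ReflTransGen.refl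
  | tail _ h2 ih => exact ih.tail ⟨h2.1, h2.2⟩

theorem orb_desc (hp : Up G (fun v => - h v) s p) {a b : V} (hab : Orb p s a b) :
    Desc G h a b := by
  induction hab with
  | refl => exact Relation.ReflTransGen.refl
  | @tail x y _ h2 ih =>
    obtain ⟨hx, rfl⟩ := h2
    exact ih.tail ⟨(hp x hx).1, by linarith [(hp x hx).2]⟩

theorem orb_lane (hp : Up G (fun v => - h v) s p) (a : V) :
    {v | Orb p s a v}.Nonempty ∧ ∀ x ∈ {v | Orb p s a v}, ∀ y ∈ {v | Orb p s a v},
      Desc G h x y ∨ Desc G h y x := by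
  refine ⟨⟨a, Relation.ReflTransGen.refl⟩, fun x hx y hy => ?_⟩
  exact (Orb.total hx hy).imp (orb_desc hp) (orb_desc hp)

/-- what a piece contributes -/
theorem PD.dec [Finite V] (hInd : RowInd) (hP : MP G σ h s (M : Set G.Dart))
    (hp : Up G (fun v => - h v) s p) {D : Set G.Dart} {C : Set V} {M' : Finset G.Dart}
    (hD : PD σ h s p (M : Set G.Dart) D C M')
    (ih : ∀ (V : Type) [Finite V] (G : SimpleGraph V) (σ : Equiv.Perm G.Dart) (h : V → ℝ) (s : V)
      (N : Finset G.Dart), MP G σ h s (N : Set G.Dart) → N.Nonempty → N.card ≤ M'.card →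
      Dec G h M'.card) :
    ∃ Ls : List (Set V), Ls.length + 4 ≤ 4 * M'.card ∧
      (∀ L ∈ Ls, L.Nonempty ∧ ∀ a ∈ L, ∀ b ∈ L, Desc G h a b ∨ Desc G h b a) ∧
      ∀ X : Set V, C ⊆ X → lanesSet Ls ⊆ X → ∀ u, u ∉ X → u ∈ vs D →
        ∃ (W : Type) (_ : Finite W) (G' : SimpleGraph W) (ι : W → V),
        Function.Injective ι ∧ (∀ a b, G'.Adj a b ↔ G.Adj (ι a) (ι b)) ∧
        compSet G X u ⊆ Set.range ι ∧ Leaf1 G' (h ∘ ι) := by
  have hσ := hP.plane
  obtain ⟨σ', N, hN, hNne, hNc⟩ := hD.mp hInd hP hp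
  obtain ⟨Ls, h1, h2, h3⟩ := ih _ _ _ _ _ N hN hNne hNc
  refine ⟨Ls.map fun L => Subtype.val '' L, by rw [List.length_map]; exact h1, ?_, ?_⟩
  · intro L hL
    obtain ⟨L', hL', rfl⟩ := List.mem_map.1 hL
    obtain ⟨k1, k2⟩ := h2 L' hL'
    refine ⟨k1.image _, ?_⟩
    rintro _ ⟨a, ha, rfl⟩ _ ⟨b, hb, rfl⟩
    exact (k2 a ha b hb).imp desc_map desc_map
  · intro X hCX hLX u hu huD
    have hXL : ∀ v (hv : v ∈ C ∪ vs D), v ∉ X → (⟨v, hv⟩ : (C ∪ vs D : Set V)) ∉ lanesSet Ls := by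
      rintro v hv hvX ⟨L, hL, hvL⟩
      exact hvX (hLX ⟨_, List.mem_map_of_mem hL, ⟨_, hvL, rfl⟩⟩)
    have step : ∀ v ∈ vs D, v ∉ X → ∀ w, G.Adj v w → w ∈ vs D := fun v hv hvX w hvw =>
      hD.snd_mem hσ (hD.all_at hσ (fun k => hvX (hCX k)) hv (d := ⟨(v, w), hvw⟩) rfl)
    have key : ∀ (a b : V) (w : G.Walk a b), (∀ x ∈ w.support, x ∉ X) → ∀ ha : a ∈ vs D,
        ∃ hb : b ∈ vs D, ReachOff (G.induce (C ∪ vs D)) (lanesSet Ls) ⟨a, Or.inr ha⟩
          ⟨b, Or.inr hb⟩ := by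
      intro a b w
      induction w with
      | nil =>
        intro hw ha
        exact ⟨ha, ReachOff.refl (hXL _ _ (hw _ (by simp)))⟩
      | @cons a c b hac w ihw =>
        intro hw ha
        rw [Walk.support_cons] at hw
        have haX : a ∉ X := hw a List.mem_cons_self
        have hcX : c ∉ X := hw c (List.mem_cons_of_mem _ w.start_mem_support)
        have hc := step a ha haX c hac
        obtain ⟨hb, hr⟩ := ihw (fun x hx => hw x (List.mem_cons_of_mem _ hx)) hc
        refine ⟨hb, (ReachOff.adj (hXL a (Or.inr ha) haX) (hXL c (Or.inr hc) hcX) ?_).trans hr⟩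
        exact hac
    obtain ⟨W, hW, G', ι, k1, k2, k3, k4⟩ := h3 ⟨u, Or.inr huD⟩ (hXL _ _ hu)
    refine ⟨W, hW, G', fun w => (ι w).1, fun a b hab => k1 (Subtype.ext hab), fun a b => k2 a b,
      ?_, k4⟩
    rintro v ⟨w, hw⟩
    obtain ⟨hv, hr⟩ := key _ _ w hw huD
    obtain ⟨x, hx⟩ := k3 hr
    exact ⟨x, congrArg Subtype.val hx⟩

end Vale.Agent.P235.H341W
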