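import Vale.Agent.P235.R2.H341.W6

/-!
`RowMP` (helper341).
-/

set_option linter.unusedSectionVars false
set_option linter.unusedDecidableInType false
set_option linter.unusedFintypeInType false

namespace Vale.Agent.P235.H341W

open SimpleGraph Finset

theorem lanesSet_append {V : Type} (A B : List (Set V)) :
    lanesSet (A ++ B) = lanesSet A ∪ lanesSet B := by
  ext v
  constructor
  · rintro ⟨L, hL, hv⟩
    rcases List.mem_append.1 hL with k | k
    · exact Or.inl ⟨L, k, hv⟩
    · exact Or.inr ⟨L, k, hv⟩
  · rintro (⟨L, hL, hv⟩ | ⟨L, hL, hv⟩)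
    · exact ⟨L, List.mem_append_left _ hL, hv⟩
    · exact ⟨L, List.mem_append_right _ hL, hv⟩

/-- the two chains of a dart as lanes -/
def chL {V : Type} {G : SimpleGraph V} (p : V → V) (s : V) (e : G.Dart) : List (Set V) :=
  [{v | Orb p s e.fst v}, {v | Orb p s e.snd v}]

theorem lanesSet_chL {V : Type} {G : SimpleGraph V} {p : V → V} {s : V} {e : G.Dart} :
    lanesSet (chL p s e) = Ch p s e := by
  ext v
  constructor
  · rintro ⟨L, hL, hv⟩
    rcases List.mem_cons.1 hL with rfl | hL
    · exact Or.inl hv
    · rw [List.mem_singleton] at hL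
      subst hL
      exact Or.inr hv
  · rintro (hv | hv)
    · exact ⟨_, List.mem_cons_self, hv⟩
    · exact ⟨_, List.mem_cons_of_mem _ List.mem_cons_self, hv⟩

theorem chL_ok {V : Type} {G : SimpleGraph V} {h : V → ℝ} {p : V → V} {s : V}
    (hp : Up G (fun v => - h v) s p) {e : G.Dart} (L : Set V) (hL : L ∈ chL p s e) :
    L.Nonempty ∧ ∀ a ∈ L, ∀ b ∈ L, Desc G h a b ∨ Desc G h b a := by
  rcases List.mem_cons.1 hL with rfl | hL
  · exact orb_lane hp _
  · rw [List.mem_singleton] at hL
    subst hL
    exact orb_lane hp _

theorem dec_of (hInd : RowInd) (γ : ℕ) : ∀ (V : Type) [Finite V] (G : SimpleGraph V)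
    (σ : Equiv.Perm G.Dart) (h : V → ℝ) (s : V) (M : Finset G.Dart),
    MP G σ h s (M : Set G.Dart) → M.Nonempty → M.card ≤ γ → Dec G h γ := by
  classical
  induction γ using Nat.strong_induction_on with
  | _ γ ih =>
    intro V _ G σ h s M hP hM hMc
    by_cases hsame : ∀ m₁ ∈ M, ∀ m₂ ∈ M, (faceNext σ).SameCycle m₁ m₂
    · -- one face
      obtain ⟨m, hm⟩ := hM
      have h1 : 0 < M.card := Finset.card_pos.2 ⟨m, hm⟩
      refine ⟨[], by simp; omega, by simp, fun u _ => ⟨V, inferInstance, G, id,
        Function.injective_id, fun a b => Iff.rfl, fun v _ => ⟨v, rfl⟩, σ, s, m, hP.conn,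
        hP.plane, hP.ne, hP.low, fun v => ?_⟩⟩
      rcases hP.high v with k | ⟨m', hm', d', k1, k2⟩
      · exact Or.inl k
      · exact Or.inr ⟨m, rfl, d', (hsame m hm m' hm').trans k1, k2⟩
    push Not at hsame
    obtain ⟨m₁, hm₁, m₂, hm₂, h12⟩ := hsame
    -- the tree
    have hp0 : ∀ v, ∃ u, v ≠ s → G.Adj v u ∧ - h v < - h u := by
      intro v
      by_cases hv : v = s
      · exact ⟨v, fun k => absurd hv k⟩
      · obtain ⟨u, h1, h2⟩ := hP.low v hv
        exact ⟨u, fun _ => ⟨h1, by linarith⟩⟩
    choose p hp' using hp0
    have hp : Up G (fun v => - h v) s p := fun v hv => hp' v hv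
    choose r hr using fun e => exists_side hP.conn hP.plane hp e
    have hdart : ∀ u, u ≠ s → ∃ d : G.Dart, d.fst = u := fun u hu => ⟨⟨(u, p u), (hp u hu).1⟩, rfl⟩
    rcases pass hP hp hr (M := (M : Set G.Dart)) hm₁ hm₂ h12 with
      ⟨e, he, e1, e2, e3, e4⟩ | ⟨e, b, he, hb, heb, hne, e1, e2, e3, e4⟩
    · -- one cut
      have hfl := side_flip hP.conn hP.plane hp hr he
      have D1 := pd_side hP hp hr hm₁ e1 e3
      have D2 := pd_side hP hp hr hm₂ (e := e.symm) (by rw [hfl, e2, add_zero]) e4
      have hcard : (M.filter fun m => r e m = 1).card + (M.filter fun m => r e.symm m = 1).card ≤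
          M.card := by
        rw [← Finset.card_union_of_disjoint]
        · exact Finset.card_le_card (Finset.union_subset (Finset.filter_subset _ _)
            (Finset.filter_subset _ _))
        · rw [Finset.disjoint_filter]
          intro m _ k1 k2
          rw [hfl, k1] at k2
          exact absurd k2 (by decide)
      have c1 := Finset.card_pos.2 D1.ne
      have c2 := Finset.card_pos.2 D2.ne
      obtain ⟨L1, a1, a2, a3⟩ := D1.dec hInd hP hp fun V _ G σ h s N k1 k2 k3 =>
        ih _ (by omega) V G σ h s N k1 k2 k3
      obtain ⟨L2, b1, b2, b3⟩ := D2.dec hInd hP hp fun V _ G σ h s N k1 k2 k3 =>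
        ih _ (by omega) V G σ h s N k1 k2 k3
      refine ⟨chL p s e ++ (L1 ++ L2), ?_, ?_, ?_⟩
      · rw [List.length_append, List.length_append]
        show 2 + _ + 4 ≤ _
        omega
      · intro L hL
        rcases List.mem_append.1 hL with k | k
        · exact chL_ok hp L k
        · rcases List.mem_append.1 k with k | k
          · exact a2 L k
          · exact b2 L k
      · intro u hu
        rw [lanesSet_append, lanesSet_append, lanesSet_chL] at hu ⊢
        have hus : u ≠ s := by
          rintro rfl
          exact hu (Or.inl (ch_root hp e))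
        obtain ⟨d, rfl⟩ := hdart u hus
        rcases zmod2_cases (r e d) with k | k
        · exact b3 _ (by rw [ch_flip]; exact Set.subset_union_left)
            (fun v hv => Or.inr (Or.inr hv)) _ hu ⟨d, by
              show r e.symm d = 1
              rw [hfl, k, add_zero], rfl⟩
        · exact a3 _ Set.subset_union_left (fun v hv => Or.inr (Or.inl hv)) _ hu ⟨d, k, rfl⟩
    · -- two cuts
      have hfl := side_flip hP.conn hP.plane hp hr he
      have hfb := side_flip hP.conn hP.plane hp hr hb
      have hsub : ∀ d, r e d = 1 → r b d = 1 := fun d hd =>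
        side_nested hP.conn hP.plane hp hr he hb heb hne hd
      have D1 := pd_side hP hp hr hm₁ e1 e3
      have D2 := pd_side hP hp hr hm₂ (e := b.symm) (by rw [hfb, e2, add_zero]) e4
      have D3 := pd_mid hP hp hr he heb
      have hcard : (M.filter fun m => r e m = 1).card + ((M.filter fun m => r b.symm m = 1).card +
          (M.filter fun m => r e m = 0 ∧ r b m = 1).card) ≤ M.card := by
        rw [← Finset.card_union_of_disjoint, ← Finset.card_union_of_disjoint]
        · exact Finset.card_le_card (Finset.union_subset (Finset.filter_subset _ _)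
            (Finset.union_subset (Finset.filter_subset _ _) (Finset.filter_subset _ _)))
        · rw [Finset.disjoint_left]
          intro m k1 k2
          rw [Finset.mem_filter] at k1
          rcases Finset.mem_union.1 k2 with k2 | k2
          · rw [Finset.mem_filter, hfb, hsub m k1.2] at k2
            exact absurd k2.2 (by decide)
          · rw [Finset.mem_filter, k1.2] at k2
            exact absurd k2.2.1 (by decide)
        · rw [Finset.disjoint_filter]
          intro m _ k1 k2
          rw [hfb, k2.2] at k1
          exact absurd k1 (by decide)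
      have c3 := Finset.card_insert_le b (M.filter fun m => r e m = 0 ∧ r b m = 1)
      have c1 := Finset.card_pos.2 D1.ne
      have c2 := Finset.card_pos.2 D2.ne
      obtain ⟨L1, a1, a2, a3⟩ := D1.dec hInd hP hp fun V _ G σ h s N k1 k2 k3 =>
        ih _ (by omega) V G σ h s N k1 k2 k3
      obtain ⟨L2, b1, b2, b3⟩ := D2.dec hInd hP hp fun V _ G σ h s N k1 k2 k3 =>
        ih _ (by omega) V G σ h s N k1 k2 k3
      obtain ⟨L3, d1, d2, d3⟩ := D3.dec hInd hP hp fun V _ G σ h s N k1 k2 k3 =>
        ih _ (by omega) V G σ h s N k1 k2 k3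
      refine ⟨(chL p s e ++ chL p s b) ++ (L1 ++ (L2 ++ L3)), ?_, ?_, ?_⟩
      · rw [List.length_append, List.length_append, List.length_append, List.length_append]
        show 2 + 2 + _ + 4 ≤ _
        omega
      · intro L hL
        rcases List.mem_append.1 hL with k | k
        · rcases List.mem_append.1 k with k | k
          · exact chL_ok hp L k
          · exact chL_ok hp L k
        · rcases List.mem_append.1 k with k | k
          · exact a2 L k
          · rcases List.mem_append.1 k with k | k
            · exact b2 L k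
            · exact d2 L k
      · intro u hu
        rw [lanesSet_append, lanesSet_append, lanesSet_append, lanesSet_append, lanesSet_chL,
          lanesSet_chL] at hu ⊢
        have hus : u ≠ s := by
          rintro rfl
          exact hu (Or.inl (Or.inl (ch_root hp e)))
        obtain ⟨d, rfl⟩ := hdart u hus
        rcases zmod2_cases (r e d) with k | k
        · rcases zmod2_cases (r b d) with k' | k'
          · exact b3 _ (by rw [ch_flip]; exact fun v hv => Or.inl (Or.inr hv))
              (fun v hv => Or.inr (Or.inr (Or.inl hv))) _ hu ⟨d, by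
                show r b.symm d = 1
                rw [hfb, k', add_zero], rfl⟩
          · exact d3 _ Set.subset_union_left (fun v hv => Or.inr (Or.inr (Or.inr hv))) _ hu
              ⟨d, ⟨k, k'⟩, rfl⟩
        · exact a3 _ (fun v hv => Or.inl (Or.inl hv)) (fun v hv => Or.inr (Or.inl hv)) _ hu
            ⟨d, k, rfl⟩

/-- **`RowMP`** -/
theorem rowMP_of (hInd : RowInd) : RowMP := fun γ V _ G σ h s M hP hM hMc =>
  dec_of hInd γ V G σ h s M hP hM hMc

end Vale.Agent.P235.H341W
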