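import Vale.Agent.P235.R2.H341.W7
import Vale.Agent.P235.R2.H418.Ind

/-!
`RowMP`, closed (helper341).
-/

namespace Vale.Agent.P235.H341W

/-- the decomposition -/
theorem rowMP : RowMP := rowMP_of rowInd

end Vale.Agent.P235.H341W
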