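import Vale.Agent.P235.R2.H341.W8

/-!
The decomposition with the chains of one given parent function as lanes (helper341).
-/

set_option linter.unusedSectionVars false
set_option linter.unusedDecidableInType false
set_option linter.unusedFintypeInType false

namespace Vale.Agent.P235.H341W

open SimpleGraph Finset

/-- the chains of the vertices of a list -/
def LS {V : Type} (p : V → V) (s : V) (A : List V) : Set V := {v | ∃ a ∈ A, Orb p s a v}

theorem LS_append {V : Type} {p : V → V} {s : V} (A B : List V) :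
    LS p s (A ++ B) = LS p s A ∪ LS p s B := by
  ext v
  constructor
  · rintro ⟨a, ha, hv⟩
    exact (List.mem_append.1 ha).imp (fun k => ⟨a, k, hv⟩) (fun k => ⟨a, k, hv⟩)
  · rintro (⟨a, ha, hv⟩ | ⟨a, ha, hv⟩)
    · exact ⟨a, List.mem_append_left _ ha, hv⟩
    · exact ⟨a, List.mem_append_right _ ha, hv⟩

theorem LS_pair {V : Type} {G : SimpleGraph V} {p : V → V} {s : V} (e : G.Dart) :
    LS p s [e.fst, e.snd] = Ch p s e := by
  ext v
  constructor
  · rintro ⟨a, ha, hv⟩
    rcases List.mem_cons.1 ha with rfl | ha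
    · exact Or.inl hv
    · rw [List.mem_singleton] at ha
      subst ha
      exact Or.inr hv
  · rintro (hv | hv)
    · exact ⟨_, List.mem_cons_self, hv⟩
    · exact ⟨_, List.mem_cons_of_mem _ List.mem_cons_self, hv⟩

open Classical in
/-- the parent function on a closed set -/
noncomputable def resP {V : Type} (S : Set V) (s : V) (p : V → V)
    (hS : ∀ v ∈ S, v ≠ s → p v ∈ S) : S → S :=
  fun x => if hx : x.1 = s then x else ⟨p x.1, hS x.1 x.2 hx⟩

theorem resP_val {V : Type} {S : Set V} {s : V} {p : V → V}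
    {hS : ∀ v ∈ S, v ≠ s → p v ∈ S} {x : S} (hx : x.1 ≠ s) : (resP S s p hS x).1 = p x.1 := by
  unfold resP
  rw [dif_neg hx]

theorem orb_res {V : Type} {S : Set V} {s : V} {p : V → V}
    {hS : ∀ v ∈ S, v ≠ s → p v ∈ S} (hs : s ∈ S) {a v : S}
    (h1 : Orb (resP S s p hS) ⟨s, hs⟩ a v) : Orb p s a.1 v.1 := by
  induction h1 with
  | refl => exact Relation.ReflTransGen.refl
  | @tail x y _ h2 ih =>
    obtain ⟨hx, rfl⟩ := h2
    have hx' : x.1 ≠ s := fun k => hx (Subtype.ext k)
    rw [resP_val hx']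
    exact ih.tail ⟨hx', rfl⟩

/-- **the decomposition**, the lanes are the chains of the given parent function `p` -/
def RowMPp : Prop :=
  ∀ (γ : ℕ) (V : Type) [Finite V] (G : SimpleGraph V) (σ : Equiv.Perm G.Dart) (h : V → ℝ) (s : V)
    (p : V → V) (M : Finset G.Dart), MP G σ h s (M : Set G.Dart) → M.Nonempty → M.card ≤ γ →
    (∀ v, v ≠ s → G.Adj v (p v) ∧ h (p v) < h v) →
    ∃ A : List V, A.length + 4 ≤ 4 * γ ∧
      ∀ u, u ∉ LS p s A → ∃ (W : Type) (_ : Finite W) (G' : SimpleGraph W) (ι : W → V),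
        Function.Injective ι ∧ (∀ a b, G'.Adj a b ↔ G.Adj (ι a) (ι b)) ∧
        compSet G (LS p s A) u ⊆ Set.range ι ∧ s ∈ Set.range ι ∧
        (∀ w, ι w ≠ s → p (ι w) ∈ Set.range ι) ∧ Leaf1 G' (h ∘ ι)

/-- the statement for one plane map -/
def DecP {V : Type} (G : SimpleGraph V) (h : V → ℝ) (s : V) (p : V → V) (γ : ℕ) : Prop :=
  ∃ A : List V, A.length + 4 ≤ 4 * γ ∧
    ∀ u, u ∉ LS p s A → ∃ (W : Type) (_ : Finite W) (G' : SimpleGraph W) (ι : W → V),
      Function.Injective ι ∧ (∀ a b, G'.Adj a b ↔ G.Adj (ι a) (ι b)) ∧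
      compSet G (LS p s A) u ⊆ Set.range ι ∧ s ∈ Set.range ι ∧
      (∀ w, ι w ≠ s → p (ι w) ∈ Set.range ι) ∧ Leaf1 G' (h ∘ ι)

section pieces

variable {V : Type} {G : SimpleGraph V} {σ : Equiv.Perm G.Dart} {h : V → ℝ} {s : V} {p : V → V}
variable {M : Finset G.Dart}

theorem PD.closed [Finite V] (hσ : PlaneMap G σ) (hp : Up G (fun v => - h v) s p)
    {D : Set G.Dart} {C : Set V} {M' : Finset G.Dart}
    (hD : PD σ h s p (M : Set G.Dart) D C M') : ∀ v ∈ C ∪ vs D, v ≠ s → p v ∈ C ∪ vs D := by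
  intro v hv hvs
  by_cases hC : v ∈ C
  · exact Or.inl (hD.down v hC hvs)
  · have h1 : v ∈ vs D := hv.resolve_left hC
    exact Or.inr (hD.snd_mem hσ (hD.all_at hσ hC h1 (d := ⟨(v, p v), (hp v hvs).1⟩) rfl))

/-- what a piece contributes -/
theorem PD.decP [Finite V] (hInd : RowInd) (hP : MP G σ h s (M : Set G.Dart))
    (hp : Up G (fun v => - h v) s p) {D : Set G.Dart} {C : Set V} {M' : Finset G.Dart}
    (hD : PD σ h s p (M : Set G.Dart) D C M')
    (ih : ∀ (V : Type) [Finite V] (G : SimpleGraph V) (σ : Equiv.Perm G.Dart) (h : V → ℝ) (s : V)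
      (p : V → V) (N : Finset G.Dart), MP G σ h s (N : Set G.Dart) → N.Nonempty →
      N.card ≤ M'.card → Up G (fun v => - h v) s p → DecP G h s p M'.card) :
    ∃ A : List V, A.length + 4 ≤ 4 * M'.card ∧
      ∀ X : Set V, C ⊆ X → LS p s A ⊆ X → ∀ u, u ∉ X → u ∈ vs D →
        ∃ (W : Type) (_ : Finite W) (G' : SimpleGraph W) (ι : W → V),
        Function.Injective ι ∧ (∀ a b, G'.Adj a b ↔ G.Adj (ι a) (ι b)) ∧
        compSet G X u ⊆ Set.range ι ∧ s ∈ Set.range ι ∧
        (∀ w, ι w ≠ s → p (ι w) ∈ Set.range ι) ∧ Leaf1 G' (h ∘ ι) := by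
  have hσ := hP.plane
  have hS := hD.closed hσ hp
  have hsS : s ∈ C ∪ vs D := Or.inl hD.root
  obtain ⟨σ', N, hN, hNne, hNc⟩ := hD.mp hInd hP hp
  have hp' : Up (G.induce (C ∪ vs D)) (fun v => - h v.1) ⟨s, hsS⟩
      (resP (C ∪ vs D) s p hS) := by
    intro v hv
    have hv' : v.1 ≠ s := fun k => hv (Subtype.ext k)
    have e1 := resP_val (hS := hS) hv'
    refine ⟨?_, ?_⟩
    · show G.Adj v.1 (resP (C ∪ vs D) s p hS v).1
      rw [e1]
      exact (hp v.1 hv').1
    · show - h v.1 < - h (resP (C ∪ vs D) s p hS v).1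
      rw [e1]
      exact (hp v.1 hv').2
  obtain ⟨A, h1, h3⟩ := ih _ _ _ _ _ _ N hN hNne hNc hp'
  refine ⟨A.map Subtype.val, by rw [List.length_map]; exact h1, ?_⟩
  intro X hCX hLX u hu huD
  have hXL : ∀ v (hv : v ∈ C ∪ vs D), v ∉ X →
      (⟨v, hv⟩ : (C ∪ vs D : Set V)) ∉ LS (resP (C ∪ vs D) s p hS) ⟨s, hsS⟩ A := by
    rintro v hv hvX ⟨a, ha, hva⟩
    exact hvX (hLX ⟨a.1, List.mem_map_of_mem ha, orb_res hsS hva⟩)
  have step : ∀ v ∈ vs D, v ∉ X → ∀ w, G.Adj v w → w ∈ vs D := fun v hv hvX w hvw =>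
    hD.snd_mem hσ (hD.all_at hσ (fun k => hvX (hCX k)) hv (d := ⟨(v, w), hvw⟩) rfl)
  have key : ∀ (a b : V) (w : G.Walk a b), (∀ x ∈ w.support, x ∉ X) → ∀ ha : a ∈ vs D,
      ∃ hb : b ∈ vs D, ReachOff (G.induce (C ∪ vs D)) (LS (resP (C ∪ vs D) s p hS) ⟨s, hsS⟩ A)
        ⟨a, Or.inr ha⟩ ⟨b, Or.inr hb⟩ := by
    intro a b w
    induction w with
    | nil =>
      intro hw ha
      exact ⟨ha, ReachOff.refl (hXL _ _ (hw _ (by simp)))⟩
    | @cons a c b hac w ihw =>
      intro hw ha
      rw [Walk.support_cons] at hw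
      have haX : a ∉ X := hw a List.mem_cons_self
      have hcX : c ∉ X := hw c (List.mem_cons_of_mem _ w.start_mem_support)
      have hc := step a ha haX c hac
      obtain ⟨hb, hr⟩ := ihw (fun x hx => hw x (List.mem_cons_of_mem _ hx)) hc
      refine ⟨hb, (ReachOff.adj (hXL a (Or.inr ha) haX) (hXL c (Or.inr hc) hcX) ?_).trans hr⟩
      exact hac
  obtain ⟨W, hW, G', ι, k1, k2, k3, ⟨w0, hw0⟩, k5, k6⟩ := h3 ⟨u, Or.inr huD⟩ (hXL _ _ hu)
  refine ⟨W, hW, G', fun w => (ι w).1, fun a b hab => k1 (Subtype.ext hab), fun a b => k2 a b,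
    ?_, ⟨w0, congrArg Subtype.val hw0⟩, ?_, k6⟩
  · rintro v ⟨w, hw⟩
    obtain ⟨hv, hr⟩ := key _ _ w hw huD
    obtain ⟨x, hx⟩ := k3 hr
    exact ⟨x, congrArg Subtype.val hx⟩
  · intro w hw
    obtain ⟨x, hx⟩ := k5 w (fun k => hw (congrArg Subtype.val k))
    refine ⟨x, ?_⟩
    have := congrArg Subtype.val hx
    rw [resP_val hw] at this
    exact this

end pieces

theorem decP_of (hInd : RowInd) (γ : ℕ) : ∀ (V : Type) [Finite V] (G : SimpleGraph V)
    (σ : Equiv.Perm G.Dart) (h : V → ℝ) (s : V) (p : V → V) (M : Finset G.Dart),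
    MP G σ h s (M : Set G.Dart) → M.Nonempty → M.card ≤ γ → Up G (fun v => - h v) s p →
    DecP G h s p γ := by
  classical
  induction γ using Nat.strong_induction_on with
  | _ γ ih =>
    intro V _ G σ h s p M hP hM hMc hp
    by_cases hsame : ∀ m₁ ∈ M, ∀ m₂ ∈ M, (faceNext σ).SameCycle m₁ m₂
    · -- one face
      obtain ⟨m, hm⟩ := hM
      have h1 : 0 < M.card := Finset.card_pos.2 ⟨m, hm⟩
      refine ⟨[], by simp; omega, fun u _ => ⟨V, inferInstance, G, id,
        Function.injective_id, fun a b => Iff.rfl, fun v _ => ⟨v, rfl⟩, ⟨s, rfl⟩,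
        fun w _ => ⟨_, rfl⟩, σ, s, m, hP.conn, hP.plane, hP.ne, hP.low, fun v => ?_⟩⟩
      rcases hP.high v with k | ⟨m', hm', d', k1, k2⟩
      · exact Or.inl k
      · exact Or.inr ⟨m, rfl, d', (hsame m hm m' hm').trans k1, k2⟩
    push Not at hsame
    obtain ⟨m₁, hm₁, m₂, hm₂, h12⟩ := hsame
    choose r hr using fun e => exists_side hP.conn hP.plane hp e
    have hdart : ∀ u, u ≠ s → ∃ d : G.Dart, d.fst = u := fun u hu => ⟨⟨(u, p u), (hp u hu).1⟩, rfl⟩
    rcases pass hP hp hr (M := (M : Set G.Dart)) hm₁ hm₂ h12 with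
      ⟨e, he, e1, e2, e3, e4⟩ | ⟨e, b, he, hb, heb, hne, e1, e2, e3, e4⟩
    · -- one cut
      have hfl := side_flip hP.conn hP.plane hp hr he
      have D1 := pd_side hP hp hr hm₁ e1 e3
      have D2 := pd_side hP hp hr hm₂ (e := e.symm) (by rw [hfl, e2, add_zero]) e4
      have hcard : (M.filter fun m => r e m = 1).card + (M.filter fun m => r e.symm m = 1).card ≤
          M.card := by
        rw [← Finset.card_union_of_disjoint]
        · exact Finset.card_le_card (Finset.union_subset (Finset.filter_subset _ _)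
            (Finset.filter_subset _ _))
        · rw [Finset.disjoint_filter]
          intro m _ k1 k2
          rw [hfl, k1] at k2
          exact absurd k2 (by decide)
      have c1 := Finset.card_pos.2 D1.ne
      have c2 := Finset.card_pos.2 D2.ne
      obtain ⟨L1, a1, a3⟩ := D1.decP hInd hP hp fun V _ G σ h s p N k1 k2 k3 k4 =>
        ih _ (by omega) V G σ h s p N k1 k2 k3 k4
      obtain ⟨L2, b1, b3⟩ := D2.decP hInd hP hp fun V _ G σ h s p N k1 k2 k3 k4 =>
        ih _ (by omega) V G σ h s p N k1 k2 k3 k4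
      refine ⟨[e.fst, e.snd] ++ (L1 ++ L2), ?_, ?_⟩
      · rw [List.length_append, List.length_append]
        show 2 + _ + 4 ≤ _
        omega
      · intro u hu
        rw [LS_append, LS_append, LS_pair] at hu ⊢
        have hus : u ≠ s := by
          rintro rfl
          exact hu (Or.inl (ch_root hp e))
        obtain ⟨d, rfl⟩ := hdart u hus
        rcases zmod2_cases (r e d) with k | k
        · exact b3 _ (by rw [ch_flip]; exact Set.subset_union_left)
            (fun v hv => Or.inr (Or.inr hv)) _ hu ⟨d, by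
              show r e.symm d = 1
              rw [hfl, k, add_zero], rfl⟩
        · exact a3 _ Set.subset_union_left (fun v hv => Or.inr (Or.inl hv)) _ hu ⟨d, k, rfl⟩
    · -- two cuts
      have hfl := side_flip hP.conn hP.plane hp hr he
      have hfb := side_flip hP.conn hP.plane hp hr hb
      have hsub : ∀ d, r e d = 1 → r b d = 1 := fun d hd =>
        side_nested hP.conn hP.plane hp hr he hb heb hne hd
      have D1 := pd_side hP hp hr hm₁ e1 e3
      have D2 := pd_side hP hp hr hm₂ (e := b.symm) (by rw [hfb, e2, add_zero]) e4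
      have D3 := pd_mid hP hp hr he heb
      have hcard : (M.filter fun m => r e m = 1).card + ((M.filter fun m => r b.symm m = 1).card +
          (M.filter fun m => r e m = 0 ∧ r b m = 1).card) ≤ M.card := by
        rw [← Finset.card_union_of_disjoint, ← Finset.card_union_of_disjoint]
        · exact Finset.card_le_card (Finset.union_subset (Finset.filter_subset _ _)
            (Finset.union_subset (Finset.filter_subset _ _) (Finset.filter_subset _ _)))
        · rw [Finset.disjoint_left]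
          intro m k1 k2
          rw [Finset.mem_filter] at k1
          rcases Finset.mem_union.1 k2 with k2 | k2
          · rw [Finset.mem_filter, hfb, hsub m k1.2] at k2
            exact absurd k2.2 (by decide)
          · rw [Finset.mem_filter, k1.2] at k2
            exact absurd k2.2.1 (by decide)
        · rw [Finset.disjoint_filter]
          intro m _ k1 k2
          rw [hfb, k2.2] at k1
          exact absurd k1 (by decide)
      have c3 := Finset.card_insert_le b (M.filter fun m => r e m = 0 ∧ r b m = 1)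
      have c1 := Finset.card_pos.2 D1.ne
      have c2 := Finset.card_pos.2 D2.ne
      obtain ⟨L1, a1, a3⟩ := D1.decP hInd hP hp fun V _ G σ h s p N k1 k2 k3 k4 =>
        ih _ (by omega) V G σ h s p N k1 k2 k3 k4
      obtain ⟨L2, b1, b3⟩ := D2.decP hInd hP hp fun V _ G σ h s p N k1 k2 k3 k4 =>
        ih _ (by omega) V G σ h s p N k1 k2 k3 k4
      obtain ⟨L3, d1, d3⟩ := D3.decP hInd hP hp fun V _ G σ h s p N k1 k2 k3 k4 =>
        ih _ (by omega) V G σ h s p N k1 k2 k3 k4
      refine ⟨([e.fst, e.snd] ++ [b.fst, b.snd]) ++ (L1 ++ (L2 ++ L3)), ?_, ?_⟩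
      · rw [List.length_append, List.length_append, List.length_append, List.length_append]
        show 2 + 2 + _ + 4 ≤ _
        omega
      · intro u hu
        rw [LS_append, LS_append, LS_append, LS_append, LS_pair, LS_pair] at hu ⊢
        have hus : u ≠ s := by
          rintro rfl
          exact hu (Or.inl (Or.inl (ch_root hp e)))
        obtain ⟨d, rfl⟩ := hdart u hus
        rcases zmod2_cases (r e d) with k | k
        · rcases zmod2_cases (r b d) with k' | k'
          · exact b3 _ (by rw [ch_flip]; exact fun v hv => Or.inl (Or.inr hv))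
              (fun v hv => Or.inr (Or.inr (Or.inl hv))) _ hu ⟨d, by
                show r b.symm d = 1
                rw [hfb, k', add_zero], rfl⟩
          · exact d3 _ Set.subset_union_left (fun v hv => Or.inr (Or.inr (Or.inr hv))) _ hu
              ⟨d, ⟨k, k'⟩, rfl⟩
        · exact a3 _ (fun v hv => Or.inl (Or.inl hv)) (fun v hv => Or.inr (Or.inl hv)) _ hu
            ⟨d, k, rfl⟩

/-- **`RowMPp`** -/
theorem rowMPp : RowMPp := fun γ V _ G σ h s p M hP hM hMc hp =>
  decP_of rowInd γ V G σ h s p M hP hM hMc fun v hv => ⟨(hp v hv).1, by linarith [(hp v hv).2]⟩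

end Vale.Agent.P235.H341W
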