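import Vale.Agent.P235.R2.H341.W5Defs

/-!
Subgraphs of plane maps, and plane maps with slack edges whose local maxima and slack edges lie on
few faces: the rows (helper341).
-/

namespace Vale.Agent.P235.H341W

/-- connected subgraphs of plane maps are plane maps; the darts which are left of one face are on
one face, and so are the vertices which are left of one face -/
def RowSub : Prop :=
  ∀ (V : Type) [Finite V] (G : SimpleGraph V) (σ : Equiv.Perm G.Dart) (S : Set V)
    (H : SimpleGraph S) (hH : ∀ a b : S, H.Adj a b → G.Adj a.1 b.1),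
    G.Connected → PlaneMap G σ → H.Connected → Nonempty H.Dart →
    ∃ σ' : Equiv.Perm H.Dart, PlaneMap H σ' ∧
      ∀ d₀ : G.Dart, ∃ d₁ : H.Dart, (∀ v : S, v.1 ∈ onFace σ d₀ → v ∈ onFace σ' d₁) ∧
        ∀ a : H.Dart, (faceNext σ).SameCycle d₀ ⟨(a.fst.1, a.snd.1), hH _ _ a.adj⟩ →
          (faceNext σ').SameCycle d₁ a

/-- `MP` with slack edges: `E` are the steep edges; every edge which is not in `E` has a side on a
face of `M` -/
structure MQ {V : Type} (G : SimpleGraph V) (σ : Equiv.Perm G.Dart) (E : V → V → Prop) (h : V → ℝ)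
    (s : V) (M : Set G.Dart) : Prop where
  conn : G.Connected
  plane : PlaneMap G σ
  adj : ∀ u v, E u v → G.Adj u v
  symm : ∀ u v, E u v → E v u
  ne : ∀ u v, E u v → h u ≠ h v
  low : ∀ v, v ≠ s → ∃ u, E v u ∧ h u < h v
  high : ∀ v, (∃ u, E v u ∧ h v < h u) ∨ ∃ m ∈ M, v ∈ onFace σ m
  slack : ∀ d : G.Dart, E d.fst d.snd ∨
    ∃ m ∈ M, (faceNext σ).SameCycle m d ∨ (faceNext σ).SameCycle m d.symm

/-- `b` can be reached from `a` along a descending path of steep edges -/
def DescE {V : Type} (E : V → V → Prop) (h : V → ℝ) : V → V → Prop :=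
  Relation.ReflTransGen fun x y => E x y ∧ h y < h x

/-- **the decomposition**, with slack edges -/
def RowMQ : Prop :=
  ∀ (γ : ℕ) (V : Type) [Finite V] (G : SimpleGraph V) (σ : Equiv.Perm G.Dart) (E : V → V → Prop)
    (h : V → ℝ) (s : V) (M : Finset G.Dart), MQ G σ E h s (M : Set G.Dart) → M.Nonempty →
    M.card ≤ γ →
    ∃ Ls : List (Set V), Ls.length + 4 ≤ 4 * γ ∧
      (∀ L ∈ Ls, L.Nonempty ∧ ∀ a ∈ L, ∀ b ∈ L, DescE E h a b ∨ DescE E h b a) ∧
      ∀ u, u ∉ lanesSet Ls → ∃ (W : Type) (_ : Finite W) (G' : SimpleGraph W) (ι : W → V)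
        (σ' : Equiv.Perm G'.Dart) (s' : W) (m : G'.Dart),
        Function.Injective ι ∧ (∀ a b, G'.Adj a b → G.Adj (ι a) (ι b)) ∧
        (∀ a b, ι a ∈ compSet G (lanesSet Ls) u → ι b ∈ compSet G (lanesSet Ls) u →
          G.Adj (ι a) (ι b) → G'.Adj a b) ∧
        compSet G (lanesSet Ls) u ⊆ Set.range ι ∧
        MQ G' σ' (fun a b => E (ι a) (ι b)) (h ∘ ι) s' {m}

end Vale.Agent.P235.H341W
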