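import Vale.Agent.P235.R2.H341.W6
import Vale.Agent.P235.R2.H341.XDefs

/-!
The mountain pass with slack edges (helper341).
-/

set_option linter.unusedSectionVars false
set_option linter.unusedDecidableInType false
set_option linter.unusedFintypeInType false

namespace Vale.Agent.P235.H341W

open SimpleGraph Finset

variable {V : Type} {G : SimpleGraph V} {σ : Equiv.Perm G.Dart} {h : V → ℝ} {s : V} {p : V → V}
variable {r : G.Dart → G.Dart → ZMod 2} {E : V → V → Prop}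

/-- the vertex `v` is served on the side of `e` -/
def Fine (σ : Equiv.Perm G.Dart) (E : V → V → Prop) (h : V → ℝ) (r : G.Dart → G.Dart → ZMod 2)
    (M : Set G.Dart) (e : G.Dart) (v : V) : Prop :=
  (∃ d : G.Dart, d.fst = v ∧ E v d.snd ∧ h v < h d.snd ∧ (r e d = 1 ∨ r e d.symm = 1)) ∨
    ∃ m ∈ M, r e m = 1 ∧ v ∈ onFace σ m

/-- the side of `e` is harmless -/
def HmE (σ : Equiv.Perm G.Dart) (E : V → V → Prop) (h : V → ℝ) (r : G.Dart → G.Dart → ZMod 2)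
    (M : Set G.Dart) (e : G.Dart) : Prop :=
  Fine σ E h r M e e.fst ∧ Fine σ E h r M e e.snd

theorem fine_or [Finite V] {M : Set G.Dart} (hP : MQ G σ E h s M)
    (hp : Up G (fun v => - h v) s p)
    (hr : ∀ e, Side σ p s e (r e)) {e : G.Dart} (he : ¬ Tr p s e) (v : V) :
    Fine σ E h r M e v ∨ Fine σ E h r M e.symm v := by
  have hfl : ∀ d, r e d = 0 → r e.symm d = 1 := fun d hd => by
    rw [side_flip hP.conn hP.plane hp hr he, hd, add_zero]
  rcases hP.high v with ⟨u, hu, hlt⟩ | ⟨m, hm, hv⟩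
  · rcases zmod2_cases (r e ⟨(v, u), hP.adj _ _ hu⟩) with k | k
    · exact Or.inr (Or.inl ⟨⟨(v, u), hP.adj _ _ hu⟩, rfl, hu, hlt, Or.inl (hfl _ k)⟩)
    · exact Or.inl (Or.inl ⟨⟨(v, u), hP.adj _ _ hu⟩, rfl, hu, hlt, Or.inl k⟩)
  · rcases zmod2_cases (r e m) with k | k
    · exact Or.inr (Or.inr ⟨m, hm, hfl _ k, hv⟩)
    · exact Or.inl (Or.inr ⟨m, hm, k, hv⟩)

theorem HmE_or [Finite V] {M : Set G.Dart} (hP : MQ G σ E h s M)
    (hp : Up G (fun v => - h v) s p)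
    (hr : ∀ e, Side σ p s e (r e)) {e : G.Dart} (he : ¬ Tr p s e) :
    HmE σ E h r M e ∨ HmE σ E h r M e.symm := by
  rcases hP.slack e with hE | ⟨m, hm, k | k⟩
  · have hE' := hP.symm _ _ hE
    rcases lt_or_gt_of_ne (hP.ne _ _ hE) with hlt | hlt
    · have b1 : Fine σ E h r M e e.fst := Or.inl ⟨e, rfl, hE, hlt, Or.inl (hr e).one⟩
      have b2 : Fine σ E h r M e.symm e.fst :=
        Or.inl ⟨e, rfl, hE, hlt, Or.inr (hr e.symm).one⟩
      rcases fine_or hP hp hr he e.snd with k | k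
      · exact Or.inl ⟨b1, k⟩
      · exact Or.inr ⟨k, b2⟩
    · have b1 : Fine σ E h r M e e.snd :=
        Or.inl ⟨e.symm, rfl, hE', hlt, Or.inr (by rw [Dart.symm_symm]; exact (hr e).one)⟩
      have b2 : Fine σ E h r M e.symm e.snd :=
        Or.inl ⟨e.symm, rfl, hE', hlt, Or.inl (hr e.symm).one⟩
      rcases fine_or hP hp hr he e.fst with k | k
      · exact Or.inl ⟨k, b1⟩
      · exact Or.inr ⟨b2, k⟩
  · have h1 : r e m = 1 := by rw [face_const (hr e).inv k, (hr e).one]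
    exact Or.inl ⟨Or.inr ⟨m, hm, h1, fst_mem_onFace k⟩,
      Or.inr ⟨m, hm, h1, snd_mem_onFace hP.plane.fst k⟩⟩
  · have h1 : r e.symm m = 1 := by rw [face_const (hr e.symm).inv k, (hr e.symm).one]
    exact Or.inr ⟨Or.inr ⟨m, hm, h1, fst_mem_onFace k⟩,
      Or.inr ⟨m, hm, h1, snd_mem_onFace hP.plane.fst k⟩⟩

/-- **the mountain pass** -/
theorem passE [Finite V] {M : Set G.Dart} (hP : MQ G σ E h s M)
    (hp : Up G (fun v => - h v) s p)
    (hr : ∀ e, Side σ p s e (r e)) {m₁ m₂ : G.Dart} (h1 : m₁ ∈ M) (h2 : m₂ ∈ M)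
    (h12 : ¬ (faceNext σ).SameCycle m₁ m₂) :
    (∃ e, ¬ Tr p s e ∧ r e m₁ = 1 ∧ r e m₂ = 0 ∧ HmE σ E h r M e ∧ HmE σ E h r M e.symm) ∨
    ∃ e b, ¬ Tr p s e ∧ ¬ Tr p s b ∧ (faceNext σ).SameCycle e.symm b ∧ b ≠ e.symm ∧
      r e m₁ = 1 ∧ r b m₂ = 0 ∧ HmE σ E h r M e ∧ HmE σ E h r M b.symm := by
  classical
  have := Fintype.ofFinite V
  have hc := hP.conn
  have hσ := hP.plane
  let EE : Set G.Dart := {e | ¬ Tr p s e ∧ r e m₁ = 1 ∧ r e m₂ = 0 ∧ HmE σ E h r M e}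
  have hE : EE.Nonempty := by
    obtain ⟨b, hb1, hb2, hb3⟩ := side_next hc hσ hp hr h12
    have hb4 : r b m₁ = 1 := by rw [face_const (hr b).inv hb2, (hr b).one]
    exact ⟨b, hb1, hb4, hb3, Or.inr ⟨m₁, h1, hb4, fst_mem_onFace hb2⟩,
      Or.inr ⟨m₁, h1, hb4, snd_mem_onFace hσ.fst hb2⟩⟩
  obtain ⟨e, ⟨he1, he2, he3, he4⟩, hmax⟩ := Set.exists_max_image EE
    (fun e => (Finset.univ.filter fun d => r e d = 1).card) (Set.toFinite _) hE
  by_cases hs : HmE σ E h r M e.symm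
  · exact Or.inl ⟨e, he1, he2, he3, he4, hs⟩
  right
  have hfl := side_flip hc hσ hp hr he1
  have h3 : ¬ (faceNext σ).SameCycle e.symm m₂ := fun k => by
    have k1 : r e.symm m₂ = 1 := by rw [hfl, he3, add_zero]
    exact hs ⟨Or.inr ⟨m₂, h2, k1, fst_mem_onFace k.symm⟩,
      Or.inr ⟨m₂, h2, k1, snd_mem_onFace hσ.fst k.symm⟩⟩
  obtain ⟨b, hb1, hb2, hb3⟩ := side_next hc hσ hp hr h3
  have hne : b ≠ e.symm := by
    rintro rfl
    rw [hfl, he3, add_zero] at hb3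
    exact absurd hb3 (by decide)
  have hsub : ∀ d, r e d = 1 → r b d = 1 := fun d hd =>
    side_nested hc hσ hp hr he1 hb1 hb2 hne hd
  have hbH : ¬ HmE σ E h r M b := by
    intro k
    have h4 := hmax b ⟨hb1, hsub _ he2, hb3, k⟩
    refine absurd h4 (not_le.2 (Finset.card_lt_card ⟨fun d hd => ?_, fun hc' => ?_⟩))
    · rw [Finset.mem_filter] at hd ⊢
      exact ⟨hd.1, hsub _ hd.2⟩
    · have h5 := hc' (Finset.mem_filter.2 ⟨Finset.mem_univ b, (hr b).one⟩)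
      rw [Finset.mem_filter] at h5
      have h6 : r e b = 0 := by rw [← face_const (hr e).inv hb2, side_symm hr he1]
      rw [h6] at h5
      exact absurd h5.2 (by decide)
  exact ⟨e, b, he1, hb1, hb2, hne, he2, hb3, he4, (HmE_or hP hp hr hb1).resolve_left hbH⟩

/-- `PD` with slack edges -/
structure PE (σ : Equiv.Perm G.Dart) (E : V → V → Prop) (h : V → ℝ) (s : V) (p : V → V)
    (M : Set G.Dart) (D : Set G.Dart) (C : Set V) (M' : Finset G.Dart) : Prop where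
  face : ∀ d, faceNext σ d ∈ D ↔ d ∈ D
  root : s ∈ C
  down : ∀ v ∈ C, v ≠ s → p v ∈ C
  off : ∀ d : G.Dart, d.fst ∉ C → (d.symm ∈ D ↔ d ∈ D)
  marks : ∀ m ∈ M', m ∈ D
  old : ∀ m ∈ M, m ∈ D → m ∈ M'
  top : ∀ v ∈ C, (∃ w, w ∈ C ∪ vs D ∧ E v w ∧ h v < h w) ∨ ∃ m ∈ M', v ∈ onFace σ m
  ne : M'.Nonempty

section piece

variable {M : Set G.Dart} {D : Set G.Dart} {C : Set V} {M' : Finset G.Dart}

theorem PE.mem_of_same (hD : PE σ E h s p M D C M') {d d' : G.Dart}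
    (h1 : (faceNext σ).SameCycle d d') : d ∈ D ↔ d' ∈ D := by
  have h2 := face_const (g := fun d => (d ∈ D : Prop)) (fun d => propext (hD.face d)) h1
  exact iff_of_eq h2

theorem PE.all_at [Finite V] (hσ : PlaneMap G σ) (hD : PE σ E h s p M D C M') {v : V}
    (hv : v ∉ C) (hv' : v ∈ vs D) {d : G.Dart} (hd : d.fst = v) : d ∈ D := by
  obtain ⟨d', hd', hd'v⟩ := hv'
  have h2 := const_at hσ (g := fun d => (d ∈ D : Prop)) (fun d => propext (hD.face d))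
    (v := v) (fun d hd => propext (hD.off d (hd ▸ hv))) hd hd'v
  exact (iff_of_eq h2).2 hd'

theorem PE.snd_mem (hσ : PlaneMap G σ) (hD : PE σ E h s p M D C M') {d : G.Dart} (hd : d ∈ D) :
    d.snd ∈ vs D :=
  ⟨faceNext σ d, (hD.face d).2 hd, faceNext_fst hσ.fst d⟩

/-- the graph of a piece: steep edges, and slack edges inside -/
def pieceG (G : SimpleGraph V) (E : V → V → Prop) (hs : ∀ u v, E u v → E v u) (D : Set G.Dart)
    (S : Set V) : SimpleGraph S where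
  Adj a b := G.Adj a.1 b.1 ∧ (E a.1 b.1 ∨ ∀ d : G.Dart, d.fst = a.1 → d.snd = b.1 →
    d ∈ D ∧ d.symm ∈ D)
  symm := ⟨by
    rintro a b ⟨h1, h2⟩
    refine ⟨h1.symm, h2.imp (hs _ _) fun h2 d h3 h4 => ?_⟩
    have h5 := h2 d.symm h4 h3
    rw [Dart.symm_symm] at h5
    exact h5.symm⟩
  loopless := ⟨fun a h1 => G.loopless.irrefl _ h1.1⟩

/-- the plane map of a piece -/
theorem PE.mp [Finite V] (hSub : RowSub) (hP : MQ G σ E h s M)
    (hp : Up G (fun v => - h v) s p) (hpE : ∀ v, v ≠ s → E v (p v))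
    (hD : PE σ E h s p M D C M') :
    ∃ (σ' : Equiv.Perm (pieceG G E hP.symm D (C ∪ vs D)).Dart)
      (M'' : Finset (pieceG G E hP.symm D (C ∪ vs D)).Dart),
      MQ (pieceG G E hP.symm D (C ∪ vs D)) σ' (fun a b => E a.1 b.1) (fun v => h v.1)
        ⟨s, Or.inl hD.root⟩ (M'' : Set (pieceG G E hP.symm D (C ∪ vs D)).Dart) ∧
        M''.Nonempty ∧ M''.card ≤ M'.card := by
  classical
  have hσ := hP.plane
  have hpS : ∀ v ∈ C ∪ vs D, v ≠ s → p v ∈ C ∪ vs D := by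
    intro v hv hvs
    by_cases hC : v ∈ C
    · exact Or.inl (hD.down v hC hvs)
    · have h1 : v ∈ vs D := hv.resolve_left hC
      exact Or.inr (hD.snd_mem hσ (hD.all_at hσ hC h1 (d := ⟨(v, p v), (hp v hvs).1⟩) rfl))
  have hconn : (pieceG G E hP.symm D (C ∪ vs D)).Connected := by
    have key : ∀ v (hv : v ∈ C ∪ vs D), (pieceG G E hP.symm D (C ∪ vs D)).Reachable ⟨v, hv⟩
        ⟨s, Or.inl hD.root⟩ := by
      intro v
      induction v using (wf_up (fun v => - h v)).induction with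
      | _ v ih =>
        intro hv
        by_cases hvs : v = s
        · subst hvs
          exact Reachable.refl _
        · have h1 : (pieceG G E hP.symm D (C ∪ vs D)).Adj ⟨v, hv⟩ ⟨p v, hpS v hv hvs⟩ :=
            ⟨(hp v hvs).1, Or.inl (hpE v hvs)⟩
          exact h1.reachable.trans (ih (p v) (hp v hvs).2 (hpS v hv hvs))
    rw [connected_iff]
    exact ⟨fun a b => (key a.1 a.2).trans (key b.1 b.2).symm, ⟨⟨s, Or.inl hD.root⟩⟩⟩
  obtain ⟨m0, hm0⟩ := hD.ne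
  have hne : Nonempty (pieceG G E hP.symm D (C ∪ vs D)).Dart := by
    by_cases hms : m0.fst = s
    · have h1 : m0.snd ≠ s := fun k => m0.adj.ne (hms.trans k.symm)
      have h2 : m0.snd ∈ C ∪ vs D := Or.inr (hD.snd_mem hσ (hD.marks _ hm0))
      exact ⟨⟨(⟨m0.snd, h2⟩, ⟨p m0.snd, hpS _ h2 h1⟩), (hp _ h1).1, Or.inl (hpE _ h1)⟩⟩
    · have h2 : m0.fst ∈ C ∪ vs D := Or.inr ⟨m0, hD.marks _ hm0, rfl⟩
      exact ⟨⟨(⟨m0.fst, h2⟩, ⟨p m0.fst, hpS _ h2 hms⟩), (hp _ hms).1, Or.inl (hpE _ hms)⟩⟩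
  obtain ⟨σ', hσ', hface⟩ := hSub V G σ (C ∪ vs D) (pieceG G E hP.symm D (C ∪ vs D))
    (fun a b k => k.1) hP.conn hσ hconn hne
  choose F hF1 hF2 using hface
  refine ⟨σ', M'.image F, ⟨hconn, hσ', fun u v k => ⟨hP.adj _ _ k, Or.inl k⟩,
    fun u v k => hP.symm _ _ k, fun u v k => hP.ne _ _ k, ?_, ?_, ?_⟩, ?_, ?_⟩
  · rintro ⟨v, hv⟩ hvs
    have hvs' : v ≠ s := fun k => hvs (Subtype.ext k)
    refine ⟨⟨p v, hpS v hv hvs'⟩, hpE v hvs', ?_⟩
    have := (hp v hvs').2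
    show h (p v) < h v
    linarith
  · rintro ⟨v, hv⟩
    have mk : ∀ m ∈ M', v ∈ onFace σ m → ∃ m' ∈ ((M'.image F : Finset _) : Set _),
        (⟨v, hv⟩ : (C ∪ vs D : Set V)) ∈ onFace σ' m' := fun m hm hvm =>
      ⟨F m, Finset.mem_coe.2 (Finset.mem_image_of_mem F hm), hF1 m ⟨v, hv⟩ hvm⟩
    by_cases hC : v ∈ C
    · rcases hD.top v hC with ⟨w, hw, h1, h2⟩ | ⟨m, hm, h1⟩
      · exact Or.inl ⟨⟨w, hw⟩, h1, h2⟩
      · exact Or.inr (mk m hm h1)
    · have h1 : v ∈ vs D := hv.resolve_left hC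
      rcases hP.high v with ⟨w, h2, h3⟩ | ⟨m, hm, d', h2, h3⟩
      · refine Or.inl ⟨⟨w, Or.inr (hD.snd_mem hσ (hD.all_at hσ hC h1
          (d := ⟨(v, w), hP.adj _ _ h2⟩) rfl))⟩, h2, h3⟩
      · have h4 : m ∈ D := (hD.mem_of_same h2).2 (hD.all_at hσ hC h1 h3)
        exact Or.inr (mk m (hD.old m hm h4) ⟨d', h2, h3⟩)
  · intro a
    have ha := a.adj
    rcases ha.2 with k | k
    · exact Or.inl k
    · have k' := k ⟨(a.fst.1, a.snd.1), ha.1⟩ rfl rfl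
      rcases hP.slack ⟨(a.fst.1, a.snd.1), ha.1⟩ with k1 | ⟨m, hm, k1 | k1⟩
      · exact Or.inl k1
      · refine Or.inr ⟨F m, Finset.mem_coe.2 (Finset.mem_image_of_mem F
          (hD.old m hm ((hD.mem_of_same k1).2 k'.1))), Or.inl (hF2 m a k1)⟩
      · refine Or.inr ⟨F m, Finset.mem_coe.2 (Finset.mem_image_of_mem F
          (hD.old m hm ((hD.mem_of_same k1).2 k'.2))), Or.inr (hF2 m a.symm k1)⟩
  · exact ⟨F m0, Finset.mem_image_of_mem F hm0⟩
  · exact Finset.card_image_le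

end piece

end Vale.Agent.P235.H341W
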