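import Vale.Agent.P235.R2.H341.X5
import Vale.Agent.P235.R2.H341.W7

/-!
The pieces and the recursion with slack edges (helper341).
-/

set_option linter.unusedSectionVars false
set_option linter.unusedDecidableInType false
set_option linter.unusedFintypeInType false

namespace Vale.Agent.P235.H341W

open SimpleGraph Finset

section pieces

variable {V : Type} {G : SimpleGraph V} {σ : Equiv.Perm G.Dart} {h : V → ℝ} {s : V} {p : V → V}
variable {r : G.Dart → G.Dart → ZMod 2} {E : V → V → Prop} {M : Finset G.Dart}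

/-- a chain vertex which is not its start has a higher neighbour in the chain -/
theorem chain_upE (hs : ∀ u v, E u v → E v u) (hp : Up G (fun v => - h v) s p)
    (hpE : ∀ v, v ≠ s → E v (p v)) {a v : V} (hv : Orb p s a v) :
    v = a ∨ ∃ w, Orb p s a w ∧ E v w ∧ h v < h w := by
  rcases Relation.ReflTransGen.cases_tail hv with h1 | ⟨w, h1, hw, rfl⟩
  · exact Or.inl h1
  · exact Or.inr ⟨w, h1, hs _ _ (hpE w hw), by linarith [(hp w hw).2]⟩

/-- a vertex of the two chains is an end of the dart or has a higher neighbour in the chains -/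
theorem ch_upE (hs : ∀ u v, E u v → E v u) (hp : Up G (fun v => - h v) s p)
    (hpE : ∀ v, v ≠ s → E v (p v)) {e : G.Dart} {v : V} (hv : v ∈ Ch p s e) :
    (v = e.fst ∨ v = e.snd) ∨ ∃ w, w ∈ Ch p s e ∧ E v w ∧ h v < h w := by
  rcases hv with h1 | h1
  · rcases chain_upE hs hp hpE h1 with h2 | ⟨w, h2, h3, h4⟩
    · exact Or.inl (Or.inl h2)
    · exact Or.inr ⟨w, Or.inl h2, h3, h4⟩
  · rcases chain_upE hs hp hpE h1 with h2 | ⟨w, h2, h3, h4⟩
    · exact Or.inl (Or.inr h2)
    · exact Or.inr ⟨w, Or.inr h2, h3, h4⟩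

open Classical in
/-- the piece of a harmless side -/
theorem pe_side [Finite V] (hP : MQ G σ E h s (M : Set G.Dart)) (hp : Up G (fun v => - h v) s p)
    (hpE : ∀ v, v ≠ s → E v (p v))
    (hr : ∀ e, Side σ p s e (r e)) {e m : G.Dart} (hm : m ∈ M) (hem : r e m = 1)
    (hH : HmE σ E h r (M : Set G.Dart) e) :
    PE σ E h s p (M : Set G.Dart) {d | r e d = 1} (Ch p s e)
      (M.filter fun m => r e m = 1) where
  face d := by
    show r e _ = 1 ↔ r e d = 1
    rw [(hr e).inv]
  root := ch_root hp e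
  down v hv hvs := ch_down hv hvs
  off d hd := by
    show r e _ = 1 ↔ r e d = 1
    rw [side_off hr hd]
  marks m hm := (Finset.mem_filter.1 hm).2
  old m hm hmD := Finset.mem_filter.2 ⟨hm, hmD⟩
  top v hv := by
    have key : ∀ v, Fine σ E h r (M : Set G.Dart) e v →
        (∃ w, w ∈ Ch p s e ∪ vs {d | r e d = 1} ∧ E v w ∧ h v < h w) ∨
        ∃ m ∈ M.filter fun m => r e m = 1, v ∈ onFace σ m := by
      rintro v (⟨d, h1, h2, h3, h4 | h4⟩ | ⟨m', h1, h2, h3⟩)
      · refine Or.inl ⟨d.snd, Or.inr ⟨faceNext σ d, ?_, faceNext_fst hP.plane.fst d⟩, h2, h3⟩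
        show r e _ = 1
        rw [(hr e).inv]
        exact h4
      · exact Or.inl ⟨d.snd, Or.inr ⟨d.symm, h4, rfl⟩, h2, h3⟩
      · exact Or.inr ⟨m', Finset.mem_filter.2 ⟨h1, h2⟩, h3⟩
    rcases ch_upE hP.symm hp hpE hv with (rfl | rfl) | ⟨w, h1, h2, h3⟩
    · exact key _ hH.1
    · exact key _ hH.2
    · exact Or.inl ⟨w, Or.inl h1, h2, h3⟩
  ne := ⟨m, Finset.mem_filter.2 ⟨hm, hem⟩⟩

open Classical in
/-- the middle piece -/
theorem pe_mid [Finite V] (hP : MQ G σ E h s (M : Set G.Dart)) (hp : Up G (fun v => - h v) s p)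
    (hpE : ∀ v, v ≠ s → E v (p v))
    (hr : ∀ e, Side σ p s e (r e)) {e b : G.Dart} (he : ¬ Tr p s e)
    (hb : (faceNext σ).SameCycle e.symm b) :
    PE σ E h s p (M : Set G.Dart) {d | r e d = 0 ∧ r b d = 1} (Ch p s e ∪ Ch p s b)
      (insert b (M.filter fun m => r e m = 0 ∧ r b m = 1)) where
  face d := by
    show (r e _ = 0 ∧ r b _ = 1) ↔ (r e d = 0 ∧ r b d = 1)
    rw [(hr e).inv, (hr b).inv]
  root := Or.inl (ch_root hp e)
  down v hv hvs := hv.imp (fun k => ch_down k hvs) (fun k => ch_down k hvs)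
  off d hd := by
    show (r e _ = 0 ∧ r b _ = 1) ↔ (r e d = 0 ∧ r b d = 1)
    rw [side_off hr (fun k => hd (Or.inl k)), side_off hr (fun k => hd (Or.inr k))]
  marks m hm := by
    rcases Finset.mem_insert.1 hm with rfl | h1
    · exact ⟨by rw [← face_const (hr e).inv hb, side_symm hr he], (hr m).one⟩
    · exact (Finset.mem_filter.1 h1).2
  old m hm hmD := Finset.mem_insert_of_mem (Finset.mem_filter.2 ⟨hm, hmD⟩)
  top v hv := by
    have hb' : (faceNext σ).SameCycle b e.symm := hb.symm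
    rcases hv with hv | hv
    · rcases ch_upE hP.symm hp hpE hv with (rfl | rfl) | ⟨w, h1, h2, h3⟩
      · exact Or.inr ⟨b, Finset.mem_insert_self _ _, snd_mem_onFace hP.plane.fst hb'⟩
      · exact Or.inr ⟨b, Finset.mem_insert_self _ _, fst_mem_onFace hb'⟩
      · exact Or.inl ⟨w, Or.inl (Or.inl h1), h2, h3⟩
    · rcases ch_upE hP.symm hp hpE hv with (rfl | rfl) | ⟨w, h1, h2, h3⟩
      · exact Or.inr ⟨b, Finset.mem_insert_self _ _,
          fst_mem_onFace (Equiv.Perm.SameCycle.refl _ _)⟩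
      · exact Or.inr ⟨b, Finset.mem_insert_self _ _,
          snd_mem_onFace hP.plane.fst (Equiv.Perm.SameCycle.refl _ _)⟩
      · exact Or.inl ⟨w, Or.inl (Or.inr h1), h2, h3⟩
  ne := ⟨b, Finset.mem_insert_self _ _⟩

end pieces

/-- the statement of the decomposition for one plane map -/
def DecE {V : Type} (G : SimpleGraph V) (E : V → V → Prop) (h : V → ℝ) (γ : ℕ) : Prop :=
  ∃ Ls : List (Set V), Ls.length + 4 ≤ 4 * γ ∧
    (∀ L ∈ Ls, L.Nonempty ∧ ∀ a ∈ L, ∀ b ∈ L, DescE E h a b ∨ DescE E h b a) ∧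
    ∀ u, u ∉ lanesSet Ls → ∃ (W : Type) (_ : Finite W) (G' : SimpleGraph W) (ι : W → V)
      (σ' : Equiv.Perm G'.Dart) (s' : W) (m : G'.Dart),
      Function.Injective ι ∧ (∀ a b, G'.Adj a b → G.Adj (ι a) (ι b)) ∧
      (∀ a b, ι a ∈ compSet G (lanesSet Ls) u → ι b ∈ compSet G (lanesSet Ls) u →
        G.Adj (ι a) (ι b) → G'.Adj a b) ∧
      compSet G (lanesSet Ls) u ⊆ Set.range ι ∧
      MQ G' σ' (fun a b => E (ι a) (ι b)) (h ∘ ι) s' {m}

section dec

variable {V : Type} {G : SimpleGraph V} {σ : Equiv.Perm G.Dart} {h : V → ℝ} {s : V} {p : V → V}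
variable {E : V → V → Prop} {M : Finset G.Dart}

theorem descE_map {S : Set V} {a b : S}
    (hab : DescE (fun x y : S => E x.1 y.1) (fun v => h v.1) a b) : DescE E h a.1 b.1 := by
  induction hab with
  | refl => exact Relation.ReflTransGen.refl
  | tail _ h2 ih => exact ih.tail ⟨h2.1, h2.2⟩

theorem orb_descE (hp : Up G (fun v => - h v) s p) (hpE : ∀ v, v ≠ s → E v (p v)) {a b : V}
    (hab : Orb p s a b) : DescE E h a b := by
  induction hab with
  | refl => exact Relation.ReflTransGen.refl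
  | @tail x y _ h2 ih =>
    obtain ⟨hx, rfl⟩ := h2
    exact ih.tail ⟨hpE x hx, by linarith [(hp x hx).2]⟩

theorem orb_laneE (hp : Up G (fun v => - h v) s p) (hpE : ∀ v, v ≠ s → E v (p v)) (a : V) :
    {v | Orb p s a v}.Nonempty ∧ ∀ x ∈ {v | Orb p s a v}, ∀ y ∈ {v | Orb p s a v},
      DescE E h x y ∨ DescE E h y x := by
  refine ⟨⟨a, Relation.ReflTransGen.refl⟩, fun x hx y hy => ?_⟩
  exact (Orb.total hx hy).imp (orb_descE hp hpE) (orb_descE hp hpE)

theorem chL_okE (hp : Up G (fun v => - h v) s p) (hpE : ∀ v, v ≠ s → E v (p v)) {e : G.Dart}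
    (L : Set V) (hL : L ∈ chL p s e) :
    L.Nonempty ∧ ∀ a ∈ L, ∀ b ∈ L, DescE E h a b ∨ DescE E h b a := by
  rcases List.mem_cons.1 hL with rfl | hL
  · exact orb_laneE hp hpE _
  · rw [List.mem_singleton] at hL
    subst hL
    exact orb_laneE hp hpE _

/-- what a piece contributes -/
theorem PE.dec [Finite V] (hSub : RowSub) (hP : MQ G σ E h s (M : Set G.Dart))
    (hp : Up G (fun v => - h v) s p) (hpE : ∀ v, v ≠ s → E v (p v)) {D : Set G.Dart} {C : Set V}
    {M' : Finset G.Dart} (hD : PE σ E h s p (M : Set G.Dart) D C M')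
    (ih : ∀ (V : Type) [Finite V] (G : SimpleGraph V) (σ : Equiv.Perm G.Dart)
      (E : V → V → Prop) (h : V → ℝ) (s : V)
      (N : Finset G.Dart), MQ G σ E h s (N : Set G.Dart) → N.Nonempty → N.card ≤ M'.card →
      DecE G E h M'.card) :
    ∃ Ls : List (Set V), Ls.length + 4 ≤ 4 * M'.card ∧
      (∀ L ∈ Ls, L.Nonempty ∧ ∀ a ∈ L, ∀ b ∈ L, DescE E h a b ∨ DescE E h b a) ∧
      ∀ X : Set V, C ⊆ X → lanesSet Ls ⊆ X → ∀ u, u ∉ X → u ∈ vs D →
        ∃ (W : Type) (_ : Finite W) (G' : SimpleGraph W) (ι : W → V)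
          (σ' : Equiv.Perm G'.Dart) (s' : W) (m : G'.Dart),
        Function.Injective ι ∧ (∀ a b, G'.Adj a b → G.Adj (ι a) (ι b)) ∧
        (∀ a b, ι a ∈ compSet G X u → ι b ∈ compSet G X u →
          G.Adj (ι a) (ι b) → G'.Adj a b) ∧
        compSet G X u ⊆ Set.range ι ∧ MQ G' σ' (fun a b => E (ι a) (ι b)) (h ∘ ι) s' {m} := by
  have hσ := hP.plane
  obtain ⟨σ', N, hN, hNne, hNc⟩ := hD.mp hSub hP hp hpE
  obtain ⟨Ls, h1, h2, h3⟩ := ih _ _ _ _ _ _ N hN hNne hNc
  refine ⟨Ls.map fun L => Subtype.val '' L, by rw [List.length_map]; exact h1, ?_, ?_⟩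
  · intro L hL
    obtain ⟨L', hL', rfl⟩ := List.mem_map.1 hL
    obtain ⟨k1, k2⟩ := h2 L' hL'
    refine ⟨k1.image _, ?_⟩
    rintro _ ⟨a, ha, rfl⟩ _ ⟨b, hb, rfl⟩
    exact (k2 a ha b hb).imp descE_map descE_map
  · intro X hCX hLX u hu huD
    have hXL : ∀ v (hv : v ∈ C ∪ vs D), v ∉ X → (⟨v, hv⟩ : (C ∪ vs D : Set V)) ∉ lanesSet Ls := by
      rintro v hv hvX ⟨L, hL, hvL⟩
      exact hvX (hLX ⟨_, List.mem_map_of_mem hL, ⟨_, hvL, rfl⟩⟩)
    have allD : ∀ v ∈ vs D, v ∉ X → ∀ d : G.Dart, d.fst = v → d ∈ D := fun v hv hvX d hd =>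
      hD.all_at hσ (fun k => hvX (hCX k)) hv hd
    have step : ∀ v ∈ vs D, v ∉ X → ∀ w, G.Adj v w → w ∈ vs D := fun v hv hvX w hvw =>
      hD.snd_mem hσ (allD v hv hvX ⟨(v, w), hvw⟩ rfl)
    have stepH : ∀ v (hv : v ∈ vs D), v ∉ X → ∀ w (hw : w ∈ vs D), w ∉ X → G.Adj v w →
        (pieceG G E hP.symm D (C ∪ vs D)).Adj ⟨v, Or.inr hv⟩ ⟨w, Or.inr hw⟩ := by
      intro v hv hvX w hw hwX hvw
      exact ⟨hvw, Or.inr fun d k1 k2 => ⟨allD v hv hvX d k1, allD w hw hwX d.symm k2⟩⟩
    have key : ∀ (a b : V) (w : G.Walk a b), (∀ x ∈ w.support, x ∉ X) → ∀ ha : a ∈ vs D,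
        ∃ hb : b ∈ vs D, ReachOff (pieceG G E hP.symm D (C ∪ vs D)) (lanesSet Ls)
          ⟨a, Or.inr ha⟩ ⟨b, Or.inr hb⟩ := by
      intro a b w
      induction w with
      | nil =>
        intro hw ha
        exact ⟨ha, ReachOff.refl (hXL _ _ (hw _ (by simp)))⟩
      | @cons a c b hac w ihw =>
        intro hw ha
        rw [Walk.support_cons] at hw
        have haX : a ∉ X := hw a List.mem_cons_self
        have hcX : c ∉ X := hw c (List.mem_cons_of_mem _ w.start_mem_support)
        have hc := step a ha haX c hac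
        obtain ⟨hb, hr⟩ := ihw (fun x hx => hw x (List.mem_cons_of_mem _ hx)) hc
        exact ⟨hb, (ReachOff.adj (hXL a (Or.inr ha) haX) (hXL c (Or.inr hc) hcX)
          (stepH a ha haX c hc hcX hac)).trans hr⟩
    have key' : ∀ v ∈ compSet G X u, ∃ hv : v ∈ vs D,
        ReachOff (pieceG G E hP.symm D (C ∪ vs D)) (lanesSet Ls) ⟨u, Or.inr huD⟩
          ⟨v, Or.inr hv⟩ := by
      rintro v ⟨w, hw⟩
      exact key _ _ w hw huD
    obtain ⟨W, hW, G', ι, σ'', s', m, k1, k2, k3, k4, k5⟩ :=
      h3 ⟨u, Or.inr huD⟩ (hXL _ _ hu)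
    refine ⟨W, hW, G', fun w => (ι w).1, σ'', s', m, fun a b hab => k1 (Subtype.ext hab),
      fun a b hab => (k2 a b hab).1, ?_, ?_, k5⟩
    · intro a b ha hb hab
      obtain ⟨ha1, ha2⟩ := key' _ ha
      obtain ⟨hb1, hb2⟩ := key' _ hb
      exact k3 a b ha2 hb2 (stepH _ ha1 (ReachOff.right ha) _ hb1 (ReachOff.right hb) hab)
    · intro v hv
      obtain ⟨hv1, hv2⟩ := key' v hv
      obtain ⟨x, hx⟩ := k4 hv2
      exact ⟨x, congrArg Subtype.val hx⟩

end dec

theorem decE_of (hSub : RowSub) (γ : ℕ) : ∀ (V : Type) [Finite V] (G : SimpleGraph V)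
    (σ : Equiv.Perm G.Dart) (E : V → V → Prop) (h : V → ℝ) (s : V) (M : Finset G.Dart),
    MQ G σ E h s (M : Set G.Dart) → M.Nonempty → M.card ≤ γ → DecE G E h γ := by
  classical
  induction γ using Nat.strong_induction_on with
  | _ γ ih =>
    intro V _ G σ E h s M hP hM hMc
    by_cases hsame : ∀ m₁ ∈ M, ∀ m₂ ∈ M, (faceNext σ).SameCycle m₁ m₂
    · -- one face
      obtain ⟨m, hm⟩ := hM
      have h1 : 0 < M.card := Finset.card_pos.2 ⟨m, hm⟩
      refine ⟨[], by simp; omega, by simp, fun u _ => ⟨V, inferInstance, G, id, σ, s, m,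
        Function.injective_id, fun a b k => k, fun a b _ _ k => k, fun v _ => ⟨v, rfl⟩,
        hP.conn, hP.plane, hP.adj, hP.symm, hP.ne, hP.low, fun v => ?_, fun d => ?_⟩⟩
      · rcases hP.high v with k | ⟨m', hm', d', k1, k2⟩
        · exact Or.inl k
        · exact Or.inr ⟨m, rfl, d', (hsame m hm m' hm').trans k1, k2⟩
      · rcases hP.slack d with k | ⟨m', hm', k1 | k1⟩
        · exact Or.inl k
        · exact Or.inr ⟨m, rfl, Or.inl ((hsame m hm m' hm').trans k1)⟩
        · exact Or.inr ⟨m, rfl, Or.inr ((hsame m hm m' hm').trans k1)⟩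
    push Not at hsame
    obtain ⟨m₁, hm₁, m₂, hm₂, h12⟩ := hsame
    -- the tree
    have hp0 : ∀ v, ∃ u, v ≠ s → E v u ∧ - h v < - h u := by
      intro v
      by_cases hv : v = s
      · exact ⟨v, fun k => absurd hv k⟩
      · obtain ⟨u, h1, h2⟩ := hP.low v hv
        exact ⟨u, fun _ => ⟨h1, by linarith⟩⟩
    choose p hp' using hp0
    have hp : Up G (fun v => - h v) s p := fun v hv => ⟨hP.adj _ _ (hp' v hv).1, (hp' v hv).2⟩
    have hpE : ∀ v, v ≠ s → E v (p v) := fun v hv => (hp' v hv).1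
    choose r hr using fun e => exists_side hP.conn hP.plane hp e
    have hdart : ∀ u, u ≠ s → ∃ d : G.Dart, d.fst = u := fun u hu => ⟨⟨(u, p u), (hp u hu).1⟩, rfl⟩
    rcases passE hP hp hr (M := (M : Set G.Dart)) hm₁ hm₂ h12 with
      ⟨e, he, e1, e2, e3, e4⟩ | ⟨e, b, he, hb, heb, hne, e1, e2, e3, e4⟩
    · -- one cut
      have hfl := side_flip hP.conn hP.plane hp hr he
      have D1 := pe_side hP hp hpE hr hm₁ e1 e3
      have D2 := pe_side hP hp hpE hr hm₂ (e := e.symm) (by rw [hfl, e2, add_zero]) e4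
      have hcard : (M.filter fun m => r e m = 1).card + (M.filter fun m => r e.symm m = 1).card ≤
          M.card := by
        rw [← Finset.card_union_of_disjoint]
        · exact Finset.card_le_card (Finset.union_subset (Finset.filter_subset _ _)
            (Finset.filter_subset _ _))
        · rw [Finset.disjoint_filter]
          intro m _ k1 k2
          rw [hfl, k1] at k2
          exact absurd k2 (by decide)
      have c1 := Finset.card_pos.2 D1.ne
      have c2 := Finset.card_pos.2 D2.ne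
      obtain ⟨L1, a1, a2, a3⟩ := D1.dec hSub hP hp hpE fun V _ G σ E h s N k1 k2 k3 =>
        ih _ (by omega) V G σ E h s N k1 k2 k3
      obtain ⟨L2, b1, b2, b3⟩ := D2.dec hSub hP hp hpE fun V _ G σ E h s N k1 k2 k3 =>
        ih _ (by omega) V G σ E h s N k1 k2 k3
      refine ⟨chL p s e ++ (L1 ++ L2), ?_, ?_, ?_⟩
      · rw [List.length_append, List.length_append]
        show 2 + _ + 4 ≤ _
        omega
      · intro L hL
        rcases List.mem_append.1 hL with k | k
        · exact chL_okE hp hpE L k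
        · rcases List.mem_append.1 k with k | k
          · exact a2 L k
          · exact b2 L k
      · intro u hu
        rw [lanesSet_append, lanesSet_append, lanesSet_chL] at hu ⊢
        have hus : u ≠ s := by
          rintro rfl
          exact hu (Or.inl (ch_root hp e))
        obtain ⟨d, rfl⟩ := hdart u hus
        rcases zmod2_cases (r e d) with k | k
        · exact b3 _ (by rw [ch_flip]; exact Set.subset_union_left)
            (fun v hv => Or.inr (Or.inr hv)) _ hu ⟨d, by
              show r e.symm d = 1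
              rw [hfl, k, add_zero], rfl⟩
        · exact a3 _ Set.subset_union_left (fun v hv => Or.inr (Or.inl hv)) _ hu ⟨d, k, rfl⟩
    · -- two cuts
      have hfl := side_flip hP.conn hP.plane hp hr he
      have hfb := side_flip hP.conn hP.plane hp hr hb
      have hsub : ∀ d, r e d = 1 → r b d = 1 := fun d hd =>
        side_nested hP.conn hP.plane hp hr he hb heb hne hd
      have D1 := pe_side hP hp hpE hr hm₁ e1 e3
      have D2 := pe_side hP hp hpE hr hm₂ (e := b.symm) (by rw [hfb, e2, add_zero]) e4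
      have D3 := pe_mid hP hp hpE hr he heb
      have hcard : (M.filter fun m => r e m = 1).card + ((M.filter fun m => r b.symm m = 1).card +
          (M.filter fun m => r e m = 0 ∧ r b m = 1).card) ≤ M.card := by
        rw [← Finset.card_union_of_disjoint, ← Finset.card_union_of_disjoint]
        · exact Finset.card_le_card (Finset.union_subset (Finset.filter_subset _ _)
            (Finset.union_subset (Finset.filter_subset _ _) (Finset.filter_subset _ _)))
        · rw [Finset.disjoint_left]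
          intro m k1 k2
          rw [Finset.mem_filter] at k1
          rcases Finset.mem_union.1 k2 with k2 | k2
          · rw [Finset.mem_filter, hfb, hsub m k1.2] at k2
            exact absurd k2.2 (by decide)
          · rw [Finset.mem_filter, k1.2] at k2
            exact absurd k2.2.1 (by decide)
        · rw [Finset.disjoint_filter]
          intro m _ k1 k2
          rw [hfb, k2.2] at k1
          exact absurd k1 (by decide)
      have c3 := Finset.card_insert_le b (M.filter fun m => r e m = 0 ∧ r b m = 1)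
      have c1 := Finset.card_pos.2 D1.ne
      have c2 := Finset.card_pos.2 D2.ne
      obtain ⟨L1, a1, a2, a3⟩ := D1.dec hSub hP hp hpE fun V _ G σ E h s N k1 k2 k3 =>
        ih _ (by omega) V G σ E h s N k1 k2 k3
      obtain ⟨L2, b1, b2, b3⟩ := D2.dec hSub hP hp hpE fun V _ G σ E h s N k1 k2 k3 =>
        ih _ (by omega) V G σ E h s N k1 k2 k3
      obtain ⟨L3, d1, d2, d3⟩ := D3.dec hSub hP hp hpE fun V _ G σ E h s N k1 k2 k3 =>
        ih _ (by omega) V G σ E h s N k1 k2 k3
      refine ⟨(chL p s e ++ chL p s b) ++ (L1 ++ (L2 ++ L3)), ?_, ?_, ?_⟩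
      · rw [List.length_append, List.length_append, List.length_append, List.length_append]
        show 2 + 2 + _ + 4 ≤ _
        omega
      · intro L hL
        rcases List.mem_append.1 hL with k | k
        · rcases List.mem_append.1 k with k | k
          · exact chL_okE hp hpE L k
          · exact chL_okE hp hpE L k
        · rcases List.mem_append.1 k with k | k
          · exact a2 L k
          · rcases List.mem_append.1 k with k | k
            · exact b2 L k
            · exact d2 L k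
      · intro u hu
        rw [lanesSet_append, lanesSet_append, lanesSet_append, lanesSet_append, lanesSet_chL,
          lanesSet_chL] at hu ⊢
        have hus : u ≠ s := by
          rintro rfl
          exact hu (Or.inl (Or.inl (ch_root hp e)))
        obtain ⟨d, rfl⟩ := hdart u hus
        rcases zmod2_cases (r e d) with k | k
        · rcases zmod2_cases (r b d) with k' | k'
          · exact b3 _ (by rw [ch_flip]; exact fun v hv => Or.inl (Or.inr hv))
              (fun v hv => Or.inr (Or.inr (Or.inl hv))) _ hu ⟨d, by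
                show r b.symm d = 1
                rw [hfb, k', add_zero], rfl⟩
          · exact d3 _ Set.subset_union_left (fun v hv => Or.inr (Or.inr (Or.inr hv))) _ hu
              ⟨d, ⟨k, k'⟩, rfl⟩
        · exact a3 _ (fun v hv => Or.inl (Or.inl hv)) (fun v hv => Or.inr (Or.inl hv)) _ hu
            ⟨d, k, rfl⟩

/-- **`RowMQ`** -/
theorem rowMQ_of (hSub : RowSub) : RowMQ := fun γ V _ G σ E h s M hP hM hMc =>
  decE_of hSub γ V G σ E h s M hP hM hMc

end Vale.Agent.P235.H341W
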