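import Vale.Agent.P235.R2.H341.X8
import Vale.Agent.P235.R2.H907.Sub

/-!
`RowMQ` and `RowMQp`, closed (helper341).
-/

namespace Vale.Agent.P235.H341W

/-- the decomposition with slack edges -/
theorem rowMQ : RowMQ := rowMQ_of R2.H907.rowSub

/-- the decomposition with slack edges and one parent function -/
theorem rowMQp : RowMQp := rowMQp_of R2.H907.rowSub

end Vale.Agent.P235.H341W
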