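import Vale.Agent.P235.R2.H341.X6
import Vale.Agent.P235.R2.H341.W9

/-!
The decomposition with slack edges, the lanes are the chains of one given parent function
(helper341).
-/

set_option linter.unusedSectionVars false
set_option linter.unusedDecidableInType false
set_option linter.unusedFintypeInType false

namespace Vale.Agent.P235.H341W

open SimpleGraph Finset

/-- **the decomposition with slack edges**, the lanes are the chains of the given parent
function -/
def RowMQp : Prop :=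
  ∀ (γ : ℕ) (V : Type) [Finite V] (G : SimpleGraph V) (σ : Equiv.Perm G.Dart) (E : V → V → Prop)
    (h : V → ℝ) (s : V) (p : V → V) (M : Finset G.Dart), MQ G σ E h s (M : Set G.Dart) →
    M.Nonempty → M.card ≤ γ → (∀ v, v ≠ s → E v (p v) ∧ h (p v) < h v) →
    ∃ A : List V, A.length + 4 ≤ 4 * γ ∧
      ∀ u, u ∉ LS p s A → ∃ (W : Type) (_ : Finite W) (G' : SimpleGraph W) (ι : W → V)
        (σ' : Equiv.Perm G'.Dart) (s' : W) (m : G'.Dart),
        Function.Injective ι ∧ (∀ a b, G'.Adj a b → G.Adj (ι a) (ι b)) ∧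
        (∀ a b, ι a ∈ compSet G (LS p s A) u → ι b ∈ compSet G (LS p s A) u →
          G.Adj (ι a) (ι b) → G'.Adj a b) ∧
        compSet G (LS p s A) u ⊆ Set.range ι ∧ ι s' = s ∧
        (∀ w, ι w ≠ s → p (ι w) ∈ Set.range ι) ∧
        MQ G' σ' (fun a b => E (ι a) (ι b)) (h ∘ ι) s' {m}

/-- the statement for one plane map -/
def DecEP {V : Type} (G : SimpleGraph V) (E : V → V → Prop) (h : V → ℝ) (s : V) (p : V → V)
    (γ : ℕ) : Prop :=
  ∃ A : List V, A.length + 4 ≤ 4 * γ ∧
    ∀ u, u ∉ LS p s A → ∃ (W : Type) (_ : Finite W) (G' : SimpleGraph W) (ι : W → V)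
      (σ' : Equiv.Perm G'.Dart) (s' : W) (m : G'.Dart),
      Function.Injective ι ∧ (∀ a b, G'.Adj a b → G.Adj (ι a) (ι b)) ∧
      (∀ a b, ι a ∈ compSet G (LS p s A) u → ι b ∈ compSet G (LS p s A) u →
        G.Adj (ι a) (ι b) → G'.Adj a b) ∧
      compSet G (LS p s A) u ⊆ Set.range ι ∧ ι s' = s ∧
      (∀ w, ι w ≠ s → p (ι w) ∈ Set.range ι) ∧
      MQ G' σ' (fun a b => E (ι a) (ι b)) (h ∘ ι) s' {m}

section pieces

variable {V : Type} {G : SimpleGraph V} {σ : Equiv.Perm G.Dart} {h : V → ℝ} {s : V} {p : V → V}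
variable {E : V → V → Prop} {M : Finset G.Dart}

theorem PE.closed [Finite V] (hσ : PlaneMap G σ) (hp : Up G (fun v => - h v) s p)
    {D : Set G.Dart} {C : Set V} {M' : Finset G.Dart}
    (hD : PE σ E h s p (M : Set G.Dart) D C M') : ∀ v ∈ C ∪ vs D, v ≠ s → p v ∈ C ∪ vs D := by
  intro v hv hvs
  by_cases hC : v ∈ C
  · exact Or.inl (hD.down v hC hvs)
  · have h1 : v ∈ vs D := hv.resolve_left hC
    exact Or.inr (hD.snd_mem hσ (hD.all_at hσ hC h1 (d := ⟨(v, p v), (hp v hvs).1⟩) rfl))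

/-- what a piece contributes -/
theorem PE.decP [Finite V] (hSub : RowSub) (hP : MQ G σ E h s (M : Set G.Dart))
    (hp : Up G (fun v => - h v) s p) (hpE : ∀ v, v ≠ s → E v (p v)) {D : Set G.Dart} {C : Set V}
    {M' : Finset G.Dart} (hD : PE σ E h s p (M : Set G.Dart) D C M')
    (ih : ∀ (V : Type) [Finite V] (G : SimpleGraph V) (σ : Equiv.Perm G.Dart)
      (E : V → V → Prop) (h : V → ℝ) (s : V) (p : V → V)
      (N : Finset G.Dart), MQ G σ E h s (N : Set G.Dart) → N.Nonempty → N.card ≤ M'.card →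
      Up G (fun v => - h v) s p → (∀ v, v ≠ s → E v (p v)) → DecEP G E h s p M'.card) :
    ∃ A : List V, A.length + 4 ≤ 4 * M'.card ∧
      ∀ X : Set V, C ⊆ X → LS p s A ⊆ X → ∀ u, u ∉ X → u ∈ vs D →
        ∃ (W : Type) (_ : Finite W) (G' : SimpleGraph W) (ι : W → V)
          (σ' : Equiv.Perm G'.Dart) (s' : W) (m : G'.Dart),
        Function.Injective ι ∧ (∀ a b, G'.Adj a b → G.Adj (ι a) (ι b)) ∧
        (∀ a b, ι a ∈ compSet G X u → ι b ∈ compSet G X u →
          G.Adj (ι a) (ι b) → G'.Adj a b) ∧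
        compSet G X u ⊆ Set.range ι ∧ ι s' = s ∧
        (∀ w, ι w ≠ s → p (ι w) ∈ Set.range ι) ∧
        MQ G' σ' (fun a b => E (ι a) (ι b)) (h ∘ ι) s' {m} := by
  have hσ := hP.plane
  have hS := hD.closed hσ hp
  have hsS : s ∈ C ∪ vs D := Or.inl hD.root
  obtain ⟨σ', N, hN, hNne, hNc⟩ := hD.mp hSub hP hp hpE
  have hp' : Up (pieceG G E hP.symm D (C ∪ vs D)) (fun v => - h v.1) ⟨s, hsS⟩
      (resP (C ∪ vs D) s p hS) := by
    intro v hv
    have hv' : v.1 ≠ s := fun k => hv (Subtype.ext k)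
    have e1 := resP_val (hS := hS) hv'
    refine ⟨?_, ?_⟩
    · show G.Adj v.1 (resP (C ∪ vs D) s p hS v).1 ∧ (E v.1 (resP (C ∪ vs D) s p hS v).1 ∨ _)
      rw [e1]
      exact ⟨(hp v.1 hv').1, Or.inl (hpE v.1 hv')⟩
    · show - h v.1 < - h (resP (C ∪ vs D) s p hS v).1
      rw [e1]
      exact (hp v.1 hv').2
  have hpE' : ∀ v : (C ∪ vs D : Set V), v ≠ ⟨s, hsS⟩ →
      (fun a b : (C ∪ vs D : Set V) => E a.1 b.1) v (resP (C ∪ vs D) s p hS v) := by
    intro v hv
    have hv' : v.1 ≠ s := fun k => hv (Subtype.ext k)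
    show E v.1 (resP (C ∪ vs D) s p hS v).1
    rw [resP_val (hS := hS) hv']
    exact hpE v.1 hv'
  obtain ⟨A, h1, h3⟩ := ih _ _ _ _ _ _ _ N hN hNne hNc hp' hpE'
  refine ⟨A.map Subtype.val, by rw [List.length_map]; exact h1, ?_⟩
  intro X hCX hLX u hu huD
  have hXL : ∀ v (hv : v ∈ C ∪ vs D), v ∉ X →
      (⟨v, hv⟩ : (C ∪ vs D : Set V)) ∉ LS (resP (C ∪ vs D) s p hS) ⟨s, hsS⟩ A := by
    rintro v hv hvX ⟨a, ha, hva⟩
    exact hvX (hLX ⟨a.1, List.mem_map_of_mem ha, orb_res hsS hva⟩)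
  have allD : ∀ v ∈ vs D, v ∉ X → ∀ d : G.Dart, d.fst = v → d ∈ D := fun v hv hvX d hd =>
    hD.all_at hσ (fun k => hvX (hCX k)) hv hd
  have step : ∀ v ∈ vs D, v ∉ X → ∀ w, G.Adj v w → w ∈ vs D := fun v hv hvX w hvw =>
    hD.snd_mem hσ (allD v hv hvX ⟨(v, w), hvw⟩ rfl)
  have stepH : ∀ v (hv : v ∈ vs D), v ∉ X → ∀ w (hw : w ∈ vs D), w ∉ X → G.Adj v w →
      (pieceG G E hP.symm D (C ∪ vs D)).Adj ⟨v, Or.inr hv⟩ ⟨w, Or.inr hw⟩ := by
    intro v hv hvX w hw hwX hvw
    exact ⟨hvw, Or.inr fun d k1 k2 => ⟨allD v hv hvX d k1, allD w hw hwX d.symm k2⟩⟩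
  have key : ∀ (a b : V) (w : G.Walk a b), (∀ x ∈ w.support, x ∉ X) → ∀ ha : a ∈ vs D,
      ∃ hb : b ∈ vs D, ReachOff (pieceG G E hP.symm D (C ∪ vs D))
        (LS (resP (C ∪ vs D) s p hS) ⟨s, hsS⟩ A) ⟨a, Or.inr ha⟩ ⟨b, Or.inr hb⟩ := by
    intro a b w
    induction w with
    | nil =>
      intro hw ha
      exact ⟨ha, ReachOff.refl (hXL _ _ (hw _ (by simp)))⟩
    | @cons a c b hac w ihw =>
      intro hw ha
      rw [Walk.support_cons] at hw
      have haX : a ∉ X := hw a List.mem_cons_self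
      have hcX : c ∉ X := hw c (List.mem_cons_of_mem _ w.start_mem_support)
      have hc := step a ha haX c hac
      obtain ⟨hb, hr⟩ := ihw (fun x hx => hw x (List.mem_cons_of_mem _ hx)) hc
      exact ⟨hb, (ReachOff.adj (hXL a (Or.inr ha) haX) (hXL c (Or.inr hc) hcX)
        (stepH a ha haX c hc hcX hac)).trans hr⟩
  have key' : ∀ v ∈ compSet G X u, ∃ hv : v ∈ vs D,
      ReachOff (pieceG G E hP.symm D (C ∪ vs D)) (LS (resP (C ∪ vs D) s p hS) ⟨s, hsS⟩ A)
        ⟨u, Or.inr huD⟩ ⟨v, Or.inr hv⟩ := by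
    rintro v ⟨w, hw⟩
    exact key _ _ w hw huD
  obtain ⟨W, hW, G', ι, σ'', s', m, k1, k2, k3, k4, k5, k6, k7⟩ :=
    h3 ⟨u, Or.inr huD⟩ (hXL _ _ hu)
  refine ⟨W, hW, G', fun w => (ι w).1, σ'', s', m, fun a b hab => k1 (Subtype.ext hab),
    fun a b hab => (k2 a b hab).1, ?_, ?_, congrArg Subtype.val k5, ?_, k7⟩
  · intro a b ha hb hab
    obtain ⟨ha1, ha2⟩ := key' _ ha
    obtain ⟨hb1, hb2⟩ := key' _ hb
    exact k3 a b ha2 hb2 (stepH _ ha1 (ReachOff.right ha) _ hb1 (ReachOff.right hb) hab)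
  · intro v hv
    obtain ⟨hv1, hv2⟩ := key' v hv
    obtain ⟨x, hx⟩ := k4 hv2
    exact ⟨x, congrArg Subtype.val hx⟩
  · intro w hw
    obtain ⟨x, hx⟩ := k6 w (fun k => hw (congrArg Subtype.val k))
    refine ⟨x, ?_⟩
    have := congrArg Subtype.val hx
    rw [resP_val hw] at this
    exact this

end pieces

theorem decEP_of (hSub : RowSub) (γ : ℕ) : ∀ (V : Type) [Finite V] (G : SimpleGraph V)
    (σ : Equiv.Perm G.Dart) (E : V → V → Prop) (h : V → ℝ) (s : V) (p : V → V)
    (M : Finset G.Dart), MQ G σ E h s (M : Set G.Dart) → M.Nonempty → M.card ≤ γ →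
    Up G (fun v => - h v) s p → (∀ v, v ≠ s → E v (p v)) → DecEP G E h s p γ := by
  classical
  induction γ using Nat.strong_induction_on with
  | _ γ ih =>
    intro V _ G σ E h s p M hP hM hMc hp hpE
    by_cases hsame : ∀ m₁ ∈ M, ∀ m₂ ∈ M, (faceNext σ).SameCycle m₁ m₂
    · -- one face
      obtain ⟨m, hm⟩ := hM
      have h1 : 0 < M.card := Finset.card_pos.2 ⟨m, hm⟩
      refine ⟨[], by simp; omega, fun u _ => ⟨V, inferInstance, G, id, σ, s, m,
        Function.injective_id, fun a b k => k, fun a b _ _ k => k, fun v _ => ⟨v, rfl⟩, rfl,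
        fun w _ => ⟨_, rfl⟩,
        hP.conn, hP.plane, hP.adj, hP.symm, hP.ne, hP.low, fun v => ?_, fun d => ?_⟩⟩
      · rcases hP.high v with k | ⟨m', hm', d', k1, k2⟩
        · exact Or.inl k
        · exact Or.inr ⟨m, rfl, d', (hsame m hm m' hm').trans k1, k2⟩
      · rcases hP.slack d with k | ⟨m', hm', k1 | k1⟩
        · exact Or.inl k
        · exact Or.inr ⟨m, rfl, Or.inl ((hsame m hm m' hm').trans k1)⟩
        · exact Or.inr ⟨m, rfl, Or.inr ((hsame m hm m' hm').trans k1)⟩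
    push Not at hsame
    obtain ⟨m₁, hm₁, m₂, hm₂, h12⟩ := hsame
    choose r hr using fun e => exists_side hP.conn hP.plane hp e
    have hdart : ∀ u, u ≠ s → ∃ d : G.Dart, d.fst = u := fun u hu => ⟨⟨(u, p u), (hp u hu).1⟩, rfl⟩
    rcases passE hP hp hr (M := (M : Set G.Dart)) hm₁ hm₂ h12 with
      ⟨e, he, e1, e2, e3, e4⟩ | ⟨e, b, he, hb, heb, hne, e1, e2, e3, e4⟩
    · -- one cut
      have hfl := side_flip hP.conn hP.plane hp hr he
      have D1 := pe_side hP hp hpE hr hm₁ e1 e3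
      have D2 := pe_side hP hp hpE hr hm₂ (e := e.symm) (by rw [hfl, e2, add_zero]) e4
      have hcard : (M.filter fun m => r e m = 1).card + (M.filter fun m => r e.symm m = 1).card ≤
          M.card := by
        rw [← Finset.card_union_of_disjoint]
        · exact Finset.card_le_card (Finset.union_subset (Finset.filter_subset _ _)
            (Finset.filter_subset _ _))
        · rw [Finset.disjoint_filter]
          intro m _ k1 k2
          rw [hfl, k1] at k2
          exact absurd k2 (by decide)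
      have c1 := Finset.card_pos.2 D1.ne
      have c2 := Finset.card_pos.2 D2.ne
      obtain ⟨L1, a1, a3⟩ := D1.decP hSub hP hp hpE fun V _ G σ E h s p N k1 k2 k3 k4 k5 =>
        ih _ (by omega) V G σ E h s p N k1 k2 k3 k4 k5
      obtain ⟨L2, b1, b3⟩ := D2.decP hSub hP hp hpE fun V _ G σ E h s p N k1 k2 k3 k4 k5 =>
        ih _ (by omega) V G σ E h s p N k1 k2 k3 k4 k5
      refine ⟨[e.fst, e.snd] ++ (L1 ++ L2), ?_, ?_⟩
      · rw [List.length_append, List.length_append]
        show 2 + _ + 4 ≤ _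
        omega
      · intro u hu
        rw [LS_append, LS_append, LS_pair] at hu ⊢
        have hus : u ≠ s := by
          rintro rfl
          exact hu (Or.inl (ch_root hp e))
        obtain ⟨d, rfl⟩ := hdart u hus
        rcases zmod2_cases (r e d) with k | k
        · exact b3 _ (by rw [ch_flip]; exact Set.subset_union_left)
            (fun v hv => Or.inr (Or.inr hv)) _ hu ⟨d, by
              show r e.symm d = 1
              rw [hfl, k, add_zero], rfl⟩
        · exact a3 _ Set.subset_union_left (fun v hv => Or.inr (Or.inl hv)) _ hu ⟨d, k, rfl⟩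
    · -- two cuts
      have hfl := side_flip hP.conn hP.plane hp hr he
      have hfb := side_flip hP.conn hP.plane hp hr hb
      have hsub : ∀ d, r e d = 1 → r b d = 1 := fun d hd =>
        side_nested hP.conn hP.plane hp hr he hb heb hne hd
      have D1 := pe_side hP hp hpE hr hm₁ e1 e3
      have D2 := pe_side hP hp hpE hr hm₂ (e := b.symm) (by rw [hfb, e2, add_zero]) e4
      have D3 := pe_mid hP hp hpE hr he heb
      have hcard : (M.filter fun m => r e m = 1).card + ((M.filter fun m => r b.symm m = 1).card +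
          (M.filter fun m => r e m = 0 ∧ r b m = 1).card) ≤ M.card := by
        rw [← Finset.card_union_of_disjoint, ← Finset.card_union_of_disjoint]
        · exact Finset.card_le_card (Finset.union_subset (Finset.filter_subset _ _)
            (Finset.union_subset (Finset.filter_subset _ _) (Finset.filter_subset _ _)))
        · rw [Finset.disjoint_left]
          intro m k1 k2
          rw [Finset.mem_filter] at k1
          rcases Finset.mem_union.1 k2 with k2 | k2
          · rw [Finset.mem_filter, hfb, hsub m k1.2] at k2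
            exact absurd k2.2 (by decide)
          · rw [Finset.mem_filter, k1.2] at k2
            exact absurd k2.2.1 (by decide)
        · rw [Finset.disjoint_filter]
          intro m _ k1 k2
          rw [hfb, k2.2] at k1
          exact absurd k1 (by decide)
      have c3 := Finset.card_insert_le b (M.filter fun m => r e m = 0 ∧ r b m = 1)
      have c1 := Finset.card_pos.2 D1.ne
      have c2 := Finset.card_pos.2 D2.ne
      obtain ⟨L1, a1, a3⟩ := D1.decP hSub hP hp hpE fun V _ G σ E h s p N k1 k2 k3 k4 k5 =>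
        ih _ (by omega) V G σ E h s p N k1 k2 k3 k4 k5
      obtain ⟨L2, b1, b3⟩ := D2.decP hSub hP hp hpE fun V _ G σ E h s p N k1 k2 k3 k4 k5 =>
        ih _ (by omega) V G σ E h s p N k1 k2 k3 k4 k5
      obtain ⟨L3, d1, d3⟩ := D3.decP hSub hP hp hpE fun V _ G σ E h s p N k1 k2 k3 k4 k5 =>
        ih _ (by omega) V G σ E h s p N k1 k2 k3 k4 k5
      refine ⟨([e.fst, e.snd] ++ [b.fst, b.snd]) ++ (L1 ++ (L2 ++ L3)), ?_, ?_⟩
      · rw [List.length_append, List.length_append, List.length_append, List.length_append]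
        show 2 + 2 + _ + 4 ≤ _
        omega
      · intro u hu
        rw [LS_append, LS_append, LS_append, LS_append, LS_pair, LS_pair] at hu ⊢
        have hus : u ≠ s := by
          rintro rfl
          exact hu (Or.inl (Or.inl (ch_root hp e)))
        obtain ⟨d, rfl⟩ := hdart u hus
        rcases zmod2_cases (r e d) with k | k
        · rcases zmod2_cases (r b d) with k' | k'
          · exact b3 _ (by rw [ch_flip]; exact fun v hv => Or.inl (Or.inr hv))
              (fun v hv => Or.inr (Or.inr (Or.inl hv))) _ hu ⟨d, by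
                show r b.symm d = 1
                rw [hfb, k', add_zero], rfl⟩
          · exact d3 _ Set.subset_union_left (fun v hv => Or.inr (Or.inr (Or.inr hv))) _ hu
              ⟨d, ⟨k, k'⟩, rfl⟩
        · exact a3 _ (fun v hv => Or.inl (Or.inl hv)) (fun v hv => Or.inr (Or.inl hv)) _ hu
            ⟨d, k, rfl⟩

/-- **`RowMQp`** -/
theorem rowMQp_of (hSub : RowSub) : RowMQp := fun γ V _ G σ E h s p M hP hM hMc hp =>
  decEP_of hSub γ V G σ E h s p M hP hM hMc
    (fun v hv => ⟨hP.adj _ _ (hp v hv).1, by linarith [(hp v hv).2]⟩) fun v hv => (hp v hv).1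

end Vale.Agent.P235.H341W
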