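import Vale.Agent.P235.R2.H718.S2

/-!
# Rounds relative to one metric: the leaves may use the removed chains (helper341)
-/

namespace Vale.Agent.P235.H341W

open Finset Vale.Agent.P235 Vale.Agent.P235.H718

/-- the union of the chains of finitely many vertices -/
def UC {V : Type} (p : V → V) (s : V) (C : Finset V) : Set V := {v | ∃ c ∈ C, v ∈ chain p s c}

theorem UC_down {V : Type} {p : V → V} {s : V} {C : Finset V} {v : V} (hv : v ≠ s)
    (h : v ∈ UC p s C) : p v ∈ UC p s C := by
  obtain ⟨c, hc, h⟩ := h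
  exact ⟨c, hc, chain_down hv h⟩

section rec

variable {V : Type} [Finite V] {G : SimpleGraph V} {ℓ : Sym2 V → ℝ}

/-- the recursion -/
theorem rec_pointed' (hc : G.Connected) (hℓ : ∀ e ∈ G.edgeSet, 0 < ℓ e) {u : V → ℝ}
    (hu : ∀ a b, |u a - u b| ≤ pathDist G ℓ a b) {p : V → V} {s : V} (hsep : Seps G p s)
    (hiso : ∀ c, ∀ a ∈ chain p s c, ∀ b ∈ chain p s c, pathDist G ℓ a b ≤ |u a - u b|)
    (A : Finset V) {K : ℝ} (hK : 0 ≤ K) (k0 : ℕ)
    (hleaf : ∀ C : Finset V, C.card ≤ 3 * k0 → ∀ v ∉ UC p s C,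
      (∀ a ∈ A, a ∉ compSet G (UC p s C) v) →
      ∃ (W' : Type) (G' : SimpleGraph W') (ℓ' : Sym2 W' → ℝ)
        (κ : compSet G (UC p s C) v → W'),
        Piece G ℓ (compSet G (UC p s C) v) G' ℓ' κ ∧
        ∀ H : W' → ℝ, (∀ v, 0 < H v) → (∀ u v, G'.Adj u v → |H u - H v| ≤ ℓ' s(u, v)) →
          Pointed G' ℓ' H K) (k : ℕ) :
    ∀ (C : Finset V) (v0 : V), v0 ∉ UC p s C → C.card + 3 * k ≤ 3 * k0 →
      ∀ (W : Type) [Finite W] (G₁ : SimpleGraph W) (ι : W → V), Function.Injective ι →
      (∀ a b, G₁.Adj a b ↔ G.Adj (ι a) (ι b)) → G₁.Connected →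
      (∀ x, x ∈ Set.range ι ↔ x ∈ compSet G (UC p s C) v0) →
      (∀ B ⊆ A, (∀ b ∈ B, b ∈ Set.range ι) → 2 ^ k * B.card < 3 ^ k) →
      ∀ H : W → ℝ, (∀ v, 0 < H v) → (∀ a b, G₁.Adj a b → |H a - H b| ≤ ℓ s(ι a, ι b)) →
      (∀ a, ∀ b ∉ Set.range ι, G.Adj (ι a) b → H a ≤ ℓ s(ι a, b)) →
      Pointed2D G₁ (fun e => ℓ (e.map ι)) H (fun a b => pathDist G ℓ (ι a) (ι b)) (4 * k) K := by
  classical
  have := Fintype.ofFinite V
  have hd := pathDist_isMet hc hℓ
  induction k with
  | zero =>
    intro C v0 hv0 hCk W _ G₁ ι hι hadj hconn hran hA H hH hHl hHb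
    have hne : Nonempty W := hconn.nonempty
    obtain ⟨w0⟩ := hconn.nonempty
    -- no point of `A`
    have hno : ∀ a ∈ A, a ∉ compSet G (UC p s C) v0 := by
      intro a ha hr
      rw [← hran] at hr
      have h1 := hA {a} (by simpa using ha) (by simpa using hr)
      simp at h1
    have hin : ∀ w, ι w ∈ compSet G (UC p s C) v0 := fun w => (hran _).1 ⟨w, rfl⟩
    obtain ⟨W', G', ℓ', κ, hpc, hP⟩ := hleaf C (by omega) v0 hv0 hno
    -- the extension by zero
    have hHd : ∀ a b, |H a - H b| ≤ pathDist G ℓ (ι a) (ι b) := by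
      let Φ : V → ℝ := fun v => if h : ∃ w, ι w = v then H h.choose else 0
      have hΦ : ∀ w, Φ (ι w) = H w := by
        intro w
        have h : ∃ w', ι w' = ι w := ⟨w, rfl⟩
        show (if h : ∃ w', ι w' = ι w then H h.choose else 0) = _
        rw [dif_pos h, hι h.choose_spec]
      have hΦ0 : ∀ v, v ∉ Set.range ι → Φ v = 0 := fun v hv => dif_neg fun ⟨w, hw⟩ => hv ⟨w, hw⟩
      have h1 := pathDist_gen hc (f := Φ) (ℓ := ℓ) (by
        intro x y hxy
        have hl0 := hℓ s(x, y) hxy
        by_cases hx : x ∈ Set.range ι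
        · obtain ⟨a, rfl⟩ := hx
          by_cases hy : y ∈ Set.range ι
          · obtain ⟨b, rfl⟩ := hy
            rw [hΦ, hΦ]
            exact hHl a b ((hadj _ _).2 hxy)
          · rw [hΦ, hΦ0 y hy, sub_zero, abs_of_pos (hH a)]
            exact hHb a y hy hxy
        · by_cases hy : y ∈ Set.range ι
          · obtain ⟨b, rfl⟩ := hy
            rw [hΦ, hΦ0 x hx, zero_sub, abs_neg, abs_of_pos (hH b), Sym2.eq_swap]
            exact hHb b x hx hxy.symm
          · rw [hΦ0 x hx, hΦ0 y hy, sub_zero, abs_zero]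
            exact hl0.le)
      intro a b
      have h2 := h1 (ι a) (ι b)
      rwa [hΦ, hΦ] at h2
    have h1 := pointed2D_of_pointedD (leaf_pointedD (G₁ := G₁) hc hℓ (fun a b => (hadj a b).1) hin
      hpc hK hP hH hHd)
    simpa using h1
  | succ k ih =>
    intro C v0 hv0 hCk W _ G₁ ι hι hadj hconn hran hA H hH hHl hHb
    obtain ⟨a, ha⟩ := hsep (A.filter fun v => v ∈ Set.range ι)
    set U : Set V := ⋃ i, chain p s (a i) with hU
    have hchn : ∀ i, (chain p s (a i)).Nonempty := fun i => ⟨a i, Relation.ReflTransGen.refl⟩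
    choose ν hν using fun i => exists_near (X := chain p s (a i)) hc hℓ (hchn i)
    have e4 : 4 * ((k + 1 : ℕ) : ℝ) = 4 * (k : ℝ) + ((3 : ℕ) + 1) := by push_cast; ring
    rw [e4]
    -- the new set of chains
    have hUC : ∀ x, x ∈ UC p s (C ∪ Finset.univ.image a) ↔ x ∈ UC p s C ∨ x ∈ U := by
      intro x
      constructor
      · rintro ⟨c, hc, hx⟩
        rcases Finset.mem_union.1 hc with hc | hc
        · exact Or.inl ⟨c, hc, hx⟩
        · obtain ⟨i, _, rfl⟩ := Finset.mem_image.1 hc
          exact Or.inr (Set.mem_iUnion.2 ⟨i, hx⟩)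
      · rintro (⟨c, hc, hx⟩ | hx)
        · exact ⟨c, Finset.mem_union_left _ hc, hx⟩
        · obtain ⟨i, hi⟩ := Set.mem_iUnion.1 hx
          exact ⟨a i, Finset.mem_union_right _ (Finset.mem_image_of_mem a (Finset.mem_univ i)), hi⟩
    have hCc : (C ∪ Finset.univ.image a).card ≤ C.card + 3 := by
      refine (Finset.card_union_le _ _).trans (Nat.add_le_add_left ?_ _)
      exact Finset.card_image_le.trans (by simp)
    have hιC : ∀ w, ι w ∉ UC p s C := fun w => ReachOff.right ((hran _).1 ⟨w, rfl⟩)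
    refine pointed2D_step (G := G₁) (ℓ := fun e => ℓ (e.map ι)) (D := fun x y =>
      pathDist G ℓ (ι x) (ι y)) (u := fun x => u (ι x))
      (D' := fun (i : Fin 3) x => pathDist G ℓ (ι x) (ν i (ι x)))
      (P := ι ⁻¹' U) ?_ hH hHl (fun x => hd.self _) (fun x y => hd.symm _ _)
      (fun x y z => hd.tri _ _ _) ?_ ?_ ?_ ?_ ?_ (by positivity) hK ?_
    · intro e
      induction e using Sym2.ind with
      | _ x y =>
        intro he
        exact hℓ _ ((hadj x y).1 he)
    · intro x y hxy
      exact pathDist_adj hℓ ((hadj x y).1 hxy)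
    · intro x y hxy
      exact (hu _ _).trans (pathDist_adj hℓ ((hadj x y).1 hxy))
    · intro i x y hxy
      have h1 := (hν i).lip hc hℓ (ι x) (ι y)
      have h2 := (hν i).lip hc hℓ (ι y) (ι x)
      rw [hd.symm (ι y) (ι x)] at h2
      have h3 := pathDist_adj hℓ ((hadj x y).1 hxy)
      show |pathDist G ℓ (ι x) (ν i (ι x)) - pathDist G ℓ (ι y) (ν i (ι y))| ≤ ℓ s(ι x, ι y)
      rw [abs_le]; constructor <;> linarith
    · intro i x y
      show pathDist G ℓ (ι x) (ι y) ≤ |u (ι x) - u (ι y)| +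
        2 * (pathDist G ℓ (ι x) (ν i (ι x)) + pathDist G ℓ (ι y) (ν i (ι y)))
      have h3 := hiso (a i) _ ((hν i).mem (ι x)) _ ((hν i).mem (ι y))
      have h4 := hu (ι x) (ν i (ι x))
      have h5 := hu (ι y) (ν i (ι y))
      have h6 : |u (ν i (ι x)) - u (ν i (ι y))| ≤ |u (ι x) - u (ι y)| + |u (ι x) - u (ν i (ι x))| +
          |u (ι y) - u (ν i (ι y))| := by
        have e : u (ν i (ι x)) - u (ν i (ι y)) = (u (ι x) - u (ι y)) +
            -(u (ι x) - u (ν i (ι x))) + (u (ι y) - u (ν i (ι y))) := by ring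
        rw [e]
        refine (abs_add_three _ _ _).trans ?_
        rw [abs_neg]
      have h7 := hd.tri (ι x) (ν i (ι x)) (ι y)
      have h8 := hd.tri (ν i (ι x)) (ν i (ι y)) (ι y)
      rw [hd.symm (ν i (ι y)) (ι y)] at h8
      linarith
    · intro z hz
      have hz' : ι z ∈ U := hz
      rw [hU, Set.mem_iUnion] at hz'
      obtain ⟨i, hi⟩ := hz'
      exact ⟨i, fun x => (hν i).le _ _ hi⟩
    · intro v hv φ hφ0 hφP hφH hφz hφl
      have hcomp := comp_connected (G := G₁) (X := ι ⁻¹' U) hv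
      have hv' : ι v ∉ U := hv
      -- the component of the small graph is a component of `G - UC`
      have hreach : ∀ (X : Set V), (∀ w, ι w ∈ X → ι w ∈ U) →
          ∀ x y, ReachOff G₁ (ι ⁻¹' U) x y → ReachOff G X (ι x) (ι y) := by
        rintro X hX x y ⟨q, hq⟩
        have key : ∀ x y : W, ∀ q : G₁.Walk x y, (∀ z ∈ q.support, z ∉ ι ⁻¹' U) →
            ReachOff G X (ι x) (ι y) := by
          intro x y q
          induction q with
          | nil =>
            intro hq
            exact ReachOff.refl fun h => hq _ (by simp) (hX _ h)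
          | @cons x z y hxz q ih =>
            intro hq
            have h1 : ι x ∉ X := fun h => hq x (by simp) (hX _ h)
            have h2 : ι z ∉ X := fun h => hq z (by simp) (hX _ h)
            exact (ReachOff.adj h1 h2 ((hadj _ _).1 hxz)).trans
              (ih fun z hz => hq z (by simp [hz]))
        exact key x y q hq
      have hback : ∀ x y : V, ReachOff G (UC p s (C ∪ Finset.univ.image a)) x y → ∀ x' : W,
          ι x' = x → ∃ y' : W, ι y' = y ∧ ReachOff G₁ (ι ⁻¹' U) x' y' := by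
        rintro x y ⟨q, hq⟩
        have key : ∀ x y : V, ∀ q : G.Walk x y,
            (∀ z ∈ q.support, z ∉ UC p s (C ∪ Finset.univ.image a)) → ∀ x' : W,
            ι x' = x → ∃ y' : W, ι y' = y ∧ ReachOff G₁ (ι ⁻¹' U) x' y' := by
          intro x y q
          induction q with
          | nil =>
            intro hq x' hx'
            refine ⟨x', hx', ReachOff.refl ?_⟩
            intro h
            have h' : ι x' ∈ U := h
            rw [hx'] at h'
            exact hq _ (by simp) ((hUC _).2 (Or.inr h'))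
          | @cons x z y hxz q ih =>
            intro hq x' hx'
            have h1 := hq x (by simp)
            have h2 := hq z (by simp)
            rw [hUC, not_or] at h1 h2
            have h3 : z ∈ compSet G (UC p s C) v0 := by
              have h4 : x ∈ compSet G (UC p s C) v0 := (hran x).1 ⟨x', hx'⟩
              exact ReachOff.trans h4 (ReachOff.adj h1.1 h2.1 hxz)
            obtain ⟨z', hz'⟩ := (hran z).2 h3
            obtain ⟨y', hy', h5⟩ := ih (fun w hw => hq w (by simp [hw])) z' hz'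
            refine ⟨y', hy', (ReachOff.adj ?_ ?_ ?_).trans h5⟩
            · intro h
              have h' : ι x' ∈ U := h
              rw [hx'] at h'
              exact h1.2 h'
            · intro h
              have h' : ι z' ∈ U := h
              rw [hz'] at h'
              exact h2.2 h'
            · rw [hadj, hx', hz']
              exact hxz
        exact key x y q hq
      have hrange : ∀ w, w ∈ Set.range (fun x : compSet G₁ (ι ⁻¹' U) v => ι x.1) ↔
          ∃ x, ReachOff G₁ (ι ⁻¹' U) v x ∧ ι x = w := by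
        intro w
        constructor
        · rintro ⟨x, rfl⟩
          exact ⟨x.1, x.2, rfl⟩
        · rintro ⟨x, hx, rfl⟩
          exact ⟨⟨x, hx⟩, rfl⟩
      have hvC : ι v ∉ UC p s (C ∪ Finset.univ.image a) := by
        rw [hUC, not_or]
        exact ⟨hιC v, hv'⟩
      refine ih (C ∪ Finset.univ.image a) (ι v) hvC (by omega)
        (compSet G₁ (ι ⁻¹' U) v) (G₁.induce (compSet G₁ (ι ⁻¹' U) v)) (fun x => ι x.1)
        (hι.comp Subtype.val_injective) (fun x y => hadj x.1 y.1) hcomp ?_ ?_ (fun x => φ x.1)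
        (fun x => hφP x.1 (ReachOff.right x.2)) (fun x y hxy => hφl x.1 y.1 hxy) ?_
      · -- the range
        intro w
        rw [hrange]
        constructor
        · rintro ⟨x, hx, rfl⟩
          exact hreach _ (fun w hw => ((hUC _).1 hw).resolve_left (hιC w)) v x hx
        · intro hw
          obtain ⟨y', hy', h⟩ := hback _ _ hw v rfl
          exact ⟨y', h, hy'⟩
      · -- fewer points
        intro B hB hBr
        have h1 : 3 * B.card ≤ 2 * (A.filter fun v => v ∈ Set.range ι).card := by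
          refine ha (ι v) hv' B (fun b hb => ?_) (fun b hb => ?_)
          · rw [Finset.mem_filter]
            obtain ⟨x, _, hx⟩ := (hrange b).1 (hBr b hb)
            exact ⟨hB hb, ⟨x, hx⟩⟩
          · obtain ⟨x, hx1, hx⟩ := (hrange b).1 (hBr b hb)
            rw [← hx]
            exact hreach U (fun _ h => h) _ _ hx1
        have h2 := hA (A.filter fun v => v ∈ Set.range ι) (Finset.filter_subset _ _)
          (fun b hb => (Finset.mem_filter.1 hb).2)
        have h3 : 2 ^ k * (3 * B.card) ≤ 2 ^ k * (2 * (A.filter fun v => v ∈ Set.range ι).card) :=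
          Nat.mul_le_mul_left _ h1
        have h4 : (2 : ℕ) ^ (k + 1) = 2 ^ k * 2 := pow_succ _ _
        have h5 : (3 : ℕ) ^ (k + 1) = 3 ^ k * 3 := pow_succ _ _
        rw [h4, h5] at h2
        nlinarith
      · -- the boundary
        rintro ⟨x, hx⟩ b hb hxb
        show φ x ≤ ℓ s(ι x, b)
        by_cases hbr : b ∈ Set.range ι
        · obtain ⟨y, rfl⟩ := hbr
          have hxy : G₁.Adj x y := (hadj x y).2 hxb
          have hyU : y ∈ ι ⁻¹' U := by
            by_contra hn
            exact hb ((hrange _).2 ⟨y, ReachOff.trans hx (ReachOff.adj (ReachOff.right hx) hn hxy),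
              rfl⟩)
          have h1 := hφl x y hxy
          rw [hφz y hyU, sub_zero] at h1
          exact (le_abs_self _).trans h1
        · exact (hφH x).trans (hHb x b hbr hxb)

/-- the whole graph -/
theorem pointed2_of_seps (hc : G.Connected) (hℓ : ∀ e ∈ G.edgeSet, 0 < ℓ e) {u : V → ℝ}
    (hu : ∀ a b, |u a - u b| ≤ pathDist G ℓ a b) {p : V → V} {s : V} (hsep : Seps G p s)
    (hiso : ∀ c, ∀ a ∈ chain p s c, ∀ b ∈ chain p s c, pathDist G ℓ a b ≤ |u a - u b|)
    (A : Finset V) {K : ℝ} (hK : 0 ≤ K) (k : ℕ) (hk : 2 ^ k * A.card < 3 ^ k)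
    (hleaf : ∀ C : Finset V, C.card ≤ 3 * k → ∀ v ∉ UC p s C,
      (∀ a ∈ A, a ∉ compSet G (UC p s C) v) →
      ∃ (W' : Type) (G' : SimpleGraph W') (ℓ' : Sym2 W' → ℝ)
        (κ : compSet G (UC p s C) v → W'),
        Piece G ℓ (compSet G (UC p s C) v) G' ℓ' κ ∧
        ∀ H : W' → ℝ, (∀ v, 0 < H v) → (∀ u v, G'.Adj u v → |H u - H v| ≤ ℓ' s(u, v)) →
          Pointed G' ℓ' H K)
    {H : V → ℝ} (hH : ∀ v, 0 < H v) (hHl : ∀ u v, G.Adj u v → |H u - H v| ≤ ℓ s(u, v)) :
    Pointed2D G ℓ H (pathDist G ℓ) (4 * k) K := by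
  have hemp : ∀ x, x ∉ UC p s (∅ : Finset V) := by
    rintro x ⟨c, hc, _⟩
    exact absurd hc (Finset.notMem_empty c)
  have h := rec_pointed' hc hℓ hu hsep hiso A hK k hleaf k ∅ s (hemp s) (by simp) V G id
    Function.injective_id (fun a b => Iff.rfl) hc ?_ ?_ H hH hHl
    (fun a b hb => absurd ⟨b, rfl⟩ hb)
  · have e : (fun e : Sym2 V => ℓ (e.map id)) = ℓ := by
      funext e
      rw [Sym2.map_id]
      rfl
    rw [e] at h
    exact h
  · intro x
    refine ⟨fun _ => ?_, fun _ => ⟨x, rfl⟩⟩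
    obtain ⟨q⟩ := hc.preconnected s x
    exact ⟨q, fun z _ => hemp z⟩
  · intro B hB _
    refine lt_of_le_of_lt (Nat.mul_le_mul_left _ (Finset.card_le_card hB)) hk

end rec

end Vale.Agent.P235.H341W
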