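import Vale.Agent.P235.R2.H341.Y1
import Vale.Agent.P235.R2.H324.FewDefs
import Vale.Agent.P235.R2.H418.Ind
import Vale.Agent.P235.R2.H105.Const

/-!
# Plane graphs, one minimum, few exceptional vertices: the pointed form (helper341)
-/

namespace Vale.Agent.P235.H341W

open Finset Vale.Agent.P235 Vale.Agent.P235.Red Vale.Agent.P235.H718 Vale.Agent.P235.Few
open Vale.Agent.P235.R2.H105.Const

/-- one point -/
theorem embeds_of_subsingleton {X : Type} {d : X → X → ℝ} (hX : ∀ x y : X, x = y)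
    (hd : ∀ x, d x x = 0) (K : ℝ) : EmbedsL1 d K := by
  refine ⟨ℝ, inferInstance, MeasureTheory.volume, fun _ => 0, fun x y => ?_⟩
  rw [hX x y, hd]
  simp

theorem embeds_mono {X : Type} {d : X → X → ℝ} (hd : ∀ x y, 0 ≤ d x y) {K K' : ℝ} (hK : K ≤ K')
    (h : EmbedsL1 d K) : EmbedsL1 d K' := by
  obtain ⟨Ω, m, μ, f, hf⟩ := h
  exact ⟨Ω, m, μ, f, fun x y => ⟨(hf x y).1, (hf x y).2.trans
    (mul_le_mul_of_nonneg_right hK (hd x y))⟩⟩

section leaf

variable {V : Type} [Finite V] {G : SimpleGraph V} {ℓ : Sym2 V → ℝ}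

/-- a chain of tight edges is isometric -/
theorem orb_tight (hc : G.Connected) (hℓ : ∀ e ∈ G.edgeSet, 0 < ℓ e) {h : V → ℝ} {s : V}
    {p : V → V} (hp : ∀ v, v ≠ s → Tt G ℓ h (p v) v) {a b : V} (hab : Orb p s a b) :
    pathDist G ℓ a b ≤ h a - h b := by
  have hd := pathDist_isMet hc hℓ
  induction hab with
  | refl => rw [hd.self, sub_self]
  | @tail x y _ h2 ih =>
    obtain ⟨hx, rfl⟩ := h2
    obtain ⟨h3, h4⟩ := hp x hx
    have h5 := hd.tri a x (p x)
    have h6 := pathDist_adj hℓ h3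
    rw [hd.symm] at h6
    linarith

/-- the piece of a component and the chains around it -/
def Pc (G : SimpleGraph V) (p : V → V) (s : V) (C : Finset V) (v : V) : Set V :=
  compSet G (UC p s C) v ∪ (UC p s C ∪ {s})

omit [Finite V] in
theorem pc_down {h : V → ℝ} {s : V} {p : V → V} (hp : ∀ v, v ≠ s → Tt G ℓ h (p v) v)
    {C : Finset V} {v w : V} (hw : w ∈ Pc G p s C v) (hws : w ≠ s) : p w ∈ Pc G p s C v := by
  rcases hw with hw | hw | hw
  · by_cases h1 : p w ∈ UC p s C
    · exact Or.inr (Or.inl h1)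
    · exact Or.inl (ReachOff.trans hw (ReachOff.adj (ReachOff.right hw) h1 (hp w hws).1.symm))
  · exact Or.inr (Or.inl (UC_down hws hw))
  · exact absurd hw hws

theorem pc_connected (hℓ : ∀ e ∈ G.edgeSet, 0 < ℓ e) {h : V → ℝ} {s : V} {p : V → V}
    (hp : ∀ v, v ≠ s → Tt G ℓ h (p v) v) (C : Finset V) (v : V) :
    (G.induce (Pc G p s C v)).Connected := by
  have hs : s ∈ Pc G p s C v := Or.inr (Or.inr rfl)
  have key : ∀ w (hw : w ∈ Pc G p s C v), (G.induce (Pc G p s C v)).Reachable ⟨w, hw⟩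
      ⟨s, hs⟩ := by
    intro w
    induction w using (wf_up (fun v => - h v)).induction with
    | _ w ih =>
      intro hw
      by_cases hws : w = s
      · subst hws
        exact SimpleGraph.Reachable.refl _
      · obtain ⟨h3, h4⟩ := hp w hws
        have h5 := hℓ s(p w, w) h3
        have h6 := pc_down hp hw hws
        have h1 : (G.induce (Pc G p s C v)).Adj ⟨w, hw⟩ ⟨p w, h6⟩ := h3.symm
        exact h1.reachable.trans (ih (p w) (by linarith) h6)
  rw [SimpleGraph.connected_iff]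
  exact ⟨fun a b => (key a.1 a.2).trans (key b.1 b.2).symm, ⟨⟨s, hs⟩⟩⟩

/-- the leaf -/
theorem leaf_embeds (hFew : RowFewT) {C₀ : ℝ} (hC : 1 ≤ C₀) (hM : MStarLL C₀)
    {σ : Equiv.Perm G.Dart} (hc : G.Connected) (hP : PlaneMap G σ) (hℓ : ∀ e ∈ G.edgeSet, 0 < ℓ e)
    {h : V → ℝ} (h1 : ∀ u v, G.Adj u v → |h u - h v| ≤ ℓ s(u, v)) {s : V} {p : V → V}
    (hp : ∀ v, v ≠ s → Tt G ℓ h (p v) v) {B : Finset V} (hB : ∀ v, v ∉ B → ∃ u, Tt G ℓ h v u)
    (C : Finset V) (v : V) (hno : ∀ a ∈ B, a ∉ compSet G (UC p s C) v) :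
    EmbedsL1 (pathDist (G.induce (Pc G p s C v)) (fun e => ℓ (e.map Subtype.val)))
      (1000000000000000 * C₀ * ((ll (Nat.card V) : ℝ) + 1 +
        Real.log (((C.card + 2 : ℕ) : ℝ) + 2))) := by
  classical
  have hs : s ∈ Pc G p s C v := Or.inr (Or.inr rfl)
  have hconn := pc_connected hℓ hp C v
  have hpos := induce_pos hℓ (Pc G p s C v)
  have hd := pathDist_isMet hconn hpos
  by_cases hne : Nonempty (G.induce (Pc G p s C v)).Dart
  · obtain ⟨σ', hσ', -⟩ := rowInd V G σ (Pc G p s C v) hc hP hconn hne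
    have key := hFew hC hM (Pc G p s C v) (G.induce (Pc G p s C v)) σ'
      (fun e => ℓ (e.map Subtype.val)) (fun x => h x.1) {⟨s, hs⟩}
      {x | x.1 ∈ insert s C} hconn hσ' hpos (fun a b hab => h1 a.1 b.1 hab)
      (fun x hx => by
        have hxs : x.1 ≠ s := fun k => hx (Subtype.ext k)
        exact ⟨⟨p x.1, pc_down hp x.2 hxs⟩, (hp x.1 hxs).1, (hp x.1 hxs).2⟩)
      (fun x hx => by
        obtain ⟨x, hxm⟩ := x
        have hx' : x ∉ insert s C := hx
        rw [Finset.mem_insert, not_or] at hx'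
        obtain ⟨hxs, hxC⟩ := hx'
        rcases hxm with hxm | hxm | hxm
        · obtain ⟨u, hu1, hu2⟩ := hB x (fun k => hno x k hxm)
          by_cases hu : u ∈ UC p s C
          · exact ⟨⟨u, Or.inr (Or.inl hu)⟩, hu1, hu2⟩
          · exact ⟨⟨u, Or.inl (ReachOff.trans hxm (ReachOff.adj (ReachOff.right hxm) hu hu1))⟩,
              hu1, hu2⟩
        · obtain ⟨c, hcC, hcx⟩ := hxm
          have hcx' : Orb p s c x := hcx
          rcases Relation.ReflTransGen.cases_tail hcx' with k | ⟨w, k1, hw, k2⟩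
          · exact absurd (k ▸ hcC) hxC
          · have k3 : w ∈ UC p s C := ⟨c, hcC, k1⟩
            have k4 := hp w hw
            rw [← k2] at k4
            exact ⟨⟨w, Or.inr (Or.inl k3)⟩, k4.1, k4.2⟩
        · exact absurd hxm hxs)
    refine embeds_mono hd.nonneg ?_ key
    refine mul_le_mul_of_nonneg_left ?_ (by positivity)
    have e1 : (({⟨s, hs⟩} : Set (Pc G p s C v)).ncard : ℝ) = 1 := by
      rw [Set.ncard_singleton]
      norm_num
    have e2 : (({x : Pc G p s C v | x.1 ∈ insert s C} : Set (Pc G p s C v)).ncard : ℝ) ≤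
        (C.card : ℝ) + 1 := by
      have k1 : ({x : Pc G p s C v | x.1 ∈ insert s C} : Set (Pc G p s C v)).ncard ≤
          (insert s C).card := by
        rw [← Set.ncard_coe_finset]
        refine Set.ncard_le_ncard_of_injOn Subtype.val (fun x hx => hx)
          (Subtype.val_injective.injOn) (Finset.finite_toSet _)
      have k2 := k1.trans (Finset.card_insert_le s C)
      exact_mod_cast k2
    have e3 : (ll (Nat.card (Pc G p s C v)) : ℝ) ≤ ll (Nat.card V) := by
      have k1 : Nat.card (Pc G p s C v) ≤ Nat.card V :=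
        Nat.card_le_card_of_injective Subtype.val Subtype.val_injective
      have k2 : ll (Nat.card (Pc G p s C v)) ≤ ll (Nat.card V) :=
        Nat.log_mono_right (Nat.add_le_add_right (Nat.log_mono_right k1) 1)
      exact_mod_cast k2
    have e4 : Real.log ((({⟨s, hs⟩} : Set (Pc G p s C v)).ncard : ℝ) +
        ({x : Pc G p s C v | x.1 ∈ insert s C} : Set (Pc G p s C v)).ncard + 2) ≤
        Real.log (((C.card + 2 : ℕ) : ℝ) + 2) := by
      refine Real.log_le_log (by rw [e1]; positivity) ?_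
      rw [e1]
      push_cast
      linarith
    linarith
  · -- one vertex
    refine embeds_of_subsingleton (fun x y => ?_) hd.self _
    by_contra hxy
    obtain ⟨q⟩ := hconn.preconnected x y
    cases q with
    | nil => exact hxy rfl
    | cons k _ => exact hne ⟨⟨(_, _), k⟩⟩

end leaf

/-- **the pointed form** of the theorem for few exceptional vertices -/
theorem few_pointed (hFew : RowFewT) (hSep : RowSep) {C₀ : ℝ} (hC : 1 ≤ C₀) (hM : MStarLL C₀)
    (V : Type) [Finite V] (G : SimpleGraph V) (σ : Equiv.Perm G.Dart) (ℓ : Sym2 V → ℝ) (h : V → ℝ)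
    (s : V) (B : Finset V) (hc : G.Connected) (hP : PlaneMap G σ) (hℓ : ∀ e ∈ G.edgeSet, 0 < ℓ e)
    (h1 : ∀ u v, G.Adj u v → |h u - h v| ≤ ℓ s(u, v)) (hlow : ∀ v, v ≠ s → ∃ u, Tt G ℓ h u v)
    (hhigh : ∀ v, v ∉ B → ∃ u, Tt G ℓ h v u) {H : V → ℝ} (hH : ∀ v, 0 < H v)
    (hHl : ∀ u v, G.Adj u v → |H u - H v| ≤ ℓ s(u, v)) :
    Pointed2D G ℓ H (pathDist G ℓ) (4 * (rounds B.card : ℕ))
      (96 * (1000000000000000 * C₀ * (5 * ((ll (Nat.card V) : ℝ) + 1))) + 112) := by
  classical
  have := Fintype.ofFinite V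
  have hp0 : ∀ v, ∃ u, v ≠ s → Tt G ℓ h u v := by
    intro v
    by_cases hv : v = s
    · exact ⟨v, fun k => absurd hv k⟩
    · obtain ⟨u, hu⟩ := hlow v hv
      exact ⟨u, fun _ => hu⟩
  choose p hp using hp0
  have hd := pathDist_isMet hc hℓ
  have hu : ∀ a b, |h a - h b| ≤ pathDist G ℓ a b := pathDist_gen hc h1
  have hK0 : (0 : ℝ) ≤ (ll (Nat.card V) : ℝ) := Nat.cast_nonneg _
  have hseps : Seps G p s := by
    refine hSep V G σ h s p hc hP fun v hv => ?_
    obtain ⟨h3, h4⟩ := hp v hv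
    have h5 := hℓ s(p v, v) h3
    exact ⟨h3.symm, by linarith⟩
  refine pointed2_of_seps hc hℓ (u := h) hu hseps ?_ B (by positivity) (rounds B.card)
    (rounds_ok B.card) ?_ hH hHl
  · intro c a ha b hb
    rcases Orb.total ha hb with k | k
    · exact (orb_tight hc hℓ hp k).trans (le_abs_self _)
    · rw [hd.symm, abs_sub_comm]
      exact (orb_tight hc hℓ hp k).trans (le_abs_self _)
  · intro C hCk v hv hno
    have hconn := pc_connected hℓ hp C v
    have hsub : compSet G (UC p s C) v ⊆ Pc G p s C v := Set.subset_union_left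
    refine ⟨Pc G p s C v, G.induce (Pc G p s C v), fun e => ℓ (e.map Subtype.val),
      fun a => ⟨a.1, hsub a.2⟩, Piece.induce hc hℓ hsub hconn, fun H' hH' hHl' => ?_⟩
    have hpos := induce_pos hℓ (Pc G p s C v)
    have hdS := pathDist_isMet hconn hpos
    have e1 := leaf_embeds hFew hC hM hc hP hℓ h1 hp hhigh C v hno
    have e2 : (1000000000000000 * C₀ * ((ll (Nat.card V) : ℝ) + 1 +
        Real.log (((C.card + 2 : ℕ) : ℝ) + 2))) ≤
        1000000000000000 * C₀ * (5 * ((ll (Nat.card V) : ℝ) + 1)) := by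
      refine mul_le_mul_of_nonneg_left ?_ (by positivity)
      have hBV : B.card ≤ Nat.card V := by
        rw [Nat.card_eq_fintype_card]
        exact Finset.card_le_univ B
      exact leaf_le (b := B.card) (n := Nat.card V) (n' := Nat.card V) (m := C.card + 2) le_rfl
        hBV (by omega)
    exact pointed_leafW (by positivity) hconn hpos hH' hHl' (embeds_mono hdS.nonneg e2 e1)

end Vale.Agent.P235.H341W
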