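import Vale.Agent.P235.R2.H341.Y2
import Vale.Agent.P235.R2.H324.Few2
import Vale.Agent.P235.R2.H802.T4Core

/-!
# The leaves and the tight vertex form, closed (helper341)
-/

namespace Vale.Agent.P235.H341W

open Finset Vale.Agent.P235 Vale.Agent.P235.Red Vale.Agent.P235.H718 Vale.Agent.P235.Few

/-- the leaves -/
theorem leafRow : SqR.LeafRow 1000000000000000 := by
  intro C₀ hC hM V _ G σ ℓ h s p B S hc hP hℓ h1 hp hB v hv hno
  have hp' : ∀ v, v ≠ s → Tt G ℓ h (p v) v := by
    intro v hv
    obtain ⟨h3, h4⟩ := hp v hv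
    exact ⟨h3.symm, by rw [Sym2.eq_swap]; exact h4⟩
  have hconn := pc_connected hℓ hp' S v
  have hsub : compSet G (UC p s S) v ⊆ Pc G p s S v := Set.subset_union_left
  refine ⟨Pc G p s S v, G.induce (Pc G p s S v), fun e => ℓ (e.map Subtype.val),
    fun a => ⟨a.1, hsub a.2⟩, Piece.induce hc hℓ hsub hconn, ?_⟩
  have e1 := leaf_embeds rowFewT hC hM hc hP hℓ h1 hp' hB S v hno
  have e2 : (((S.card + 2 : ℕ) : ℝ) + 2) = (S.card : ℝ) + 4 := by
    push_cast
    ring
  rw [e2] at e1
  exact e1

/-- **the tight vertex form**: plane graph, `h` nonexpansive, every vertex besides `s` has a tight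
edge downwards, every vertex outside `B` a tight edge upwards, all other edges are arbitrary -/
theorem coreT : SqR.CoreT (10 ^ 9 * 1000000000000000) :=
  SqR.coreT_of_leaf (by norm_num) leafRow

end Vale.Agent.P235.H341W
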